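import Vale.Agent.Lib.P075.Core

/-!
# P075: the Bellman step `BlockLemma`
-/

open Matrix

namespace Vale.Agent.Lib.P075

set_option linter.unusedSectionVars false

variable {ι : Type*} [Fintype ι] [DecidableEq ι]

/-! ### Jensen step -/

lemma OrthProj.sum_idem {P₀ P₁ : Matrix ι ι ℝ} (h : OrthProj P₀ P₁) :
    (P₀ + P₁) * (P₀ + P₁) = P₀ + P₁ := by
  have h10 : P₁ * P₀ = 0 := by
    have := congrArg Matrix.transpose h.orth
    simpa [Matrix.transpose_mul, h.symm₀, h.symm₁] using this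
  simp only [Matrix.add_mul, Matrix.mul_add, h.idem₀, h.idem₁, h.orth, h10]; simp

/-- One junction: `G_s(M Mᵀ + Nᵀ N)` plus its gap is at most the average over the four pairs
`(p_i, q_j, r_{i xor j})`. -/
lemma jensen_junction {s : ℝ} (hs : 0 < s) {M N : Matrix ι ι ℝ} {p q r : Bool → Matrix ι ι ℝ}
    (hp : OrthProj (p false) (p true)) (hq : OrthProj (q false) (q true))
    (hr : OrthProj (r false) (r true)) (hM : M * (q false + q true) = M)
    (hN : (r false + r true) * N = N) :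
    G s (M * Mᵀ + Nᵀ * N) + gap s (M * Mᵀ + Nᵀ * N) (p false) (p true) ≤
      (1 / 4 : ℝ) * ∑ i : Bool, ∑ j : Bool,
        G s (((2 : ℝ) • (p i * M * q j)) * ((2 : ℝ) • (p i * M * q j))ᵀ +
          ((2 : ℝ) • (r (xor i j) * N * p i))ᵀ * ((2 : ℝ) • (r (xor i j) * N * p i))) := by
  classical
  -- transposes of projections
  have hpt : ∀ i, (p i)ᵀ = p i := by
    intro i; cases i
    · exact hp.symm₀
    · exact hp.symm₁
  have hqt : ∀ i, (q i)ᵀ = q i := by
    intro i; cases i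
    · exact hq.symm₀
    · exact hq.symm₁
  have hrt : ∀ i, (r i)ᵀ = r i := by
    intro i; cases i
    · exact hr.symm₀
    · exact hr.symm₁
  have hqi : ∀ i, q i * q i = q i := by
    intro i; cases i
    · exact hq.idem₀
    · exact hq.idem₁
  have hri : ∀ i, r i * r i = r i := by
    intro i; cases i
    · exact hr.idem₀
    · exact hr.idem₁
  have hpi : ∀ i, p i * p i = p i := by
    intro i; cases i
    · exact hp.idem₀
    · exact hp.idem₁
  -- the basic decompositions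
  have hMM : M * Mᵀ = M * q false * Mᵀ + M * q true * Mᵀ := by
    calc M * Mᵀ = (M * (q false + q true)) * Mᵀ := by rw [hM]
      _ = _ := by rw [Matrix.mul_add, Matrix.add_mul]
  have hNN : Nᵀ * N = Nᵀ * r false * N + Nᵀ * r true * N := by
    calc Nᵀ * N = Nᵀ * ((r false + r true) * N) := by rw [hN]
      _ = _ := by rw [Matrix.add_mul, Matrix.mul_add]; simp only [Matrix.mul_assoc]
  -- block of the pair
  set B : Bool → Bool → Matrix ι ι ℝ := fun i j =>
    (2 : ℝ) • (p i * M * q j * Mᵀ * p i) + (2 : ℝ) • (p i * Nᵀ * r (xor i j) * N * p i) with hB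
  have hBpsd : ∀ i j, (B i j).PosSemidef := by
    intro i j
    have h1 : (p i * M * q j * Mᵀ * p i).PosSemidef := by
      have := psd_self_mul_transpose (p i * M * q j)
      have e : (p i * M * q j) * (p i * M * q j)ᵀ = p i * M * q j * Mᵀ * p i := by
        rw [Matrix.transpose_mul, Matrix.transpose_mul, hqt, hpt]
        calc p i * M * q j * (q j * (Mᵀ * p i)) = p i * M * (q j * q j) * (Mᵀ * p i) := by
              simp only [Matrix.mul_assoc]
          _ = _ := by rw [hqi]; simp only [Matrix.mul_assoc]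
      rwa [e] at this
    have h2 : (p i * Nᵀ * r (xor i j) * N * p i).PosSemidef := by
      have := psd_transpose_mul_self (r (xor i j) * N * p i)
      have e : (r (xor i j) * N * p i)ᵀ * (r (xor i j) * N * p i) =
          p i * Nᵀ * r (xor i j) * N * p i := by
        rw [Matrix.transpose_mul, Matrix.transpose_mul, hpt, hrt]
        calc p i * (Nᵀ * r (xor i j)) * (r (xor i j) * N * p i)
            = p i * Nᵀ * (r (xor i j) * r (xor i j)) * N * p i := by simp only [Matrix.mul_assoc]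
          _ = _ := by rw [hri]
      rwa [e] at this
    exact (h1.smul (by norm_num)).add (h2.smul (by norm_num))
  -- the pinched matrix splits
  have hsplit : ∀ i, (2 : ℝ) • (p i * (M * Mᵀ + Nᵀ * N) * p i) = B i false + B i true := by
    intro i
    simp only [hB]
    have e1 : p i * (M * Mᵀ + Nᵀ * N) * p i =
        p i * M * q false * Mᵀ * p i + p i * M * q true * Mᵀ * p i +
          (p i * Nᵀ * r false * N * p i + p i * Nᵀ * r true * N * p i) := by
      rw [hMM, hNN]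
      simp only [Matrix.mul_add, Matrix.add_mul, Matrix.mul_assoc]
    rw [e1]
    cases i
    · simp only [Bool.xor_false, Bool.xor_true, Bool.not_false, smul_add]
      abel
    · simp only [Bool.xor_false, Bool.xor_true, Bool.not_true, smul_add]
      abel
  -- the doubled blocks are the child matrices
  have hchild : ∀ i j, (2 : ℝ) • B i j =
      ((2 : ℝ) • (p i * M * q j)) * ((2 : ℝ) • (p i * M * q j))ᵀ +
        ((2 : ℝ) • (r (xor i j) * N * p i))ᵀ * ((2 : ℝ) • (r (xor i j) * N * p i)) := by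
    intro i j
    simp only [hB, Matrix.transpose_smul, Matrix.smul_mul, Matrix.mul_smul, Matrix.transpose_mul,
      hqt, hpt, hrt, smul_add, smul_smul]
    have e1 : p i * M * q j * (q j * (Mᵀ * p i)) = p i * M * q j * Mᵀ * p i := by
      calc p i * M * q j * (q j * (Mᵀ * p i)) = p i * M * (q j * q j) * (Mᵀ * p i) := by
            simp only [Matrix.mul_assoc]
        _ = _ := by rw [hqi]; simp only [Matrix.mul_assoc]
    have e2 : p i * (Nᵀ * r (xor i j)) * (r (xor i j) * N * p i) =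
        p i * Nᵀ * r (xor i j) * N * p i := by
      calc p i * (Nᵀ * r (xor i j)) * (r (xor i j) * N * p i)
          = p i * Nᵀ * (r (xor i j) * r (xor i j)) * N * p i := by simp only [Matrix.mul_assoc]
        _ = _ := by rw [hri]
    rw [e1, e2]
  -- conclude
  have hJ : ∀ i, G s ((2 : ℝ) • (p i * (M * Mᵀ + Nᵀ * N) * p i)) ≤
      (1 / 2) * G s ((2 : ℝ) • B i false) + (1 / 2) * G s ((2 : ℝ) • B i true) := by
    intro i
    rw [hsplit]
    exact G_add_le hs (hBpsd i false) (hBpsd i true)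
  have hsum : ∑ i : Bool, ∑ j : Bool,
      G s (((2 : ℝ) • (p i * M * q j)) * ((2 : ℝ) • (p i * M * q j))ᵀ +
          ((2 : ℝ) • (r (xor i j) * N * p i))ᵀ * ((2 : ℝ) • (r (xor i j) * N * p i))) =
      ∑ i : Bool, ∑ j : Bool, G s ((2 : ℝ) • B i j) := by
    refine Finset.sum_congr rfl fun i _ => Finset.sum_congr rfl fun j _ => ?_
    rw [hchild]
  rw [hsum]
  unfold gap
  have h0 := hJ false
  have h1 := hJ true
  simp only [Fintype.sum_bool]
  linarith

/-! ### Contractions and truncation limits -/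

lemma fro_eq_trace (M : Matrix ι ι ℝ) : fro M = trace (M * Mᵀ) := by
  unfold fro
  simp only [Matrix.trace, Matrix.diag_apply, Matrix.mul_apply, Matrix.transpose_apply, pow_two]

lemma contr_conj {O P₀ P₁ : Matrix ι ι ℝ} (h1 : Oᵀ * O = 1) (h2 : O * Oᵀ = 1)
    (hP : OrthProj P₀ P₁) : Contr (Oᵀ * (P₀ - P₁) * O) := by
  intro M
  have h10 : P₁ * P₀ = 0 := by
    have := congrArg Matrix.transpose hP.orth
    simpa [Matrix.transpose_mul, hP.symm₀, hP.symm₁] using this
  set U := P₀ - P₁ with hU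
  have hUt : Uᵀ = U := by rw [hU, transpose_sub, hP.symm₀, hP.symm₁]
  have hUU : U * U = P₀ + P₁ := by
    rw [hU]; simp only [Matrix.sub_mul, Matrix.mul_sub, hP.idem₀, hP.idem₁, hP.orth, h10]; simp
  set D := 1 - (P₀ + P₁) with hD
  have hDt : Dᵀ = D := by rw [hD, transpose_sub, transpose_add, transpose_one, hP.symm₀, hP.symm₁]
  have hDD : D * D = D := by
    rw [hD]
    have := OrthProj.sum_idem hP
    simp only [Matrix.sub_mul, Matrix.mul_sub, Matrix.one_mul, Matrix.mul_one, this]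
    abel
  rw [fro_eq_trace, fro_eq_trace]
  have e1 : (M * (Oᵀ * U * O)) * (M * (Oᵀ * U * O))ᵀ = M * Oᵀ * (P₀ + P₁) * (O * Mᵀ) := by
    simp only [Matrix.transpose_mul, Matrix.transpose_transpose, hUt]
    calc M * (Oᵀ * U * O) * (Oᵀ * (U * O) * Mᵀ) = M * Oᵀ * (U * (O * Oᵀ) * U) * (O * Mᵀ) := by
          simp only [Matrix.mul_assoc]
      _ = _ := by rw [h2, Matrix.mul_one, hUU]
  have e2 : (M * Oᵀ * D) * (M * Oᵀ * D)ᵀ = M * Oᵀ * D * (O * Mᵀ) := by
    simp only [Matrix.transpose_mul, Matrix.transpose_transpose, hDt]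
    calc M * Oᵀ * D * (D * (O * Mᵀ)) = M * Oᵀ * (D * D) * (O * Mᵀ) := by
          simp only [Matrix.mul_assoc]
      _ = _ := by rw [hDD]
  have e3 : M * Mᵀ = M * Oᵀ * (P₀ + P₁) * (O * Mᵀ) + M * Oᵀ * D * (O * Mᵀ) := by
    rw [← Matrix.add_mul, ← Matrix.mul_add, hD]
    simp only [add_sub_cancel, Matrix.mul_one, Matrix.mul_assoc]
    rw [← Matrix.mul_assoc Oᵀ O, h1, Matrix.one_mul]
  rw [e1, e3, trace_add]
  have h0 : 0 ≤ trace (M * Oᵀ * D * (O * Mᵀ)) := by
    rw [← e2, ← fro_eq_trace]; exact fro_nonneg _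
  linarith

lemma exists_range (f : ι → ℝ) : ∃ L₀ : ℕ, ∀ i, ∀ L : ℕ, L₀ ≤ L →
    (f i ≤ (4 : ℝ) ^ (L : ℤ)) ∧ (0 < f i → (4 : ℝ) ^ (-(L : ℤ)) < f i) := by
  have hone : ∀ v : ℝ, ∃ n : ℕ, ∀ L : ℕ, n ≤ L →
      (v ≤ (4 : ℝ) ^ (L : ℤ)) ∧ (0 < v → (4 : ℝ) ^ (-(L : ℤ)) < v) := by
    intro v
    obtain ⟨n₁, hn₁⟩ := pow_unbounded_of_one_lt v (show (1 : ℝ) < 4 by norm_num)
    obtain ⟨n₂, hn₂⟩ := pow_unbounded_of_one_lt (v⁻¹) (show (1 : ℝ) < 4 by norm_num)
    refine ⟨max n₁ n₂, fun L hL => ⟨?_, fun hv => ?_⟩⟩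
    · have : (4 : ℝ) ^ n₁ ≤ (4 : ℝ) ^ L :=
        pow_le_pow_right₀ (by norm_num) (le_trans (le_max_left _ _) hL)
      rw [zpow_natCast]
      linarith
    · have h3 : (4 : ℝ) ^ n₂ ≤ (4 : ℝ) ^ L :=
        pow_le_pow_right₀ (by norm_num) (le_trans (le_max_right _ _) hL)
      have h4 : v⁻¹ < (4 : ℝ) ^ L := lt_of_lt_of_le hn₂ h3
      rw [_root_.zpow_neg, zpow_natCast]
      have := inv_lt_of_inv_lt₀ hv h4
      exact this
  choose n hn using hone
  refine ⟨Finset.univ.sup (fun i => n (f i)), fun i L hL => hn (f i) L ?_⟩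
  exact le_trans (Finset.le_sup (f := fun i => n (f i)) (Finset.mem_univ i)) hL

lemma abs_sub_le_sum_Icc (f g : ℤ → ℝ) (hg : ∀ M, 0 ≤ g M) (hstep : ∀ M, |f M - f (M - 1)| ≤ g M)
    (a : ℤ) (n : ℕ) : |f (a + n) - f a| ≤ ∑ M ∈ Finset.Icc a (a + n), g M := by
  induction n with
  | zero =>
    simp only [Nat.cast_zero, add_zero, sub_self, abs_zero, Finset.Icc_self, Finset.sum_singleton]
    exact hg a
  | succ n ih =>
    have hins : Finset.Icc a (a + (n + 1 : ℕ)) = insert (a + (n + 1 : ℕ)) (Finset.Icc a (a + n)) := by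
      ext x; simp only [Finset.mem_Icc, Finset.mem_insert]; push_cast; omega
    have hnot : a + (n + 1 : ℕ) ∉ Finset.Icc a (a + n) := by
      simp only [Finset.mem_Icc]; push_cast; omega
    rw [hins, Finset.sum_insert hnot]
    have h1 := hstep (a + (n + 1 : ℕ))
    have e : a + ((n + 1 : ℕ) : ℤ) - 1 = a + n := by push_cast; ring
    rw [e] at h1
    calc |f (a + (n + 1 : ℕ)) - f a| = |(f (a + (n + 1 : ℕ)) - f (a + n)) + (f (a + n) - f a)| := by
          ring_nf
      _ ≤ |f (a + (n + 1 : ℕ)) - f (a + n)| + |f (a + n) - f a| := abs_add_le _ _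
      _ ≤ _ := add_le_add h1 ih

/-- The trace of the twisted product is dominated by the weighted sum of the three gaps. -/
theorem trace_le_gaps (X Y Z : Matrix ι ι ℝ) (a b c : Bool → Matrix ι ι ℝ)
    (ha : OrthProj (a false) (a true)) (hb : OrthProj (b false) (b true))
    (hc : OrthProj (c false) (c true))
    (haX : (a false + a true) * X = X) (hXb : X * (b false + b true) = X)
    (hbY : (b false + b true) * Y = Y) (hYc : Y * (c false + c true) = Y)
    (hcZ : (c false + c true) * Z = Z) (hZa : Z * (a false + a true) = Z) :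
    ∃ L₀ : ℕ, ∀ L : ℕ, L₀ ≤ L →
      |trace ((a false - a true) * X * (b false - b true) * Y * (c false - c true) * Z)| ≤
        32 * ∑ M ∈ Finset.Icc (-(L : ℤ)) (L : ℤ), (2 : ℝ) ^ M *
          (gap ((4 : ℝ) ^ M) (X * Xᵀ + Zᵀ * Z) (a false) (a true) +
            gap ((4 : ℝ) ^ M) (Y * Yᵀ + Xᵀ * X) (b false) (b true) +
            gap ((4 : ℝ) ^ M) (Z * Zᵀ + Yᵀ * Y) (c false) (c true)) := by
  classical
  set Aa := X * Xᵀ + Zᵀ * Z with hAa
  set Ab := Y * Yᵀ + Xᵀ * X with hAb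
  set Ac := Z * Zᵀ + Yᵀ * Y with hAc
  have pA : Aa.PosSemidef := (psd_self_mul_transpose X).add (psd_transpose_mul_self Z)
  have pB : Ab.PosSemidef := (psd_self_mul_transpose Y).add (psd_transpose_mul_self X)
  have pC : Ac.PosSemidef := (psd_self_mul_transpose Z).add (psd_transpose_mul_self Y)
  obtain ⟨Oa, la, hOa1, hOa2, hla, hAaO⟩ := exists_orth_diag pA
  obtain ⟨Ob, lb, hOb1, hOb2, hlb, hAbO⟩ := exists_orth_diag pB
  obtain ⟨Oc, lc, hOc1, hOc2, hlc, hAcO⟩ := exists_orth_diag pC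
  -- supports of the junction matrices
  have hZa' : (a false + a true) * Zᵀ = Zᵀ := by
    have := congrArg Matrix.transpose hZa
    simpa [Matrix.transpose_mul, Matrix.transpose_add, ha.symm₀, ha.symm₁] using this
  have hXb' : (b false + b true) * Xᵀ = Xᵀ := by
    have := congrArg Matrix.transpose hXb
    simpa [Matrix.transpose_mul, Matrix.transpose_add, hb.symm₀, hb.symm₁] using this
  have hYc' : (c false + c true) * Yᵀ = Yᵀ := by
    have := congrArg Matrix.transpose hYc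
    simpa [Matrix.transpose_mul, Matrix.transpose_add, hc.symm₀, hc.symm₁] using this
  have sA : (a false + a true) * Aa = Aa := by
    rw [hAa, Matrix.mul_add, ← Matrix.mul_assoc, ← Matrix.mul_assoc, haX, hZa']
  have sB : (b false + b true) * Ab = Ab := by
    rw [hAb, Matrix.mul_add, ← Matrix.mul_assoc, ← Matrix.mul_assoc, hbY, hXb']
  have sC : (c false + c true) * Ac = Ac := by
    rw [hAc, Matrix.mul_add, ← Matrix.mul_assoc, ← Matrix.mul_assoc, hcZ, hYc']
  -- the triple in eigenbases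
  set X' := Oaᵀ * X * Ob with hX'
  set Y' := Obᵀ * Y * Oc with hY'
  set Z' := Ocᵀ * Z * Oa with hZ'
  set Va := Oaᵀ * (a false - a true) * Oa with hVa
  set Vb := Obᵀ * (b false - b true) * Ob with hVb
  set Vc := Ocᵀ * (c false - c true) * Oc with hVc
  have hdiag_conj : ∀ (O : Matrix ι ι ℝ) (l : ι → ℝ), Oᵀ * O = 1 →
      Oᵀ * (O * diagonal l * Oᵀ) * O = diagonal l := by
    intro O l h1
    calc Oᵀ * (O * diagonal l * Oᵀ) * O = (Oᵀ * O) * diagonal l * (Oᵀ * O) := by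
          simp only [Matrix.mul_assoc]
      _ = _ := by rw [h1, Matrix.one_mul, Matrix.mul_one]
  have hD : Diag3 X' Y' Z' la lb lc := by
    refine ⟨?_, ?_, ?_, hla, hlb, hlc⟩
    · have e : X' * X'ᵀ + Z'ᵀ * Z' = Oaᵀ * Aa * Oa := by
        rw [hX', hZ', hAa]
        simp only [Matrix.transpose_mul, Matrix.transpose_transpose]
        rw [Matrix.mul_add, Matrix.add_mul]
        congr 1
        · calc Oaᵀ * X * Ob * (Obᵀ * (Xᵀ * Oa)) = Oaᵀ * X * (Ob * Obᵀ) * (Xᵀ * Oa) := by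
                simp only [Matrix.mul_assoc]
            _ = _ := by rw [hOb2, Matrix.mul_one]; simp only [Matrix.mul_assoc]
        · calc Oaᵀ * (Zᵀ * Oc) * (Ocᵀ * Z * Oa) = Oaᵀ * Zᵀ * (Oc * Ocᵀ) * Z * Oa := by
                simp only [Matrix.mul_assoc]
            _ = _ := by rw [hOc2, Matrix.mul_one]; simp only [Matrix.mul_assoc]
      rw [e, hAaO]
      exact hdiag_conj Oa la hOa1
    · have e : Y' * Y'ᵀ + X'ᵀ * X' = Obᵀ * Ab * Ob := by
        rw [hY', hX', hAb]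
        simp only [Matrix.transpose_mul, Matrix.transpose_transpose]
        rw [Matrix.mul_add, Matrix.add_mul]
        congr 1
        · calc Obᵀ * Y * Oc * (Ocᵀ * (Yᵀ * Ob)) = Obᵀ * Y * (Oc * Ocᵀ) * (Yᵀ * Ob) := by
                simp only [Matrix.mul_assoc]
            _ = _ := by rw [hOc2, Matrix.mul_one]; simp only [Matrix.mul_assoc]
        · calc Obᵀ * (Xᵀ * Oa) * (Oaᵀ * X * Ob) = Obᵀ * Xᵀ * (Oa * Oaᵀ) * X * Ob := by
                simp only [Matrix.mul_assoc]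
            _ = _ := by rw [hOa2, Matrix.mul_one]; simp only [Matrix.mul_assoc]
      rw [e, hAbO]
      exact hdiag_conj Ob lb hOb1
    · have e : Z' * Z'ᵀ + Y'ᵀ * Y' = Ocᵀ * Ac * Oc := by
        rw [hZ', hY', hAc]
        simp only [Matrix.transpose_mul, Matrix.transpose_transpose]
        rw [Matrix.mul_add, Matrix.add_mul]
        congr 1
        · calc Ocᵀ * Z * Oa * (Oaᵀ * (Zᵀ * Oc)) = Ocᵀ * Z * (Oa * Oaᵀ) * (Zᵀ * Oc) := by
                simp only [Matrix.mul_assoc]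
            _ = _ := by rw [hOa2, Matrix.mul_one]; simp only [Matrix.mul_assoc]
        · calc Ocᵀ * (Yᵀ * Ob) * (Obᵀ * Y * Oc) = Ocᵀ * Yᵀ * (Ob * Obᵀ) * Y * Oc := by
                simp only [Matrix.mul_assoc]
            _ = _ := by rw [hOb2, Matrix.mul_one]; simp only [Matrix.mul_assoc]
      rw [e, hAcO]
      exact hdiag_conj Oc lc hOc1
  have cA : Contr Va := contr_conj hOa1 hOa2 ha
  have cB : Contr Vb := contr_conj hOb1 hOb2 hb
  have cC : Contr Vc := contr_conj hOc1 hOc2 hc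
  -- the trace in eigenbases
  have htrace : trace ((a false - a true) * X * (b false - b true) * Y * (c false - c true) * Z) =
      trace (Va * X' * Vb * Y' * Vc * Z') := by
    have e : Va * X' * Vb * Y' * Vc * Z' =
        Oaᵀ * ((a false - a true) * X * (b false - b true) * Y * (c false - c true) * Z) * Oa := by
      rw [hVa, hX', hVb, hY', hVc, hZ']
      calc Oaᵀ * (a false - a true) * Oa * (Oaᵀ * X * Ob) * (Obᵀ * (b false - b true) * Ob) *
            (Obᵀ * Y * Oc) * (Ocᵀ * (c false - c true) * Oc) * (Ocᵀ * Z * Oa)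
          = Oaᵀ * (a false - a true) * (Oa * Oaᵀ) * X * (Ob * Obᵀ) * (b false - b true) *
            (Ob * Obᵀ) * Y * (Oc * Ocᵀ) * (c false - c true) * (Oc * Ocᵀ) * Z * Oa := by
            simp only [Matrix.mul_assoc]
        _ = _ := by
            rw [hOa2, hOb2, hOc2]
            simp only [Matrix.mul_one, Matrix.mul_assoc]
    rw [e, Matrix.trace_mul_comm (Oaᵀ * _) Oa, ← Matrix.mul_assoc, hOa2, Matrix.one_mul]
  -- the common range
  obtain ⟨La, hLa⟩ := exists_range la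
  obtain ⟨Lb, hLb⟩ := exists_range lb
  obtain ⟨Lc, hLc⟩ := exists_range lc
  refine ⟨max La (max Lb Lc), fun L hL => ?_⟩
  have hLa' : La ≤ L := le_trans (le_max_left _ _) hL
  have hLb' : Lb ≤ L := le_trans (le_trans (le_max_left _ _) (le_max_right _ _)) hL
  have hLc' : Lc ≤ L := le_trans (le_trans (le_max_right _ _) (le_max_right _ _)) hL
  set f : ℤ → ℝ := fun M => tau ((4 : ℝ) ^ M) X' Y' Z' Va Vb Vc la lb lc with hf
  -- the top
  have htop : f (L : ℤ) = trace (Va * X' * Vb * Y' * Vc * Z') := by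
    have h1 : ∀ (l : ι → ℝ), (∀ i, l i ≤ (4 : ℝ) ^ (L : ℤ)) →
        diagonal (ind ((4 : ℝ) ^ (L : ℤ)) l) = (1 : Matrix ι ι ℝ) := by
      intro l hl
      rw [← Matrix.diagonal_one]
      congr 1
      funext i
      simp only [ind, if_pos (hl i)]
    simp only [hf, tau]
    rw [h1 la fun i => (hLa i L hLa').1, h1 lb fun i => (hLb i L hLb').1,
      h1 lc fun i => (hLc i L hLc').1]
    simp only [Matrix.one_mul, Matrix.mul_one]
  -- the bottom
  have hbot : f (-(L : ℤ)) = 0 := by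
    have hX0 : X' * diagonal (ind ((4 : ℝ) ^ (-(L : ℤ))) lb) = 0 := by
      ext i j
      rw [Matrix.mul_diagonal, Matrix.zero_apply]
      unfold ind
      by_cases hj : lb j ≤ (4 : ℝ) ^ (-(L : ℤ))
      · have h0 : lb j = 0 := by
          by_contra hne
          have hpos : 0 < lb j := lt_of_le_of_ne (hlb j) (Ne.symm hne)
          have := (hLb j L hLb').2 hpos
          linarith
        have hjj := congrFun (congrFun hD.hb j) j
        simp only [Matrix.add_apply, Matrix.mul_apply, Matrix.transpose_apply,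
          Matrix.diagonal_apply_eq, h0] at hjj
        have hnn1 : 0 ≤ ∑ k, Y' j k * Y' j k :=
          Finset.sum_nonneg fun k _ => mul_self_nonneg _
        have hnn2 : ∀ k ∈ Finset.univ, 0 ≤ X' k j * X' k j := fun k _ => mul_self_nonneg _
        have hsum0 : ∑ k, X' k j * X' k j = 0 := by
          have hnn3 : 0 ≤ ∑ k, X' k j * X' k j := Finset.sum_nonneg hnn2
          linarith
        have := (Finset.sum_eq_zero_iff_of_nonneg hnn2).1 hsum0 i (Finset.mem_univ i)
        have hXij : X' i j = 0 := mul_self_eq_zero.1 this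
        simp [hXij]
      · simp only [if_neg hj, mul_zero]
    simp only [hf, tau]
    have e : (diagonal (ind ((4 : ℝ) ^ (-(L : ℤ))) la) * Va *
          diagonal (ind ((4 : ℝ) ^ (-(L : ℤ))) la)) * X' *
        (diagonal (ind ((4 : ℝ) ^ (-(L : ℤ))) lb) * Vb *
          diagonal (ind ((4 : ℝ) ^ (-(L : ℤ))) lb)) * Y' *
        (diagonal (ind ((4 : ℝ) ^ (-(L : ℤ))) lc) * Vc *
          diagonal (ind ((4 : ℝ) ^ (-(L : ℤ))) lc)) * Z' =
        (diagonal (ind ((4 : ℝ) ^ (-(L : ℤ))) la) * Va *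
          diagonal (ind ((4 : ℝ) ^ (-(L : ℤ))) la)) *
        (X' * diagonal (ind ((4 : ℝ) ^ (-(L : ℤ))) lb)) * Vb *
          diagonal (ind ((4 : ℝ) ^ (-(L : ℤ))) lb) * Y' *
        (diagonal (ind ((4 : ℝ) ^ (-(L : ℤ))) lc) * Vc *
          diagonal (ind ((4 : ℝ) ^ (-(L : ℤ))) lc)) * Z' := by
      simp only [Matrix.mul_assoc]
    rw [e, hX0]
    simp
  -- the step bound with gaps
  set g : ℤ → ℝ := fun M => 32 * ((2 : ℝ) ^ M *
      (gap ((4 : ℝ) ^ M) Aa (a false) (a true) + gap ((4 : ℝ) ^ M) Ab (b false) (b true) +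
        gap ((4 : ℝ) ^ M) Ac (c false) (c true))) with hg
  have hpow_pos : ∀ M : ℤ, (0 : ℝ) < (4 : ℝ) ^ M := fun M => zpow_pos (by norm_num) M
  have h2pos : ∀ M : ℤ, (0 : ℝ) < (2 : ℝ) ^ M := fun M => zpow_pos (by norm_num) M
  have hgapA := fun M => gap_ge_Qsum (s := (4 : ℝ) ^ M) (hpow_pos M) pA hOa1 hOa2 hla hAaO ha sA
  have hgapB := fun M => gap_ge_Qsum (s := (4 : ℝ) ^ M) (hpow_pos M) pB hOb1 hOb2 hlb hAbO hb sB
  have hgapC := fun M => gap_ge_Qsum (s := (4 : ℝ) ^ M) (hpow_pos M) pC hOc1 hOc2 hlc hAcO hc sC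
  have hg0 : ∀ M, 0 ≤ g M := by
    intro M
    have hp := hpow_pos M
    have h8 : 0 < 8 * (4 : ℝ) ^ M := by positivity
    have hA0 : 0 ≤ gap ((4 : ℝ) ^ M) Aa (a false) (a true) := by
      have := le_trans (Qsum_nonneg _ hla Va) (hgapA M)
      exact nonneg_of_mul_nonneg_right this h8
    have hB0 : 0 ≤ gap ((4 : ℝ) ^ M) Ab (b false) (b true) := by
      have := le_trans (Qsum_nonneg _ hlb Vb) (hgapB M)
      exact nonneg_of_mul_nonneg_right this h8
    have hC0 : 0 ≤ gap ((4 : ℝ) ^ M) Ac (c false) (c true) := by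
      have := le_trans (Qsum_nonneg _ hlc Vc) (hgapC M)
      exact nonneg_of_mul_nonneg_right this h8
    have := h2pos M
    simp only [hg]
    positivity
  have hstep : ∀ M, |f M - f (M - 1)| ≤ g M := by
    intro M
    have hs := hpow_pos M
    have hquarter : (4 : ℝ) ^ M / 4 = (4 : ℝ) ^ (M - 1) := by
      rw [zpow_sub₀ (by norm_num), zpow_one]
    have hsqrt : Real.sqrt ((4 : ℝ) ^ M) = (2 : ℝ) ^ M := by
      have : (4 : ℝ) ^ M = ((2 : ℝ) ^ M) ^ 2 := by
        rw [show (4 : ℝ) = 2 ^ 2 by norm_num, ← zpow_natCast (2 : ℝ) 2, ← zpow_natCast _ 2,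
          ← _root_.zpow_mul, ← _root_.zpow_mul, mul_comm]
      rw [this, Real.sqrt_sq (h2pos M).le]
    have hst := tau_step hD (s := (4 : ℝ) ^ M) hs cA cB cC
    rw [hquarter, hsqrt] at hst
    refine le_trans hst ?_
    simp only [hg]
    have hQ : Qsum ((4 : ℝ) ^ M) la Va + Qsum ((4 : ℝ) ^ M) lb Vb + Qsum ((4 : ℝ) ^ M) lc Vc ≤
        8 * (4 : ℝ) ^ M * (gap ((4 : ℝ) ^ M) Aa (a false) (a true) +
          gap ((4 : ℝ) ^ M) Ab (b false) (b true) + gap ((4 : ℝ) ^ M) Ac (c false) (c true)) := by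
      have h1 := hgapA M
      have h2 := hgapB M
      have h3 := hgapC M
      nlinarith
    have hfrac : 0 ≤ 4 / (2 : ℝ) ^ M := by have := h2pos M; positivity
    refine le_trans (mul_le_mul_of_nonneg_left hQ hfrac) (le_of_eq ?_)
    have h4 : (4 : ℝ) ^ M = (2 : ℝ) ^ M * (2 : ℝ) ^ M := by
      rw [← zpow_add₀ (by norm_num), ← two_mul, show (4 : ℝ) = 2 ^ 2 by norm_num,
        ← zpow_natCast (2 : ℝ) 2, ← _root_.zpow_mul]
      norm_num
    rw [h4]
    have := (h2pos M).ne'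
    field_simp
    ring
  -- telescoping
  have hmain := abs_sub_le_sum_Icc f g hg0 hstep (-(L : ℤ)) (2 * L)
  have he : -(L : ℤ) + ((2 * L : ℕ) : ℤ) = (L : ℤ) := by push_cast; ring
  rw [he, htop, hbot, sub_zero] at hmain
  rw [htrace, Finset.mul_sum]
  exact hmain

/-- The Bellman step. -/
theorem blockLemma : BlockLemma := by
  intro ι _ _ X Y Z a b c ha hb hc haX hXb hbY hYc hcZ hZa
  obtain ⟨L₀, hL₀⟩ := trace_le_gaps X Y Z a b c ha hb hc haX hXb hbY hYc hcZ hZa
  refine ⟨L₀, fun L hL => ?_⟩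
  have hT := hL₀ L hL
  -- the three Jensen inequalities at each scale
  have hpow_pos : ∀ M : ℤ, (0 : ℝ) < (4 : ℝ) ^ M := fun M => zpow_pos (by norm_num) M
  have h2pos : ∀ M : ℤ, (0 : ℝ) < (2 : ℝ) ^ M := fun M => zpow_pos (by norm_num) M
  have hJa := fun M : ℤ => jensen_junction (s := (4 : ℝ) ^ M) (hpow_pos M) (M := X) (N := Z)
    (p := a) (q := b) (r := c) ha hb hc hXb hcZ
  have hJb := fun M : ℤ => jensen_junction (s := (4 : ℝ) ^ M) (hpow_pos M) (M := Y) (N := X)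
    (p := b) (q := c) (r := a) hb hc ha hYc haX
  have hJc := fun M : ℤ => jensen_junction (s := (4 : ℝ) ^ M) (hpow_pos M) (M := Z) (N := Y)
    (p := c) (q := a) (r := b) hc ha hb hZa hbY
  -- the pointwise inequality
  have hM : ∀ M : ℤ, (2 : ℝ) ^ M *
      (G ((4 : ℝ) ^ M) (X * Xᵀ + Zᵀ * Z) + G ((4 : ℝ) ^ M) (Y * Yᵀ + Xᵀ * X) +
        G ((4 : ℝ) ^ M) (Z * Zᵀ + Yᵀ * Y)) + (2 : ℝ) ^ M *
      (gap ((4 : ℝ) ^ M) (X * Xᵀ + Zᵀ * Z) (a false) (a true) +
        gap ((4 : ℝ) ^ M) (Y * Yᵀ + Xᵀ * X) (b false) (b true) +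
        gap ((4 : ℝ) ^ M) (Z * Zᵀ + Yᵀ * Y) (c false) (c true)) ≤
      (1 / 4 : ℝ) * ∑ i : Bool, ∑ j : Bool, (2 : ℝ) ^ M *
        (G ((4 : ℝ) ^ M) (((2 : ℝ) • (a i * X * b j)) * ((2 : ℝ) • (a i * X * b j))ᵀ +
            ((2 : ℝ) • (c (xor i j) * Z * a i))ᵀ * ((2 : ℝ) • (c (xor i j) * Z * a i))) +
          G ((4 : ℝ) ^ M) (((2 : ℝ) • (b j * Y * c (xor i j))) *
              ((2 : ℝ) • (b j * Y * c (xor i j)))ᵀ +
            ((2 : ℝ) • (a i * X * b j))ᵀ * ((2 : ℝ) • (a i * X * b j))) +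
          G ((4 : ℝ) ^ M) (((2 : ℝ) • (c (xor i j) * Z * a i)) *
              ((2 : ℝ) • (c (xor i j) * Z * a i))ᵀ +
            ((2 : ℝ) • (b j * Y * c (xor i j)))ᵀ * ((2 : ℝ) • (b j * Y * c (xor i j))))) := by
    intro M
    have h1 := hJa M
    have h2 := hJb M
    have h3 := hJc M
    simp only [Fintype.sum_bool, Bool.xor_false, Bool.xor_true, Bool.not_false,
      Bool.not_true] at h1 h2 h3 ⊢
    have hp := h2pos M
    rw [← mul_add]
    have key := mul_le_mul_of_nonneg_left (add_le_add (add_le_add h1 h2) h3) hp.le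
    refine le_trans (le_of_eq ?_) (le_trans key (le_of_eq ?_)) <;> ring
  have hsum := Finset.sum_le_sum (s := Finset.Icc (-(L : ℤ)) (L : ℤ)) fun M _ => hM M
  rw [Finset.sum_add_distrib] at hsum
  have e1 : ∑ M ∈ Finset.Icc (-(L : ℤ)) (L : ℤ), (1 / 4 : ℝ) * ∑ i : Bool, ∑ j : Bool,
      (2 : ℝ) ^ M *
        (G ((4 : ℝ) ^ M) (((2 : ℝ) • (a i * X * b j)) * ((2 : ℝ) • (a i * X * b j))ᵀ +
            ((2 : ℝ) • (c (xor i j) * Z * a i))ᵀ * ((2 : ℝ) • (c (xor i j) * Z * a i))) +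
          G ((4 : ℝ) ^ M) (((2 : ℝ) • (b j * Y * c (xor i j))) *
              ((2 : ℝ) • (b j * Y * c (xor i j)))ᵀ +
            ((2 : ℝ) • (a i * X * b j))ᵀ * ((2 : ℝ) • (a i * X * b j))) +
          G ((4 : ℝ) ^ M) (((2 : ℝ) • (c (xor i j) * Z * a i)) *
              ((2 : ℝ) • (c (xor i j) * Z * a i))ᵀ +
            ((2 : ℝ) • (b j * Y * c (xor i j)))ᵀ * ((2 : ℝ) • (b j * Y * c (xor i j))))) =
      (1 / 4 : ℝ) * ∑ i : Bool, ∑ j : Bool,
        W L ((2 : ℝ) • (a i * X * b j)) ((2 : ℝ) • (b j * Y * c (xor i j)))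
          ((2 : ℝ) • (c (xor i j) * Z * a i)) := by
    unfold W
    rw [← Finset.mul_sum]
    congr 1
    rw [Finset.sum_comm]
    refine Finset.sum_congr rfl fun i _ => ?_
    rw [Finset.sum_comm]
  rw [e1] at hsum
  have e2 : W L X Y Z = ∑ M ∈ Finset.Icc (-(L : ℤ)) (L : ℤ), (2 : ℝ) ^ M *
      (G ((4 : ℝ) ^ M) (X * Xᵀ + Zᵀ * Z) + G ((4 : ℝ) ^ M) (Y * Yᵀ + Xᵀ * X) +
        G ((4 : ℝ) ^ M) (Z * Zᵀ + Yᵀ * Y)) := rfl
  rw [← e2] at hsum
  have hT' : (1 / 32 : ℝ) * |trace ((a false - a true) * X * (b false - b true) * Y *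
      (c false - c true) * Z)| ≤ ∑ M ∈ Finset.Icc (-(L : ℤ)) (L : ℤ), (2 : ℝ) ^ M *
      (gap ((4 : ℝ) ^ M) (X * Xᵀ + Zᵀ * Z) (a false) (a true) +
        gap ((4 : ℝ) ^ M) (Y * Yᵀ + Xᵀ * X) (b false) (b true) +
        gap ((4 : ℝ) ^ M) (Z * Zᵀ + Yᵀ * Y) (c false) (c true)) := by
    linarith
  linarith

end Vale.Agent.Lib.P075
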