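import Vale.Agent.Lib.P075.Gap

/-!
# P075: the core estimate in eigenbases
-/

open Matrix

namespace Vale.Agent.Lib.P075

set_option linter.unusedSectionVars false

variable {ι : Type*} [Fintype ι] [DecidableEq ι]

/-- The squared Frobenius norm. -/
def fro (M : Matrix ι ι ℝ) : ℝ := ∑ i, ∑ j, M i j ^ 2

lemma fro_nonneg (M : Matrix ι ι ℝ) : 0 ≤ fro M :=
  Finset.sum_nonneg fun _ _ => Finset.sum_nonneg fun _ _ => sq_nonneg _

/-- The basic vector inequality. -/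
lemma vec_le {N₁ N₂ : Matrix ι ι ℝ} {l : ι → ℝ} (h : N₁ᵀ * N₁ + N₂ᵀ * N₂ = diagonal l)
    (b : ι → ℝ) : ∑ k, (∑ i, N₁ k i * b i) ^ 2 ≤ ∑ i, l i * b i ^ 2 := by
  have key : b ⬝ᵥ ((N₁ᵀ * N₁ + N₂ᵀ * N₂) *ᵥ b) =
      (N₁ *ᵥ b) ⬝ᵥ (N₁ *ᵥ b) + (N₂ *ᵥ b) ⬝ᵥ (N₂ *ᵥ b) := by
    rw [Matrix.add_mulVec, dotProduct_add, ← Matrix.mulVec_mulVec, ← Matrix.mulVec_mulVec,
      Matrix.dotProduct_mulVec b N₁ᵀ, Matrix.dotProduct_mulVec b N₂ᵀ, Matrix.vecMul_transpose,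
      Matrix.vecMul_transpose]
  rw [h] at key
  have e1 : b ⬝ᵥ (diagonal l *ᵥ b) = ∑ i, l i * b i ^ 2 := by
    simp only [dotProduct, Matrix.mulVec_diagonal]
    refine Finset.sum_congr rfl fun i _ => ?_
    ring
  have e2 : (N₁ *ᵥ b) ⬝ᵥ (N₁ *ᵥ b) = ∑ k, (∑ i, N₁ k i * b i) ^ 2 := by
    simp only [dotProduct, Matrix.mulVec]
    refine Finset.sum_congr rfl fun i _ => ?_
    ring
  have e3 : 0 ≤ (N₂ *ᵥ b) ⬝ᵥ (N₂ *ᵥ b) := by
    simp only [dotProduct]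
    exact Finset.sum_nonneg fun i _ => mul_self_nonneg _
  rw [e1, e2] at key
  linarith

lemma fro_left {N₁ N₂ : Matrix ι ι ℝ} {l : ι → ℝ} (h : N₁ᵀ * N₁ + N₂ᵀ * N₂ = diagonal l)
    (B : Matrix ι ι ℝ) : fro (N₁ * B) ≤ ∑ i, ∑ j, l i * B i j ^ 2 := by
  unfold fro
  simp only [Matrix.mul_apply]
  rw [Finset.sum_comm]
  rw [Finset.sum_comm (f := fun i j => l i * B i j ^ 2)]
  exact Finset.sum_le_sum fun j _ => vec_le h (fun i => B i j)

lemma fro_right {M₁ M₂ : Matrix ι ι ℝ} {l : ι → ℝ} (h : M₁ * M₁ᵀ + M₂ * M₂ᵀ = diagonal l)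
    (B : Matrix ι ι ℝ) : fro (B * M₁) ≤ ∑ i, ∑ j, B i j ^ 2 * l j := by
  have h' : M₁ᵀᵀ * M₁ᵀ + M₂ᵀᵀ * M₂ᵀ = diagonal l := by simpa using h
  unfold fro
  simp only [Matrix.mul_apply]
  refine Finset.sum_le_sum fun i _ => ?_
  have := vec_le h' (fun j => B i j)
  simp only [Matrix.transpose_apply] at this
  calc ∑ k, (∑ j, B i j * M₁ j k) ^ 2 = ∑ k, (∑ j, M₁ j k * B i j) ^ 2 := by
        simp only [mul_comm]
    _ ≤ ∑ j, l j * B i j ^ 2 := this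
    _ = ∑ j, B i j ^ 2 * l j := by simp only [mul_comm]

lemma fro_sandwich {N₁ N₂ M₁ M₂ : Matrix ι ι ℝ} {l l' : ι → ℝ}
    (h : N₁ᵀ * N₁ + N₂ᵀ * N₂ = diagonal l) (h' : M₁ * M₁ᵀ + M₂ * M₂ᵀ = diagonal l')
    (hl : ∀ i, 0 ≤ l i) (W : Matrix ι ι ℝ) :
    fro (N₁ * W * M₁) ≤ ∑ i, ∑ j, l i * l' j * W i j ^ 2 := by
  rw [Matrix.mul_assoc]
  refine le_trans (fro_left h (W * M₁)) ?_
  refine Finset.sum_le_sum fun i _ => ?_
  have h'' : M₁ᵀᵀ * M₁ᵀ + M₂ᵀᵀ * M₂ᵀ = diagonal l' := by simpa using h'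
  have := vec_le h'' (fun j => W i j)
  simp only [Matrix.transpose_apply] at this
  simp only [Matrix.mul_apply]
  rw [← Finset.mul_sum]
  calc l i * ∑ k, (∑ j, W i j * M₁ j k) ^ 2 = l i * ∑ k, (∑ j, M₁ j k * W i j) ^ 2 := by
        simp only [mul_comm (W i _)]
    _ ≤ l i * ∑ j, l' j * W i j ^ 2 := mul_le_mul_of_nonneg_left this (hl i)
    _ = ∑ j, l i * l' j * W i j ^ 2 := by
        rw [Finset.mul_sum]; refine Finset.sum_congr rfl fun j _ => ?_; ring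

/-- Cauchy-Schwarz for the trace. -/
lemma abs_trace_mul_le (B C : Matrix ι ι ℝ) :
    |trace (B * C)| ≤ Real.sqrt (fro B) * Real.sqrt (fro C) := by
  have e : trace (B * C) = ∑ p : ι × ι, B p.1 p.2 * C p.2 p.1 := by
    simp only [Matrix.trace, Matrix.diag_apply, Matrix.mul_apply]
    rw [Fintype.sum_prod_type]
  have f1 : fro B = ∑ p : ι × ι, B p.1 p.2 ^ 2 := by
    unfold fro; rw [Fintype.sum_prod_type]
  have f2 : fro C = ∑ p : ι × ι, C p.2 p.1 ^ 2 := by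
    unfold fro; rw [Fintype.sum_prod_type, Finset.sum_comm]
  rw [e, ← Real.sqrt_mul (fro_nonneg B), f1, f2]
  apply Real.abs_le_sqrt
  exact Finset.sum_mul_sq_le_sq_mul_sq _ _ _

/-- Contractions on the right, in the Frobenius sense. -/
def Contr (D : Matrix ι ι ℝ) : Prop := ∀ M : Matrix ι ι ℝ, fro (M * D) ≤ fro M

lemma contr_diag_mul {e e' : ι → ℝ} (he : ∀ i, e i ^ 2 ≤ 1) (he' : ∀ i, e' i ^ 2 ≤ 1)
    {V : Matrix ι ι ℝ} (hV : Contr V) : Contr (diagonal e * V * diagonal e') := by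
  intro M
  have h1 : ∀ (N : Matrix ι ι ℝ) (f : ι → ℝ), (∀ i, f i ^ 2 ≤ 1) → fro (N * diagonal f) ≤ fro N := by
    intro N f hf
    unfold fro
    refine Finset.sum_le_sum fun i _ => Finset.sum_le_sum fun j _ => ?_
    rw [Matrix.mul_diagonal, mul_pow]
    have := mul_le_mul_of_nonneg_left (hf j) (sq_nonneg (N i j))
    linarith
  calc fro (M * (diagonal e * V * diagonal e')) = fro (M * diagonal e * V * diagonal e') := by
        simp only [Matrix.mul_assoc]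
    _ ≤ fro (M * diagonal e * V) := h1 _ _ he'
    _ ≤ fro (M * diagonal e) := hV _
    _ ≤ fro M := h1 _ _ he

/-- The three diagonal identities of a triple in eigenbases. -/
structure Diag3 (X Y Z : Matrix ι ι ℝ) (la lb lc : ι → ℝ) : Prop where
  ha : X * Xᵀ + Zᵀ * Z = diagonal la
  hb : Y * Yᵀ + Xᵀ * X = diagonal lb
  hc : Z * Zᵀ + Yᵀ * Y = diagonal lc
  la0 : ∀ i, 0 ≤ la i
  lb0 : ∀ i, 0 ≤ lb i
  lc0 : ∀ i, 0 ≤ lc i

lemma Diag3.rot {X Y Z : Matrix ι ι ℝ} {la lb lc : ι → ℝ} (h : Diag3 X Y Z la lb lc) :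
    Diag3 Y Z X lb lc la :=
  ⟨h.hb, h.hc, h.ha, h.lb0, h.lc0, h.la0⟩

/-- The first Cauchy-Schwarz bound. -/
lemma boundA {X Y Z : Matrix ι ι ℝ} {la lb lc : ι → ℝ} (h : Diag3 X Y Z la lb lc)
    (Wa Wb D : Matrix ι ι ℝ) (hD : Contr D) :
    |trace (Wa * X * Wb * Y * D * Z)| ≤
      Real.sqrt (∑ i, ∑ j, la i * Wa i j ^ 2) *
        Real.sqrt (∑ i, ∑ j, lb i * lb j * Wb i j ^ 2) := by
  have e : trace (Wa * X * Wb * Y * D * Z) = trace ((Z * Wa) * (X * Wb * Y * D)) := by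
    rw [Matrix.trace_mul_comm]
    simp only [Matrix.mul_assoc]
  rw [e]
  refine le_trans (abs_trace_mul_le _ _) ?_
  have h1 : fro (Z * Wa) ≤ ∑ i, ∑ j, la i * Wa i j ^ 2 := by
    apply fro_left (N₂ := Xᵀ)
    rw [Matrix.transpose_transpose, add_comm]; exact h.ha
  have h2 : fro (X * Wb * Y * D) ≤ ∑ i, ∑ j, lb i * lb j * Wb i j ^ 2 := by
    refine le_trans (hD _) ?_
    apply fro_sandwich (N₂ := Yᵀ) (M₂ := Xᵀ) _ _ h.lb0
    · rw [Matrix.transpose_transpose, add_comm]; exact h.hb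
    · rw [Matrix.transpose_transpose]; exact h.hb
  exact mul_le_mul (Real.sqrt_le_sqrt h1) (Real.sqrt_le_sqrt h2) (Real.sqrt_nonneg _)
    (Real.sqrt_nonneg _)

/-- The second Cauchy-Schwarz bound. -/
lemma boundB {X Y Z : Matrix ι ι ℝ} {la lb lc : ι → ℝ} (h : Diag3 X Y Z la lb lc)
    (Wa Wb D : Matrix ι ι ℝ) (hD : Contr D) :
    |trace (Wa * X * Wb * Y * D * Z)| ≤
      Real.sqrt (∑ i, ∑ j, la i * la j * Wa i j ^ 2) *
        Real.sqrt (∑ i, ∑ j, Wb i j ^ 2 * lb j) := by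
  have e : trace (Wa * X * Wb * Y * D * Z) = trace ((Z * Wa * X) * (Wb * Y * D)) := by
    rw [Matrix.trace_mul_comm]
    simp only [Matrix.mul_assoc]
  rw [e]
  refine le_trans (abs_trace_mul_le _ _) ?_
  have h1 : fro (Z * Wa * X) ≤ ∑ i, ∑ j, la i * la j * Wa i j ^ 2 := by
    apply fro_sandwich (N₂ := Xᵀ) (M₂ := Zᵀ) _ _ h.la0
    · rw [Matrix.transpose_transpose, add_comm]; exact h.ha
    · rw [Matrix.transpose_transpose]; exact h.ha
  have h2 : fro (Wb * Y * D) ≤ ∑ i, ∑ j, Wb i j ^ 2 * lb j := by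
    refine le_trans (hD _) ?_
    apply fro_right (M₂ := Xᵀ)
    rw [Matrix.transpose_transpose]; exact h.hb
  exact mul_le_mul (Real.sqrt_le_sqrt h1) (Real.sqrt_le_sqrt h2) (Real.sqrt_nonneg _)
    (Real.sqrt_nonneg _)

/-- The indicator of the eigenvalues at most `s`. -/
noncomputable def ind (s : ℝ) (l : ι → ℝ) (i : ι) : ℝ := if l i ≤ s then 1 else 0

lemma ind_sq_le_one (s : ℝ) (l : ι → ℝ) (i : ι) : ind s l i ^ 2 ≤ 1 := by
  unfold ind; split_ifs <;> norm_num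

/-- `e` lives on the eigenvalues at most `s`. -/
def IsLe (s : ℝ) (l e : ι → ℝ) : Prop := ∀ i, e i ^ 2 ≤ ind s l i

/-- `p` lives on the band `(s/4, s]`. -/
def IsBand (s : ℝ) (l p : ι → ℝ) : Prop := ∀ i, p i ^ 2 ≤ 4 / s * l i * ind s l i

lemma isLe_ind (s : ℝ) (l : ι → ℝ) : IsLe s l (ind s l) := by
  intro i; unfold ind; split_ifs <;> norm_num

lemma isLe_ind_quarter {s : ℝ} (hs : 0 < s) (l : ι → ℝ) : IsLe s l (ind (s / 4) l) := by
  intro i
  unfold ind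
  by_cases h : l i ≤ s / 4
  · have : l i ≤ s := by linarith
    simp [h, this]
  · simp only [h, if_false]
    split_ifs <;> norm_num

lemma isBand_sub {s : ℝ} (hs : 0 < s) {l : ι → ℝ} (hl : ∀ i, 0 ≤ l i) :
    IsBand s l (ind s l - ind (s / 4) l) := by
  intro i
  simp only [Pi.sub_apply]
  unfold ind
  have h0 := hl i
  by_cases h : l i ≤ s / 4
  · have h' : l i ≤ s := by linarith
    simp only [h, h', if_true]
    have : 0 ≤ 4 / s * l i := by positivity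
    norm_num
    linarith
  · by_cases h' : l i ≤ s
    · simp only [h, h', if_true, if_false]
      have h2 : s / 4 < l i := not_le.1 h
      have : 1 ≤ 4 / s * l i := by
        rw [div_mul_eq_mul_div, le_div_iff₀ hs]; linarith
      norm_num
      linarith
    · simp [h, h']

lemma sqrt_four_div_mul {s Q : ℝ} (hs : 0 < s) (hQ : 0 ≤ Q) :
    Real.sqrt (4 / s * Q) = 2 / Real.sqrt s * Real.sqrt Q := by
  rw [Real.sqrt_mul (by positivity), Real.sqrt_div (by norm_num)]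
  congr 2
  rw [show (4 : ℝ) = 2 ^ 2 by norm_num, Real.sqrt_sq (by norm_num)]

lemma Qsum_nonneg (s : ℝ) {l : ι → ℝ} (hl : ∀ i, 0 ≤ l i) (V : Matrix ι ι ℝ) : 0 ≤ Qsum s l V := by
  unfold Qsum
  refine Finset.sum_nonneg fun i _ => Finset.sum_nonneg fun j _ => ?_
  have h1 := hl i
  have h2 := hl j
  have h3 : (0 : ℝ) ≤ if l i ≤ s then 1 else 0 := by split_ifs <;> norm_num
  have h4 : (0 : ℝ) ≤ if l j ≤ s then 1 else 0 := by split_ifs <;> norm_num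
  positivity

lemma ind_eq_ite (s : ℝ) (l : ι → ℝ) (i : ι) : ind s l i = if l i ≤ s then 1 else 0 := rfl

lemma ind_nonneg (s : ℝ) (l : ι → ℝ) (i : ι) : 0 ≤ ind s l i := by
  unfold ind; split_ifs <;> norm_num

/-- Weight bound with both factors on `E(s)`. -/
lemma weight_le_le {s : ℝ} {l e e' : ι → ℝ} (hl : ∀ i, 0 ≤ l i) (he : IsLe s l e) (he' : IsLe s l e')
    (V : Matrix ι ι ℝ) :
    ∑ i, ∑ j, l i * l j * (diagonal e * V * diagonal e') i j ^ 2 ≤ Qsum s l V := by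
  unfold Qsum
  refine Finset.sum_le_sum fun i _ => Finset.sum_le_sum fun j _ => ?_
  rw [Matrix.mul_diagonal, Matrix.diagonal_mul]
  rw [← ind_eq_ite, ← ind_eq_ite]
  have h1 := he i
  have h2 := he' j
  have hll : 0 ≤ l i * l j * V i j ^ 2 := mul_nonneg (mul_nonneg (hl i) (hl j)) (sq_nonneg _)
  have h3 : e i ^ 2 * e' j ^ 2 ≤ ind s l i * ind s l j :=
    mul_le_mul h1 h2 (sq_nonneg _) (ind_nonneg _ _ _)
  calc l i * l j * (e i * V i j * e' j) ^ 2 = (l i * l j * V i j ^ 2) * (e i ^ 2 * e' j ^ 2) := by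
        ring
    _ ≤ (l i * l j * V i j ^ 2) * (ind s l i * ind s l j) := mul_le_mul_of_nonneg_left h3 hll
    _ = _ := by ring

/-- Weight bound with the band on the right. -/
lemma weight_le_band {s : ℝ} {l e p : ι → ℝ} (hl : ∀ i, 0 ≤ l i) (he : IsLe s l e)
    (hp : IsBand s l p) (V : Matrix ι ι ℝ) :
    ∑ i, ∑ j, l i * (diagonal e * V * diagonal p) i j ^ 2 ≤ 4 / s * Qsum s l V := by
  unfold Qsum
  rw [Finset.mul_sum]
  refine Finset.sum_le_sum fun i _ => ?_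
  rw [Finset.mul_sum]
  refine Finset.sum_le_sum fun j _ => ?_
  rw [Matrix.mul_diagonal, Matrix.diagonal_mul]
  rw [← ind_eq_ite, ← ind_eq_ite]
  have h1 := he i
  have h2 := hp j
  have hll : 0 ≤ l i * V i j ^ 2 := mul_nonneg (hl i) (sq_nonneg _)
  have hb0 : 0 ≤ p j ^ 2 := sq_nonneg _
  have h3 : e i ^ 2 * p j ^ 2 ≤ ind s l i * (4 / s * l j * ind s l j) :=
    mul_le_mul h1 h2 hb0 (ind_nonneg _ _ _)
  calc l i * (e i * V i j * p j) ^ 2 = (l i * V i j ^ 2) * (e i ^ 2 * p j ^ 2) := by ring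
    _ ≤ (l i * V i j ^ 2) * (ind s l i * (4 / s * l j * ind s l j)) :=
        mul_le_mul_of_nonneg_left h3 hll
    _ = _ := by ring

/-- Weight bound with the band on the left. -/
lemma weight_band_le {s : ℝ} {l e p : ι → ℝ} (hl : ∀ i, 0 ≤ l i) (he : IsLe s l e)
    (hp : IsBand s l p) (V : Matrix ι ι ℝ) :
    ∑ i, ∑ j, (diagonal p * V * diagonal e) i j ^ 2 * l j ≤ 4 / s * Qsum s l V := by
  unfold Qsum
  rw [Finset.mul_sum]
  refine Finset.sum_le_sum fun i _ => ?_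
  rw [Finset.mul_sum]
  refine Finset.sum_le_sum fun j _ => ?_
  rw [Matrix.mul_diagonal, Matrix.diagonal_mul]
  rw [← ind_eq_ite, ← ind_eq_ite]
  have h1 := he j
  have h2 := hp i
  have hll : 0 ≤ l j * V i j ^ 2 := mul_nonneg (hl j) (sq_nonneg _)
  have hb0 : 0 ≤ e j ^ 2 := sq_nonneg _
  have h3 : p i ^ 2 * e j ^ 2 ≤ (4 / s * l i * ind s l i) * ind s l j :=
    mul_le_mul h2 h1 hb0 (le_trans (sq_nonneg _) h2)
  calc (p i * V i j * e j) ^ 2 * l j = (l j * V i j ^ 2) * (p i ^ 2 * e j ^ 2) := by ring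
    _ ≤ (l j * V i j ^ 2) * ((4 / s * l i * ind s l i) * ind s l j) :=
        mul_le_mul_of_nonneg_left h3 hll
    _ = _ := by ring

/-- The term with the band to the right of `Va`. -/
lemma termA {X Y Z : Matrix ι ι ℝ} {la lb lc : ι → ℝ} (h : Diag3 X Y Z la lb lc) {s : ℝ} (hs : 0 < s)
    {e₁ p e₃ e₄ : ι → ℝ} (he₁ : IsLe s la e₁) (hp : IsBand s la p) (he₃ : IsLe s lb e₃)
    (he₄ : IsLe s lb e₄) (Va Vb D : Matrix ι ι ℝ) (hD : Contr D) :
    |trace ((diagonal e₁ * Va * diagonal p) * X * (diagonal e₃ * Vb * diagonal e₄) * Y * D * Z)| ≤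
      2 / Real.sqrt s * (Real.sqrt (Qsum s la Va) * Real.sqrt (Qsum s lb Vb)) := by
  refine le_trans (boundA h _ _ _ hD) ?_
  have h1 := Real.sqrt_le_sqrt (weight_le_band h.la0 he₁ hp Va)
  have h2 := Real.sqrt_le_sqrt (weight_le_le h.lb0 he₃ he₄ Vb)
  rw [sqrt_four_div_mul hs (Qsum_nonneg s h.la0 Va)] at h1
  calc _ ≤ (2 / Real.sqrt s * Real.sqrt (Qsum s la Va)) * Real.sqrt (Qsum s lb Vb) :=
        mul_le_mul h1 h2 (Real.sqrt_nonneg _) (by positivity)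
    _ = _ := by ring

/-- The term with the band to the left of `Vb`. -/
lemma termB {X Y Z : Matrix ι ι ℝ} {la lb lc : ι → ℝ} (h : Diag3 X Y Z la lb lc) {s : ℝ} (hs : 0 < s)
    {e₁ e₂ p e₄ : ι → ℝ} (he₁ : IsLe s la e₁) (he₂ : IsLe s la e₂) (hp : IsBand s lb p)
    (he₄ : IsLe s lb e₄) (Va Vb D : Matrix ι ι ℝ) (hD : Contr D) :
    |trace ((diagonal e₁ * Va * diagonal e₂) * X * (diagonal p * Vb * diagonal e₄) * Y * D * Z)| ≤
      2 / Real.sqrt s * (Real.sqrt (Qsum s la Va) * Real.sqrt (Qsum s lb Vb)) := by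
  refine le_trans (boundB h _ _ _ hD) ?_
  have h1 := Real.sqrt_le_sqrt (weight_le_le h.la0 he₁ he₂ Va)
  have h2 := Real.sqrt_le_sqrt (weight_band_le h.lb0 he₄ hp Vb)
  rw [sqrt_four_div_mul hs (Qsum_nonneg s h.lb0 Vb)] at h2
  calc _ ≤ Real.sqrt (Qsum s la Va) * (2 / Real.sqrt s * Real.sqrt (Qsum s lb Vb)) :=
        mul_le_mul h1 h2 (Real.sqrt_nonneg _) (Real.sqrt_nonneg _)
    _ = _ := by ring

/-- The truncated trilinear form. -/
noncomputable def tau (s : ℝ) (X Y Z Va Vb Vc : Matrix ι ι ℝ) (la lb lc : ι → ℝ) : ℝ :=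
  trace ((diagonal (ind s la) * Va * diagonal (ind s la)) * X *
    (diagonal (ind s lb) * Vb * diagonal (ind s lb)) * Y *
    (diagonal (ind s lc) * Vc * diagonal (ind s lc)) * Z)

lemma sqrt_mul_sqrt_le {a b : ℝ} (ha : 0 ≤ a) (hb : 0 ≤ b) :
    Real.sqrt a * Real.sqrt b ≤ (a + b) / 2 := by
  have h1 := Real.sq_sqrt ha
  have h2 := Real.sq_sqrt hb
  nlinarith [sq_nonneg (Real.sqrt a - Real.sqrt b)]

/-- The step estimate for the truncated form. -/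
theorem tau_step {X Y Z : Matrix ι ι ℝ} {la lb lc : ι → ℝ} (h : Diag3 X Y Z la lb lc) {s : ℝ}
    (hs : 0 < s) {Va Vb Vc : Matrix ι ι ℝ} (hVa : Contr Va) (hVb : Contr Vb) (hVc : Contr Vc) :
    |tau s X Y Z Va Vb Vc la lb lc - tau (s / 4) X Y Z Va Vb Vc la lb lc| ≤
      4 / Real.sqrt s * (Qsum s la Va + Qsum s lb Vb + Qsum s lc Vc) := by
  set Ea := ind s la
  set Eb := ind s lb
  set Ec := ind s lc
  set Fa := ind (s / 4) la
  set Fb := ind (s / 4) lb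
  set Fc := ind (s / 4) lc
  have hEa : IsLe s la Ea := isLe_ind s la
  have hEb : IsLe s lb Eb := isLe_ind s lb
  have hEc : IsLe s lc Ec := isLe_ind s lc
  have hFa : IsLe s la Fa := isLe_ind_quarter hs la
  have hFb : IsLe s lb Fb := isLe_ind_quarter hs lb
  have hFc : IsLe s lc Fc := isLe_ind_quarter hs lc
  have hPa : IsBand s la (Ea - Fa) := isBand_sub hs h.la0
  have hPb : IsBand s lb (Eb - Fb) := isBand_sub hs h.lb0
  have hPc : IsBand s lc (Ec - Fc) := isBand_sub hs h.lc0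
  have c1 : ∀ (l : ι → ℝ) (t : ℝ) (i : ι), ind t l i ^ 2 ≤ 1 := fun l t i => ind_sq_le_one t l i
  have hdiag_sub : ∀ e f : ι → ℝ, diagonal (e - f) = diagonal e - diagonal f := fun e f => by
    ext i j; by_cases hij : i = j <;> simp [hij]
  -- the six terms
  set T1 := trace ((diagonal (Ea - Fa) * Va * diagonal Ea) * X * (diagonal Eb * Vb * diagonal Eb) * Y *
    (diagonal Ec * Vc * diagonal Ec) * Z) with hT1
  set T2 := trace ((diagonal Fa * Va * diagonal (Ea - Fa)) * X * (diagonal Eb * Vb * diagonal Eb) * Y *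
    (diagonal Ec * Vc * diagonal Ec) * Z) with hT2
  set T3 := trace ((diagonal Fa * Va * diagonal Fa) * X * (diagonal (Eb - Fb) * Vb * diagonal Eb) * Y *
    (diagonal Ec * Vc * diagonal Ec) * Z) with hT3
  set T4 := trace ((diagonal Fa * Va * diagonal Fa) * X * (diagonal Fb * Vb * diagonal (Eb - Fb)) * Y *
    (diagonal Ec * Vc * diagonal Ec) * Z) with hT4
  set T5 := trace ((diagonal Fa * Va * diagonal Fa) * X * (diagonal Fb * Vb * diagonal Fb) * Y *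
    (diagonal (Ec - Fc) * Vc * diagonal Ec) * Z) with hT5
  set T6 := trace ((diagonal Fa * Va * diagonal Fa) * X * (diagonal Fb * Vb * diagonal Fb) * Y *
    (diagonal Fc * Vc * diagonal (Ec - Fc)) * Z) with hT6
  have htele : tau s X Y Z Va Vb Vc la lb lc - tau (s / 4) X Y Z Va Vb Vc la lb lc =
      T1 + T2 + T3 + T4 + T5 + T6 := by
    simp only [hT1, hT2, hT3, hT4, hT5, hT6, hdiag_sub, tau]
    simp only [Matrix.mul_sub, Matrix.sub_mul, trace_sub, Matrix.mul_assoc]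
    ring
  set qa := Real.sqrt (Qsum s la Va)
  set qb := Real.sqrt (Qsum s lb Vb)
  set qc := Real.sqrt (Qsum s lc Vc)
  set κ := 2 / Real.sqrt s
  have hT2' : |T2| ≤ κ * (qa * qb) :=
    termA h hs hFa hPa hEb hEb Va Vb _ (contr_diag_mul (c1 _ _) (c1 _ _) hVc)
  have hT3' : |T3| ≤ κ * (qa * qb) :=
    termB h hs hFa hFa hPb hEb Va Vb _ (contr_diag_mul (c1 _ _) (c1 _ _) hVc)
  -- rotations of the trace
  have rot1 : ∀ A₁ A₂ A₃ : Matrix ι ι ℝ,
      trace (A₁ * X * A₂ * Y * A₃ * Z) = trace (A₂ * Y * A₃ * Z * A₁ * X) := by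
    intro A₁ A₂ A₃
    rw [show A₁ * X * A₂ * Y * A₃ * Z = (A₁ * X) * (A₂ * Y * A₃ * Z) by simp only [Matrix.mul_assoc]]
    rw [Matrix.trace_mul_comm]
    simp only [Matrix.mul_assoc]
  have rot2 : ∀ A₁ A₂ A₃ : Matrix ι ι ℝ,
      trace (A₁ * X * A₂ * Y * A₃ * Z) = trace (A₃ * Z * A₁ * X * A₂ * Y) := by
    intro A₁ A₂ A₃
    rw [show A₁ * X * A₂ * Y * A₃ * Z = (A₁ * X * A₂ * Y) * (A₃ * Z) by simp only [Matrix.mul_assoc]]
    rw [Matrix.trace_mul_comm]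
    simp only [Matrix.mul_assoc]
  have hT4' : |T4| ≤ κ * (qb * qc) := by
    rw [hT4, rot1]
    exact termA h.rot hs hFb hPb hEc hEc Vb Vc _ (contr_diag_mul (c1 _ _) (c1 _ _) hVa)
  have hT5' : |T5| ≤ κ * (qb * qc) := by
    rw [hT5, rot1]
    exact termB h.rot hs hFb hFb hPc hEc Vb Vc _ (contr_diag_mul (c1 _ _) (c1 _ _) hVa)
  have hT6' : |T6| ≤ κ * (qc * qa) := by
    rw [hT6, rot2]
    exact termA h.rot.rot hs hFc hPc hFa hFa Vc Va _ (contr_diag_mul (c1 _ _) (c1 _ _) hVb)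
  have hT1' : |T1| ≤ κ * (qc * qa) := by
    rw [hT1, rot2]
    exact termB h.rot.rot hs hEc hEc hPa hEa Vc Va _ (contr_diag_mul (c1 _ _) (c1 _ _) hVb)
  have hQa := Qsum_nonneg s h.la0 Va
  have hQb := Qsum_nonneg s h.lb0 Vb
  have hQc := Qsum_nonneg s h.lc0 Vc
  have hab : qa * qb ≤ (Qsum s la Va + Qsum s lb Vb) / 2 := sqrt_mul_sqrt_le hQa hQb
  have hbc : qb * qc ≤ (Qsum s lb Vb + Qsum s lc Vc) / 2 := sqrt_mul_sqrt_le hQb hQc
  have hca : qc * qa ≤ (Qsum s lc Vc + Qsum s la Va) / 2 := sqrt_mul_sqrt_le hQc hQa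
  have hκ : 0 ≤ κ := by positivity
  rw [htele]
  have habs : |T1 + T2 + T3 + T4 + T5 + T6| ≤ |T1| + |T2| + |T3| + |T4| + |T5| + |T6| := by
    refine le_trans (abs_add_le _ _) ?_
    gcongr
    refine le_trans (abs_add_le _ _) ?_
    gcongr
    refine le_trans (abs_add_le _ _) ?_
    gcongr
    refine le_trans (abs_add_le _ _) ?_
    gcongr
    exact abs_add_le _ _
  have hfour : 4 / Real.sqrt s = 2 * κ := by simp only [κ]; ring
  rw [hfour]
  have e1 := mul_le_mul_of_nonneg_left hab hκ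
  have e2 := mul_le_mul_of_nonneg_left hbc hκ
  have e3 := mul_le_mul_of_nonneg_left hca hκ
  nlinarith

end Vale.Agent.Lib.P075
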