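import Mathlib

/-!
# P075: interface definitions for the dyadic triangular Hilbert form (Q2)

Three propositions split the proof into independent modules:

* `BlockLemma` : the one-step Bellman inequality for real matrices;
* `DiscreteThm` : the sum over all dyadic nodes of a fine grid, proved from `BlockLemma`;
* the final measure-theoretic statement, proved from `DiscreteThm`.
-/

open Matrix

namespace Vale.Agent.Lib.P075

/-- The energy `G_s(B) = tr (B^2 (B+s)^{-1}) = tr B - s * dim + s^2 * tr (B+s)^{-1}`. -/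
noncomputable def G {ι : Type*} [Fintype ι] [DecidableEq ι] (s : ℝ) (B : Matrix ι ι ℝ) : ℝ :=
  trace B - s * (Fintype.card ι : ℝ) + s ^ 2 * trace (B + s • (1 : Matrix ι ι ℝ))⁻¹

/-- The three junction matrices of a triple `X, Y, Z`. -/
def Aa {ι : Type*} [Fintype ι] (X Z : Matrix ι ι ℝ) : Matrix ι ι ℝ := X * Xᵀ + Zᵀ * Z

/-- Total energy of a triple at the scales `4^M`, `M` in `[-L, L]`. -/
noncomputable def W {ι : Type*} [Fintype ι] [DecidableEq ι] (L : ℕ) (X Y Z : Matrix ι ι ℝ) : ℝ :=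
  ∑ M ∈ Finset.Icc (-(L : ℤ)) (L : ℤ), (2 : ℝ) ^ M *
    (G ((4 : ℝ) ^ M) (X * Xᵀ + Zᵀ * Z) + G ((4 : ℝ) ^ M) (Y * Yᵀ + Xᵀ * X) +
      G ((4 : ℝ) ^ M) (Z * Zᵀ + Yᵀ * Y))

/-- `P₀, P₁` are orthogonal symmetric projections. -/
structure OrthProj {ι : Type*} [Fintype ι] [DecidableEq ι] (P₀ P₁ : Matrix ι ι ℝ) : Prop where
  symm₀ : P₀ᵀ = P₀
  symm₁ : P₁ᵀ = P₁
  idem₀ : P₀ * P₀ = P₀
  idem₁ : P₁ * P₁ = P₁
  orth : P₀ * P₁ = 0

/-- The Bellman step for one block triple. The four even children of `(X, Y, Z)` are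
`(2 a_i X b_j, 2 b_j Y c_l, 2 c_l Z a_i)` with `l = i xor j`. -/
def BlockLemma : Prop :=
  ∀ {ι : Type} [Fintype ι] [DecidableEq ι]
    (X Y Z : Matrix ι ι ℝ) (a : Bool → Matrix ι ι ℝ) (b : Bool → Matrix ι ι ℝ)
    (c : Bool → Matrix ι ι ℝ),
    OrthProj (a false) (a true) → OrthProj (b false) (b true) → OrthProj (c false) (c true) →
    (a false + a true) * X = X → X * (b false + b true) = X →
    (b false + b true) * Y = Y → Y * (c false + c true) = Y →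
    (c false + c true) * Z = Z → Z * (a false + a true) = Z →
    ∃ L₀ : ℕ, ∀ L : ℕ, L₀ ≤ L →
      W L X Y Z +
        (1 / 32 : ℝ) * |trace ((a false - a true) * X * (b false - b true) * Y *
          (c false - c true) * Z)| ≤
      (1 / 4 : ℝ) * ∑ i : Bool, ∑ j : Bool,
        W L ((2 : ℝ) • (a i * X * b j)) ((2 : ℝ) • (b j * Y * c (xor i j)))
          ((2 : ℝ) • (c (xor i j) * Z * a i))

/-- The sign attached to the level-`j` Haar function on a grid cell: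
`+1` if bit `j - 1` of `i` vanishes, `-1` otherwise. -/
def cellSign (j i : ℕ) : ℝ := if (i / 2 ^ (j - 1)) % 2 = 0 then 1 else -1

/-- The tile sum of three grid functions at level `j` and block indices `n₀, n₁, n₀ xor n₁`. -/
noncomputable def tile (m : ℕ) (f₀ f₁ f₂ : ℕ → ℕ → ℝ) (j n₀ n₁ : ℕ) : ℝ :=
  ∑ i₀ ∈ Finset.range (2 ^ m), ∑ i₁ ∈ Finset.range (2 ^ m), ∑ i₂ ∈ Finset.range (2 ^ m),
    if i₀ / 2 ^ j = n₀ ∧ i₁ / 2 ^ j = n₁ ∧ i₂ / 2 ^ j = n₀ ^^^ n₁ then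
      f₀ i₀ i₁ * f₁ i₁ i₂ * f₂ i₂ i₀ * (cellSign j i₀ * cellSign j i₁ * cellSign j i₂)
    else 0

/-- The absolute sum over all tiles of a grid of side `2^m` (level `j` carries weight `2^{-j}`)
is controlled by the cubes of the entries. -/
def DiscreteThm : Prop :=
  ∀ (m : ℕ) (f₀ f₁ f₂ : ℕ → ℕ → ℝ),
    ∑ j ∈ Finset.Icc 1 m, ∑ n₀ ∈ Finset.range (2 ^ (m - j)), ∑ n₁ ∈ Finset.range (2 ^ (m - j)),
      ((1 : ℝ) / 2 ^ j) * |tile m f₀ f₁ f₂ j n₀ n₁| ≤
    400 * (∑ i ∈ Finset.range (2 ^ m), ∑ i' ∈ Finset.range (2 ^ m),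
      (|f₀ i i'| ^ 3 + |f₁ i i'| ^ 3 + |f₂ i i'| ^ 3))

end Vale.Agent.Lib.P075
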