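import Vale.Agent.Lib.P075.Defs

/-!
# P075: the energy `G_s`: positivity, the switch `G_s(MN) = G_s(NM)`, convexity and the gap.
-/

open Matrix

namespace Vale.Agent.Lib.P075

set_option linter.unusedSectionVars false

variable {ι : Type*} [Fintype ι] [DecidableEq ι]

lemma psd_self_mul_transpose {κ : Type*} [Fintype κ] (M : Matrix ι κ ℝ) : (M * Mᵀ).PosSemidef := by
  have := Matrix.posSemidef_self_mul_conjTranspose M
  simpa [conjTranspose_eq_transpose_of_trivial] using this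

lemma psd_transpose_mul_self {κ : Type*} [Fintype κ] (M : Matrix κ ι ℝ) : (Mᵀ * M).PosSemidef := by
  have := Matrix.posSemidef_conjTranspose_mul_self M
  simpa [conjTranspose_eq_transpose_of_trivial] using this

lemma psd_conj {κ : Type*} [Fintype κ] {A : Matrix ι ι ℝ} (hA : A.PosSemidef) (B : Matrix κ ι ℝ) :
    (B * A * Bᵀ).PosSemidef := by
  have := hA.mul_mul_conjTranspose_same B
  simpa [conjTranspose_eq_transpose_of_trivial] using this

lemma psd_transpose_eq {A : Matrix ι ι ℝ} (hA : A.PosSemidef) : Aᵀ = A := by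
  have := hA.isHermitian
  simpa [IsHermitian, conjTranspose_eq_transpose_of_trivial] using this

lemma posDef_add_smul {s : ℝ} (hs : 0 < s) {B : Matrix ι ι ℝ} (hB : B.PosSemidef) :
    (B + s • (1 : Matrix ι ι ℝ)).PosDef := by
  exact Matrix.PosDef.posSemidef_add hB (Matrix.PosDef.smul Matrix.PosDef.one hs)

lemma isUnit_add_smul {s : ℝ} (hs : 0 < s) {B : Matrix ι ι ℝ} (hB : B.PosSemidef) :
    IsUnit (B + s • (1 : Matrix ι ι ℝ)) :=
  (posDef_add_smul hs hB).isUnit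

lemma mul_inv_of_posDef {Q : Matrix ι ι ℝ} (hQ : Q.PosDef) : Q * Q⁻¹ = 1 := by
  have h : IsUnit Q.det := (Matrix.isUnit_iff_isUnit_det Q).1 hQ.isUnit
  exact Matrix.mul_nonsing_inv Q h

lemma inv_mul_of_posDef {Q : Matrix ι ι ℝ} (hQ : Q.PosDef) : Q⁻¹ * Q = 1 := by
  have h : IsUnit Q.det := (Matrix.isUnit_iff_isUnit_det Q).1 hQ.isUnit
  exact Matrix.nonsing_inv_mul Q h

lemma inv_transpose_of_posDef {Q : Matrix ι ι ℝ} (hQ : Q.PosDef) : (Q⁻¹)ᵀ = Q⁻¹ := by
  have hh := hQ.isHermitian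
  have ht : Qᵀ = Q := by simpa [IsHermitian, conjTranspose_eq_transpose_of_trivial] using hh
  rw [Matrix.transpose_nonsing_inv, ht]

/-- The test-matrix lower bound for the trace of an inverse. -/
lemma trace_inv_ge {Q : Matrix ι ι ℝ} (hQ : Q.PosDef) (W : Matrix ι ι ℝ) :
    2 * trace W - trace (W * Q * Wᵀ) ≤ trace Q⁻¹ := by
  have hpsd := psd_conj hQ.posSemidef (W - Q⁻¹)
  have h0 := hpsd.trace_nonneg
  have hRT := inv_transpose_of_posDef hQ
  have e : (W - Q⁻¹) * Q * (W - Q⁻¹)ᵀ = W * Q * Wᵀ - W - Wᵀ + Q⁻¹ := by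
    rw [transpose_sub, hRT]
    have h1 := mul_inv_of_posDef hQ
    have h2 := inv_mul_of_posDef hQ
    calc (W - Q⁻¹) * Q * (Wᵀ - Q⁻¹)
        = W * Q * Wᵀ - W * (Q * Q⁻¹) - (Q⁻¹ * Q) * Wᵀ + (Q⁻¹ * Q) * Q⁻¹ := by
          simp only [Matrix.mul_sub, Matrix.sub_mul, Matrix.mul_assoc]; abel
      _ = _ := by rw [h1, h2]; simp
  rw [e] at h0
  simp only [trace_add, trace_sub, trace_transpose] at h0
  linarith

/-- The identity `G_s(B) = tr (B (B+s)^{-1} B)`, so `G_s ≥ 0` on positive semidefinite matrices. -/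
lemma G_nonneg {s : ℝ} (hs : 0 < s) {B : Matrix ι ι ℝ} (hB : B.PosSemidef) : 0 ≤ G s B := by
  have hP := posDef_add_smul hs hB
  set P := B + s • (1 : Matrix ι ι ℝ) with hPdef
  have hBt : Bᵀ = B := psd_transpose_eq hB
  have h1 : (B * P⁻¹ * Bᵀ).PosSemidef := psd_conj hP.inv.posSemidef B
  have h0 := h1.trace_nonneg
  rw [hBt] at h0
  have hB' : B = P - s • (1 : Matrix ι ι ℝ) := by rw [hPdef]; simp
  have e : B * P⁻¹ * B = P - (2 * s) • (1 : Matrix ι ι ℝ) + (s ^ 2) • P⁻¹ := by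
    have h2 := mul_inv_of_posDef hP
    have h3 := inv_mul_of_posDef hP
    conv_lhs => rw [hB']
    simp only [Matrix.mul_sub, Matrix.sub_mul, Matrix.mul_smul, Matrix.smul_mul, Matrix.mul_one,
      Matrix.one_mul, h2, h3]
    module
  rw [e] at h0
  simp only [trace_add, trace_sub, trace_smul, trace_one, smul_eq_mul] at h0
  have e2 : trace P = trace B + s * (Fintype.card ι : ℝ) := by
    rw [hPdef]; simp [trace_add, trace_smul]
  unfold G
  rw [e2] at h0
  rw [← hPdef]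
  nlinarith

/-- The switch: `tr (MN + s)^{-1} = tr (NM + s)^{-1}`. -/
lemma trace_inv_switch {s : ℝ} (hs : s ≠ 0) {M N : Matrix ι ι ℝ}
    (h1 : IsUnit (M * N + s • (1 : Matrix ι ι ℝ)))
    (h2 : IsUnit (N * M + s • (1 : Matrix ι ι ℝ))) :
    trace (M * N + s • (1 : Matrix ι ι ℝ))⁻¹ = trace (N * M + s • (1 : Matrix ι ι ℝ))⁻¹ := by
  set P := M * N + s • (1 : Matrix ι ι ℝ) with hP
  set Q := N * M + s • (1 : Matrix ι ι ℝ) with hQ
  have hP1 : P * P⁻¹ = 1 := Matrix.mul_nonsing_inv P ((Matrix.isUnit_iff_isUnit_det P).1 h1)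
  have hP2 : P⁻¹ * P = 1 := Matrix.nonsing_inv_mul P ((Matrix.isUnit_iff_isUnit_det P).1 h1)
  have hQ1 : Q * Q⁻¹ = 1 := Matrix.mul_nonsing_inv Q ((Matrix.isUnit_iff_isUnit_det Q).1 h2)
  have hQ2 : Q⁻¹ * Q = 1 := Matrix.nonsing_inv_mul Q ((Matrix.isUnit_iff_isUnit_det Q).1 h2)
  have hcomm : P * M = M * Q := by
    rw [hP, hQ]; simp only [Matrix.add_mul, Matrix.mul_add, Matrix.smul_mul, Matrix.mul_smul,
      Matrix.one_mul, Matrix.mul_one, Matrix.mul_assoc]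
  have hpush : P⁻¹ * M = M * Q⁻¹ := by
    calc P⁻¹ * M = P⁻¹ * M * (Q * Q⁻¹) := by rw [hQ1, Matrix.mul_one]
      _ = P⁻¹ * (M * Q) * Q⁻¹ := by simp only [Matrix.mul_assoc]
      _ = P⁻¹ * (P * M) * Q⁻¹ := by rw [hcomm]
      _ = (P⁻¹ * P) * M * Q⁻¹ := by simp only [Matrix.mul_assoc]
      _ = M * Q⁻¹ := by rw [hP2, Matrix.one_mul]
  have e1 : trace (M * N * P⁻¹) + s * trace P⁻¹ = (Fintype.card ι : ℝ) := by
    have : (M * N + s • (1 : Matrix ι ι ℝ)) * P⁻¹ = 1 := hP1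
    have h := congrArg trace this
    simpa [Matrix.add_mul, trace_add, trace_smul, Matrix.smul_mul, trace_one] using h
  have e2 : trace (N * M * Q⁻¹) + s * trace Q⁻¹ = (Fintype.card ι : ℝ) := by
    have : (N * M + s • (1 : Matrix ι ι ℝ)) * Q⁻¹ = 1 := hQ1
    have h := congrArg trace this
    simpa [Matrix.add_mul, trace_add, trace_smul, Matrix.smul_mul, trace_one] using h
  have e3 : trace (M * N * P⁻¹) = trace (N * M * Q⁻¹) := by
    calc trace (M * N * P⁻¹) = trace (M * (N * P⁻¹)) := by rw [Matrix.mul_assoc]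
      _ = trace (N * P⁻¹ * M) := by rw [Matrix.trace_mul_comm]
      _ = trace (N * (P⁻¹ * M)) := by rw [Matrix.mul_assoc]
      _ = trace (N * (M * Q⁻¹)) := by rw [hpush]
      _ = trace (N * M * Q⁻¹) := by rw [Matrix.mul_assoc]
  have : s * trace P⁻¹ = s * trace Q⁻¹ := by linarith
  exact mul_left_cancel₀ hs this

lemma G_switch {s : ℝ} (hs : s ≠ 0) {M N : Matrix ι ι ℝ}
    (h1 : IsUnit (M * N + s • (1 : Matrix ι ι ℝ)))
    (h2 : IsUnit (N * M + s • (1 : Matrix ι ι ℝ))) : G s (M * N) = G s (N * M) := by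
  unfold G
  rw [trace_inv_switch hs h1 h2, Matrix.trace_mul_comm]

/-- Midpoint convexity of `G_s` in the form used below. -/
lemma G_add_le {s : ℝ} (hs : 0 < s) {B₀ B₁ : Matrix ι ι ℝ} (h₀ : B₀.PosSemidef)
    (h₁ : B₁.PosSemidef) :
    G s (B₀ + B₁) ≤ (1 / 2) * G s ((2 : ℝ) • B₀) + (1 / 2) * G s ((2 : ℝ) • B₁) := by
  have hsum : (B₀ + B₁).PosSemidef := h₀.add h₁
  have hP := posDef_add_smul hs hsum
  set P := B₀ + B₁ + s • (1 : Matrix ι ι ℝ) with hPdef
  have hQ₀ : ((2 : ℝ) • B₀ + s • (1 : Matrix ι ι ℝ)).PosDef :=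
    posDef_add_smul hs (h₀.smul (by norm_num))
  have hQ₁ : ((2 : ℝ) • B₁ + s • (1 : Matrix ι ι ℝ)).PosDef :=
    posDef_add_smul hs (h₁.smul (by norm_num))
  have t₀ := trace_inv_ge hQ₀ P⁻¹
  have t₁ := trace_inv_ge hQ₁ P⁻¹
  have hRT : (P⁻¹)ᵀ = P⁻¹ := inv_transpose_of_posDef hP
  rw [hRT] at t₀ t₁
  have hadd : trace (P⁻¹ * ((2 : ℝ) • B₀ + s • (1 : Matrix ι ι ℝ)) * P⁻¹) +
      trace (P⁻¹ * ((2 : ℝ) • B₁ + s • (1 : Matrix ι ι ℝ)) * P⁻¹) = 2 * trace P⁻¹ := by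
    have e : ((2 : ℝ) • B₀ + s • (1 : Matrix ι ι ℝ)) + ((2 : ℝ) • B₁ + s • (1 : Matrix ι ι ℝ))
        = (2 : ℝ) • P := by
      rw [hPdef]; simp only [smul_add]; rw [two_smul ℝ (s • (1 : Matrix ι ι ℝ))]; abel
    rw [← trace_add, ← Matrix.add_mul, ← Matrix.mul_add, e]
    have h2 := inv_mul_of_posDef hP
    simp only [Matrix.mul_smul, Matrix.smul_mul, h2, Matrix.one_mul, trace_smul, smul_eq_mul]
  unfold G
  simp only [trace_add, trace_smul, smul_eq_mul]
  rw [← hPdef]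
  have hs2 : 0 ≤ s ^ 2 := by positivity
  have key : 2 * trace P⁻¹ ≤ trace ((2 : ℝ) • B₀ + s • (1 : Matrix ι ι ℝ))⁻¹ +
      trace ((2 : ℝ) • B₁ + s • (1 : Matrix ι ι ℝ))⁻¹ := by linarith
  nlinarith [mul_le_mul_of_nonneg_left key hs2]

/-- The gap inequality: `(1/2) tr (P+K)⁻¹ + (1/2) tr (P-K)⁻¹ ≥ tr R + tr (R K R K R)`. -/
lemma trace_inv_gap {P K : Matrix ι ι ℝ} (hP : P.PosDef) (hK : Kᵀ = K) (hp : (P + K).PosDef)
    (hm : (P - K).PosDef) :
    trace P⁻¹ + trace (P⁻¹ * K * P⁻¹ * K * P⁻¹) ≤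
      (1 / 2) * trace (P + K)⁻¹ + (1 / 2) * trace (P - K)⁻¹ := by
  set R := P⁻¹ with hR
  have hRT : Rᵀ = R := inv_transpose_of_posDef hP
  have hRP : R * P = 1 := inv_mul_of_posDef hP
  have hPR : P * R = 1 := mul_inv_of_posDef hP
  have tp := trace_inv_ge hp (R - R * K * R)
  have tm := trace_inv_ge hm (R + R * K * R)
  have hWt : (R * K * R)ᵀ = R * K * R := by
    simp [Matrix.transpose_mul, hRT, hK, Matrix.mul_assoc]
  have ep : (R - R * K * R) * (P + K) * (R - R * K * R)ᵀ =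
      R - R * K * R - R * K * R * K * R + R * K * R * K * R * K * R := by
    rw [transpose_sub, hRT, hWt]
    have a : (R - R * K * R) * (P + K) = 1 - R * K * R * K := by
      simp only [Matrix.sub_mul, Matrix.mul_add, hRP]
      have : R * K * R * P = R * K := by rw [Matrix.mul_assoc (R * K) R P, hRP, Matrix.mul_one]
      rw [this]; simp only [Matrix.mul_assoc]; abel
    rw [a]
    simp only [Matrix.sub_mul, Matrix.mul_sub, Matrix.one_mul, Matrix.mul_assoc]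
    abel
  have em : (R + R * K * R) * (P - K) * (R + R * K * R)ᵀ =
      R + R * K * R - R * K * R * K * R - R * K * R * K * R * K * R := by
    rw [transpose_add, hRT, hWt]
    have a : (R + R * K * R) * (P - K) = 1 - R * K * R * K := by
      simp only [Matrix.add_mul, Matrix.mul_sub, hRP]
      have : R * K * R * P = R * K := by rw [Matrix.mul_assoc (R * K) R P, hRP, Matrix.mul_one]
      rw [this]; simp only [Matrix.mul_assoc]; abel
    rw [a]
    simp only [Matrix.add_mul, Matrix.mul_add, Matrix.sub_mul, Matrix.one_mul, Matrix.mul_assoc]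
    abel
  rw [ep] at tp
  rw [em] at tm
  simp only [trace_add, trace_sub] at tp tm
  linarith

end Vale.Agent.Lib.P075
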