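import Vale.Agent.Lib.P075.Energy

/-!
# P075: the spectral lower bound for the Jensen gap of `G_s`
-/

open Matrix

namespace Vale.Agent.Lib.P075

set_option linter.unusedSectionVars false

variable {ι : Type*} [Fintype ι] [DecidableEq ι]

lemma exists_orth_diag {A : Matrix ι ι ℝ} (hA : A.PosSemidef) :
    ∃ (O : Matrix ι ι ℝ) (l : ι → ℝ), Oᵀ * O = 1 ∧ O * Oᵀ = 1 ∧ (∀ i, 0 ≤ l i) ∧
      A = O * diagonal l * Oᵀ := by
  have hH := hA.isHermitian
  refine ⟨(hH.eigenvectorUnitary : Matrix ι ι ℝ), hH.eigenvalues, ?_, ?_, hA.eigenvalues_nonneg, ?_⟩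
  · have := (Matrix.mem_unitaryGroup_iff').1 hH.eigenvectorUnitary.2
    simpa [star_eq_conjTranspose, conjTranspose_eq_transpose_of_trivial] using this
  · have := (Matrix.mem_unitaryGroup_iff).1 hH.eigenvectorUnitary.2
    simpa [star_eq_conjTranspose, conjTranspose_eq_transpose_of_trivial] using this
  · have := hH.spectral_theorem
    conv_lhs => rw [this]
    simp [Unitary.conjStarAlgAut_apply, star_eq_conjTranspose, conjTranspose_eq_transpose_of_trivial]

/-- The pinching gap of `G_s`. -/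
noncomputable def gap (s : ℝ) (A P₀ P₁ : Matrix ι ι ℝ) : ℝ :=
  (1 / 2) * G s ((2 : ℝ) • (P₀ * A * P₀)) + (1 / 2) * G s ((2 : ℝ) • (P₁ * A * P₁)) - G s A

lemma psd_proj_conj {A P : Matrix ι ι ℝ} (hA : A.PosSemidef) (hP : Pᵀ = P) :
    (P * A * P).PosSemidef := by
  have := psd_conj hA P
  rwa [hP] at this

lemma transpose_eq_zero_of_mul {M : Matrix ι ι ℝ} (h : Mᵀ * M = 0) : M = 0 := by
  have := (Matrix.conjTranspose_mul_self_eq_zero (A := M)).1
    (by simpa [conjTranspose_eq_transpose_of_trivial] using h)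
  exact this

theorem gap_lower {A P₀ P₁ O : Matrix ι ι ℝ} {l : ι → ℝ} {s : ℝ} (hs : 0 < s)
    (hA : A.PosSemidef) (h1 : Oᵀ * O = 1) (h2 : O * Oᵀ = 1) (hl : ∀ i, 0 ≤ l i)
    (hAO : A = O * diagonal l * Oᵀ) (hP : OrthProj P₀ P₁) (hsupp : (P₀ + P₁) * A = A) :
    ∑ i, ∑ j, s ^ 2 * (l i * l j * (((Oᵀ * (P₀ - P₁) * O) i j) ^ 2 *
        (((l i + s)⁻¹) ^ 2 * (l j + s)⁻¹))) ≤ gap s A P₀ P₁ := by
  classical
  set V := Oᵀ * (P₀ - P₁) * O with hV
  set d : ι → ℝ := fun i => Real.sqrt (l i) with hd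
  set r : ι → ℝ := fun i => (l i + s)⁻¹ with hr
  have hdd : ∀ i, d i * d i = l i := fun i => Real.mul_self_sqrt (hl i)
  have hcancel : ∀ X : Matrix ι ι ℝ, Oᵀ * (O * X) = X := fun X => by
    rw [← Matrix.mul_assoc, h1, Matrix.one_mul]
  have hcancel' : ∀ X : Matrix ι ι ℝ, O * (Oᵀ * X) = X := fun X => by
    rw [← Matrix.mul_assoc, h2, Matrix.one_mul]
  -- the square root
  set S := O * diagonal d * Oᵀ with hS
  have hSt : Sᵀ = S := by
    rw [hS]; simp [Matrix.transpose_mul, Matrix.mul_assoc]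
  have hSS : S * S = A := by
    rw [hS, hAO]
    simp only [Matrix.mul_assoc, hcancel]
    rw [← Matrix.mul_assoc (diagonal d) (diagonal d), Matrix.diagonal_mul_diagonal]
    have : (fun i => d i * d i) = l := funext hdd
    rw [this]
  -- symmetric projections
  have hP₀t := hP.symm₀
  have hP₁t := hP.symm₁
  have h10 : P₁ * P₀ = 0 := by
    have := congrArg Matrix.transpose hP.orth
    simpa [Matrix.transpose_mul, hP₀t, hP₁t] using this
  set PP := P₀ + P₁ with hPPd
  have hPPt : PPᵀ = PP := by rw [hPPd, transpose_add, hP₀t, hP₁t]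
  have hPPPP : PP * PP = PP := by
    rw [hPPd]; simp only [Matrix.add_mul, Matrix.mul_add, hP.idem₀, hP.idem₁, hP.orth, h10]; simp
  -- S vanishes off the range of PP
  have hSD : S * (1 - PP) = 0 := by
    apply transpose_eq_zero_of_mul
    rw [Matrix.transpose_mul, hSt, transpose_sub, transpose_one, hPPt]
    calc (1 - PP) * S * (S * (1 - PP)) = (1 - PP) * (S * S) * (1 - PP) := by
          simp only [Matrix.mul_assoc]
      _ = (1 - PP) * A * (1 - PP) := by rw [hSS]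
      _ = 0 := by
          have : (1 - PP) * A = 0 := by rw [Matrix.sub_mul, Matrix.one_mul, hsupp, sub_self]
          rw [this, Matrix.zero_mul]
  have hSPP : S * PP = S := by
    have : S * (1 - PP) = S - S * PP := by rw [Matrix.mul_sub, Matrix.mul_one]
    rw [this] at hSD
    exact (sub_eq_zero.1 hSD).symm
  set K := S * (P₀ - P₁) * S with hK
  have hKt : Kᵀ = K := by
    rw [hK]; simp [Matrix.transpose_mul, hSt, hP₀t, hP₁t, Matrix.mul_assoc]
  have hAadd : A = S * P₀ * S + S * P₁ * S := by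
    calc A = S * S := hSS.symm
      _ = S * PP * S := by rw [hSPP]
      _ = _ := by rw [hPPd, Matrix.mul_add, Matrix.add_mul]
  have hplus : A + K = (2 : ℝ) • (S * P₀ * S) := by
    rw [hK, hAadd, Matrix.mul_sub, Matrix.sub_mul]; rw [two_smul]; abel
  have hminus : A - K = (2 : ℝ) • (S * P₁ * S) := by
    rw [hK, hAadd, Matrix.mul_sub, Matrix.sub_mul]; rw [two_smul]; abel
  -- positivity of the pieces
  have hpsd₀ : ((2 : ℝ) • (S * P₀ * S)).PosSemidef := by
    have h := psd_self_mul_transpose (S * P₀)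
    have e : (S * P₀) * (S * P₀)ᵀ = S * P₀ * S := by
      rw [Matrix.transpose_mul, hP₀t, hSt, Matrix.mul_assoc, ← Matrix.mul_assoc P₀ P₀ S, hP.idem₀,
        ← Matrix.mul_assoc]
    rw [e] at h
    exact h.smul (by norm_num)
  have hpsd₁ : ((2 : ℝ) • (S * P₁ * S)).PosSemidef := by
    have h := psd_self_mul_transpose (S * P₁)
    have e : (S * P₁) * (S * P₁)ᵀ = S * P₁ * S := by
      rw [Matrix.transpose_mul, hP₁t, hSt, Matrix.mul_assoc, ← Matrix.mul_assoc P₁ P₁ S, hP.idem₁,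
        ← Matrix.mul_assoc]
    rw [e] at h
    exact h.smul (by norm_num)
  have hppsd₀ : ((2 : ℝ) • (P₀ * A * P₀)).PosSemidef := (psd_proj_conj hA hP₀t).smul (by norm_num)
  have hppsd₁ : ((2 : ℝ) • (P₁ * A * P₁)).PosSemidef := (psd_proj_conj hA hP₁t).smul (by norm_num)
  -- the switch
  have hsw₀ : G s ((2 : ℝ) • (P₀ * A * P₀)) = G s (A + K) := by
    rw [hplus]
    have e1 : ((2 : ℝ) • (P₀ * S)) * (S * P₀) = (2 : ℝ) • (P₀ * A * P₀) := by
      rw [← hSS]; simp only [Matrix.smul_mul, Matrix.mul_assoc]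
    have e2 : (S * P₀) * ((2 : ℝ) • (P₀ * S)) = (2 : ℝ) • (S * P₀ * S) := by
      simp only [Matrix.mul_smul, Matrix.mul_assoc]
      rw [← Matrix.mul_assoc P₀ P₀ S, hP.idem₀]
    have := G_switch (s := s) hs.ne' (M := (2 : ℝ) • (P₀ * S)) (N := S * P₀)
      (by rw [e1]; exact isUnit_add_smul hs hppsd₀) (by rw [e2]; exact isUnit_add_smul hs hpsd₀)
    rwa [e1, e2] at this
  have hsw₁ : G s ((2 : ℝ) • (P₁ * A * P₁)) = G s (A - K) := by
    rw [hminus]
    have e1 : ((2 : ℝ) • (P₁ * S)) * (S * P₁) = (2 : ℝ) • (P₁ * A * P₁) := by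
      rw [← hSS]; simp only [Matrix.smul_mul, Matrix.mul_assoc]
    have e2 : (S * P₁) * ((2 : ℝ) • (P₁ * S)) = (2 : ℝ) • (S * P₁ * S) := by
      simp only [Matrix.mul_smul, Matrix.mul_assoc]
      rw [← Matrix.mul_assoc P₁ P₁ S, hP.idem₁]
    have := G_switch (s := s) hs.ne' (M := (2 : ℝ) • (P₁ * S)) (N := S * P₁)
      (by rw [e1]; exact isUnit_add_smul hs hppsd₁) (by rw [e2]; exact isUnit_add_smul hs hpsd₁)
    rwa [e1, e2] at this
  -- the resolvent inequality
  set Q := A + s • (1 : Matrix ι ι ℝ) with hQ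
  have hQpd : Q.PosDef := posDef_add_smul hs hA
  have hQp : Q + K = (A + K) + s • (1 : Matrix ι ι ℝ) := by rw [hQ]; abel
  have hQm : Q - K = (A - K) + s • (1 : Matrix ι ι ℝ) := by rw [hQ]; abel
  have hQppd : (Q + K).PosDef := by
    rw [hQp, hplus]; exact posDef_add_smul hs hpsd₀
  have hQmpd : (Q - K).PosDef := by
    rw [hQm, hminus]; exact posDef_add_smul hs hpsd₁
  have hgapineq := trace_inv_gap hQpd hKt hQppd hQmpd
  -- diagonalize the resolvent
  have hQinv : Q⁻¹ = O * diagonal r * Oᵀ := by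
    apply Matrix.inv_eq_left_inv
    rw [hQ, hAO]
    have : s • (1 : Matrix ι ι ℝ) = O * (s • (1 : Matrix ι ι ℝ)) * Oᵀ := by
      simp only [Matrix.mul_smul, Matrix.smul_mul, Matrix.mul_one, h2]
    rw [this, ← Matrix.add_mul, ← Matrix.mul_add]
    simp only [Matrix.mul_assoc, hcancel]
    have hdiag : diagonal r * (diagonal l + s • (1 : Matrix ι ι ℝ)) = 1 := by
      ext i j
      by_cases hij : i = j
      · subst hij
        have hpos : l i + s ≠ 0 := by have := hl i; positivity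
        simp [Matrix.mul_apply, Matrix.diagonal_apply, hr, Matrix.one_apply, Matrix.smul_apply,
          Matrix.add_apply, hpos]
      · simp [Matrix.diagonal_mul, Matrix.add_apply, hij]
    rw [← Matrix.mul_assoc (diagonal r), hdiag]
    rw [Matrix.one_mul, h2]
  have hU : P₀ - P₁ = O * V * Oᵀ := by
    rw [hV]; simp only [Matrix.mul_assoc, h2, Matrix.mul_one]; rw [hcancel']
  have hKO : K = O * (diagonal d * V * diagonal d) * Oᵀ := by
    rw [hK, hS, hU]
    simp only [Matrix.mul_assoc, hcancel]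
  have hRKR : Q⁻¹ * K * Q⁻¹ * K * Q⁻¹ =
      O * (diagonal r * (diagonal d * V * diagonal d) * diagonal r *
        (diagonal d * V * diagonal d) * diagonal r) * Oᵀ := by
    rw [hQinv, hKO]
    simp only [Matrix.mul_assoc, hcancel]
  have hVt : Vᵀ = V := by
    rw [hV]; simp [Matrix.transpose_mul, hP₀t, hP₁t, Matrix.mul_assoc]
  have htrace : trace (Q⁻¹ * K * Q⁻¹ * K * Q⁻¹) =
      ∑ i, ∑ j, l i * l j * (V i j ^ 2 * (r i ^ 2 * r j)) := by
    rw [hRKR, Matrix.trace_mul_comm, hcancel]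
    have hW₁ : diagonal r * (diagonal d * V * diagonal d) * diagonal r =
        Matrix.of fun i j => r i * (d i * V i j * d j) * r j := by
      ext i j
      simp [Matrix.mul_diagonal, Matrix.diagonal_mul]
    have hW₂ : diagonal d * V * diagonal d = Matrix.of fun i j => d i * V i j * d j := by
      ext i j
      simp [Matrix.mul_diagonal, Matrix.diagonal_mul]
    rw [hW₁, hW₂]
    simp only [Matrix.trace, Matrix.diag_apply, Matrix.mul_diagonal]
    simp only [Matrix.mul_apply, Matrix.of_apply]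
    refine Finset.sum_congr rfl fun i _ => ?_
    rw [Finset.sum_mul]
    refine Finset.sum_congr rfl fun j _ => ?_
    have hVij : V j i = V i j := by
      have := congrFun (congrFun hVt i) j
      simpa [Matrix.transpose_apply] using this
    rw [hVij, ← hdd i, ← hdd j]
    ring
  have hGexp : gap s A P₀ P₁ = s ^ 2 * ((1 / 2) * trace (Q + K)⁻¹ + (1 / 2) * trace (Q - K)⁻¹ -
      trace Q⁻¹) := by
    unfold gap
    rw [hsw₀, hsw₁]
    unfold G
    rw [← hQ, ← hQp, ← hQm]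
    simp only [trace_add, trace_sub]
    ring
  rw [hGexp]
  have hs2 : 0 ≤ s ^ 2 := by positivity
  have hfinal : trace (Q⁻¹ * K * Q⁻¹ * K * Q⁻¹) ≤
      (1 / 2) * trace (Q + K)⁻¹ + (1 / 2) * trace (Q - K)⁻¹ - trace Q⁻¹ := by linarith
  calc ∑ i, ∑ j, s ^ 2 * (l i * l j * (V i j ^ 2 * ((l i + s)⁻¹ ^ 2 * (l j + s)⁻¹)))
      = s ^ 2 * trace (Q⁻¹ * K * Q⁻¹ * K * Q⁻¹) := by
        rw [htrace, Finset.mul_sum]
        refine Finset.sum_congr rfl fun i _ => ?_
        rw [Finset.mul_sum]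
    _ ≤ _ := mul_le_mul_of_nonneg_left hfinal hs2

/-- The quantity `Q(s)`: the weighted square sum of `V` over the eigenvalues at most `s`. -/
noncomputable def Qsum (s : ℝ) (l : ι → ℝ) (V : Matrix ι ι ℝ) : ℝ :=
  ∑ i, ∑ j, l i * l j * (V i j ^ 2 * ((if l i ≤ s then 1 else 0) * (if l j ≤ s then 1 else 0)))

theorem gap_ge_Qsum {A P₀ P₁ O : Matrix ι ι ℝ} {l : ι → ℝ} {s : ℝ} (hs : 0 < s)
    (hA : A.PosSemidef) (h1 : Oᵀ * O = 1) (h2 : O * Oᵀ = 1) (hl : ∀ i, 0 ≤ l i)
    (hAO : A = O * diagonal l * Oᵀ) (hP : OrthProj P₀ P₁) (hsupp : (P₀ + P₁) * A = A) :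
    Qsum s l (Oᵀ * (P₀ - P₁) * O) ≤ 8 * s * gap s A P₀ P₁ := by
  have hmain := gap_lower hs hA h1 h2 hl hAO hP hsupp
  set V := Oᵀ * (P₀ - P₁) * O
  have h8 : 0 ≤ 8 * s := by positivity
  refine le_trans ?_ (mul_le_mul_of_nonneg_left hmain h8)
  unfold Qsum
  rw [Finset.mul_sum]
  refine Finset.sum_le_sum fun i _ => ?_
  rw [Finset.mul_sum]
  refine Finset.sum_le_sum fun j _ => ?_
  have hli := hl i
  have hlj := hl j
  have hnn : 0 ≤ l i * l j * V i j ^ 2 := by positivity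
  by_cases hi : l i ≤ s
  · by_cases hj : l j ≤ s
    · simp only [hi, hj, if_true, mul_one]
      have hri : (2 * s)⁻¹ ≤ (l i + s)⁻¹ := by
        apply inv_anti₀ (by positivity); linarith
      have hrj : (2 * s)⁻¹ ≤ (l j + s)⁻¹ := by
        apply inv_anti₀ (by positivity); linarith
      have hr2 : ((2 * s)⁻¹) ^ 2 * (2 * s)⁻¹ ≤ ((l i + s)⁻¹) ^ 2 * (l j + s)⁻¹ := by
        have h0 : 0 ≤ (2 * s)⁻¹ := by positivity
        exact mul_le_mul (pow_le_pow_left₀ h0 hri 2) hrj h0 (by positivity)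
      have hs8 : 1 ≤ 8 * s * s ^ 2 * (((2 * s)⁻¹) ^ 2 * (2 * s)⁻¹) := by
        field_simp; norm_num
      have hle : 1 ≤ 8 * s * s ^ 2 * (((l i + s)⁻¹) ^ 2 * (l j + s)⁻¹) :=
        le_trans hs8 (mul_le_mul_of_nonneg_left hr2 (by positivity))
      calc l i * l j * V i j ^ 2 = (l i * l j * V i j ^ 2) * 1 := by ring
        _ ≤ (l i * l j * V i j ^ 2) * (8 * s * s ^ 2 * (((l i + s)⁻¹) ^ 2 * (l j + s)⁻¹)) :=
            mul_le_mul_of_nonneg_left hle hnn
        _ = _ := by ring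
    · simp only [hj, if_false, mul_zero]
      have : 0 ≤ ((l i + s)⁻¹) ^ 2 * (l j + s)⁻¹ := by positivity
      have hh : 0 ≤ s ^ 2 * (l i * l j * (V i j ^ 2 * (((l i + s)⁻¹) ^ 2 * (l j + s)⁻¹))) := by
        positivity
      have := mul_nonneg h8 hh
      simpa using this
  · simp only [hi, if_false, zero_mul, mul_zero]
    have : 0 ≤ ((l i + s)⁻¹) ^ 2 * (l j + s)⁻¹ := by positivity
    have hh : 0 ≤ s ^ 2 * (l i * l j * (V i j ^ 2 * (((l i + s)⁻¹) ^ 2 * (l j + s)⁻¹))) := by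
      positivity
    have := mul_nonneg h8 hh
    simpa using this

end Vale.Agent.Lib.P075
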