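import Vale.Agent.Lib.P075.Measure2

/-!
From the discrete theorem to the final bound for the dyadic triangular Hilbert form.
-/

set_option linter.unusedVariables false
set_option linter.unusedSectionVars false

open MeasureTheory Set

namespace Vale.Agent.Lib.P075

section Fubini

variable (α β γ : Measure ℝ) [SFinite α] [SFinite β] [SFinite γ]

lemma slot0 (H : ℝ × ℝ → ℝ) :
    ∫ x, H (x.1, x.2.1) ∂α.prod (β.prod γ) = γ.real univ * ∫ z, H z ∂α.prod β := by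
  rw [← Measure.prodAssoc_prod (μ := α) (ν := β) (τ := γ), integral_map_equiv]
  have h := integral_fun_fst (μ := α.prod β) (ν := γ) H
  simpa [MeasurableEquiv.prodAssoc, smul_eq_mul] using h

lemma slot1 (H : ℝ × ℝ → ℝ) :
    ∫ x, H (x.2.1, x.2.2) ∂α.prod (β.prod γ) = α.real univ * ∫ z, H z ∂β.prod γ := by
  have h := integral_fun_snd (μ := α) (ν := β.prod γ) H
  simpa [smul_eq_mul] using h

lemma slot2 (H : ℝ × ℝ → ℝ) :
    ∫ x, H (x.2.2, x.1) ∂α.prod (β.prod γ) = β.real univ * ∫ z, H z ∂γ.prod α := by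
  rw [← Measure.prodAssoc_prod (μ := α) (ν := β) (τ := γ), integral_map_equiv]
  have h := integral_prod_swap (μ := γ) (ν := α.prod β) (fun y : ℝ × (ℝ × ℝ) => H (y.1, y.2.1))
  have h2 := slot0 γ α β H
  rw [← h2, ← h]
  simp [MeasurableEquiv.prodAssoc]

end Fubini

section SetFubini

lemma restrict3 (A B C : Set ℝ) :
    (volume : Measure (ℝ × ℝ × ℝ)).restrict (A ×ˢ B ×ˢ C) =
      (volume.restrict A).prod ((volume.restrict B).prod (volume.restrict C)) := by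
  rw [Measure.prod_restrict, Measure.prod_restrict, Measure.volume_eq_prod, Measure.volume_eq_prod]

lemma restrict2 (A B : Set ℝ) :
    (volume : Measure (ℝ × ℝ)).restrict (A ×ˢ B) = (volume.restrict A).prod (volume.restrict B) := by
  rw [Measure.prod_restrict, Measure.volume_eq_prod]

lemma setSlot0 (A B C : Set ℝ) (H : ℝ × ℝ → ℝ) :
    ∫ x in A ×ˢ B ×ˢ C, H (x.1, x.2.1) = (volume C).toReal * ∫ z in A ×ˢ B, H z := by
  rw [restrict3, restrict2, slot0]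
  simp [Measure.real]

lemma setSlot1 (A B C : Set ℝ) (H : ℝ × ℝ → ℝ) :
    ∫ x in A ×ˢ B ×ˢ C, H (x.2.1, x.2.2) = (volume A).toReal * ∫ z in B ×ˢ C, H z := by
  rw [restrict3, restrict2, slot1]
  simp [Measure.real]

lemma setSlot2 (A B C : Set ℝ) (H : ℝ × ℝ → ℝ) :
    ∫ x in A ×ˢ B ×ˢ C, H (x.2.2, x.1) = (volume B).toReal * ∫ z in C ×ˢ A, H z := by
  rw [restrict3, restrict2, slot2]
  simp [Measure.real]

end SetFubini

/-- Bounded measurable functions with support in the box of side `2^a` in the quadrant. -/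
structure BoxFn (a : ℤ) (B : ℝ) (F : ℝ × ℝ → ℝ) : Prop where
  meas : Measurable F
  bdd : ∀ x, |F x| ≤ B
  supp : ∀ x y, F (x, y) ≠ 0 → (0 ≤ x ∧ x < (2 : ℝ) ^ a) ∧ (0 ≤ y ∧ y < (2 : ℝ) ^ a)

section Continuity

lemma BoxFn.integrable {a : ℤ} {B : ℝ} {F : ℝ × ℝ → ℝ} (h : BoxFn a B F) : Integrable F :=
  integrable_of_box h.meas h.bdd h.supp

lemma measurable_haar (k : ℤ) (n : ℕ) : Measurable (haar k n) := by
  unfold haar
  exact (measurable_const.indicator measurableSet_Ico).sub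
    (measurable_const.indicator measurableSet_Ico)

lemma abs_haar_le (k : ℤ) (n : ℕ) (x : ℝ) : |haar k n x| ≤ 1 := by
  unfold haar
  by_cases h1 : x ∈ Set.Ico ((2 : ℝ) ^ k * n) ((2 : ℝ) ^ k * (n + 1 / 2))
  · by_cases h2 : x ∈ Set.Ico ((2 : ℝ) ^ k * (n + 1 / 2)) ((2 : ℝ) ^ k * (n + 1))
    · rw [Set.indicator_of_mem h1, Set.indicator_of_mem h2]; norm_num
    · rw [Set.indicator_of_mem h1, Set.indicator_of_notMem h2]; norm_num
  · by_cases h2 : x ∈ Set.Ico ((2 : ℝ) ^ k * (n + 1 / 2)) ((2 : ℝ) ^ k * (n + 1))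
    · rw [Set.indicator_of_notMem h1, Set.indicator_of_mem h2]; norm_num
    · rw [Set.indicator_of_notMem h1, Set.indicator_of_notMem h2]; norm_num

lemma volume_dyadic_ne_top (k : ℤ) (n : ℕ) : volume (dyadic k n) ≠ ⊤ := by
  simp [dyadic, Real.volume_Ico]

lemma integrableOn_T (k : ℤ) (n₀ n₁ n₂ : ℕ) {f : ℝ × ℝ × ℝ → ℝ} (hf : Measurable f) {M : ℝ}
    (hM : ∀ x, |f x| ≤ M) : IntegrableOn f (dyadic k n₀ ×ˢ dyadic k n₁ ×ˢ dyadic k n₂) := by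
  refine Measure.integrableOn_of_bounded ?_ hf.aestronglyMeasurable
    (Filter.Eventually.of_forall fun x => by simpa using hM x)
  rw [Measure.volume_eq_prod, Measure.prod_prod, Measure.volume_eq_prod, Measure.prod_prod]
  exact ENNReal.mul_ne_top (volume_dyadic_ne_top _ _)
    (ENNReal.mul_ne_top (volume_dyadic_ne_top _ _) (volume_dyadic_ne_top _ _))

lemma measurable_integrand {F₀ F₁ F₂ : ℝ × ℝ → ℝ} (h₀ : Measurable F₀) (h₁ : Measurable F₁)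
    (h₂ : Measurable F₂) (k : ℤ) (n₀ n₁ n₂ : ℕ) :
    Measurable (fun x : ℝ × ℝ × ℝ => F₀ (x.1, x.2.1) * F₁ (x.2.1, x.2.2) * F₂ (x.2.2, x.1) *
      (haar k n₀ x.1 * haar k n₁ x.2.1 * haar k n₂ x.2.2)) := by
  have e0 : Measurable (fun x : ℝ × ℝ × ℝ => (x.1, x.2.1)) := by fun_prop
  have e1 : Measurable (fun x : ℝ × ℝ × ℝ => (x.2.1, x.2.2)) := by fun_prop
  have e2 : Measurable (fun x : ℝ × ℝ × ℝ => (x.2.2, x.1)) := by fun_prop
  have a0 : Measurable (fun x : ℝ × ℝ × ℝ => x.1) := by fun_prop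
  have a1 : Measurable (fun x : ℝ × ℝ × ℝ => x.2.1) := by fun_prop
  have a2 : Measurable (fun x : ℝ × ℝ × ℝ => x.2.2) := by fun_prop
  exact ((h₀.comp e0).mul (h₁.comp e1)).mul (h₂.comp e2) |>.mul
    ((((measurable_haar k n₀).comp a0).mul ((measurable_haar k n₁).comp a1)).mul
      ((measurable_haar k n₂).comp a2))

lemma abs_integrand_le {B : ℝ} (hB : 0 ≤ B) {F₀ F₁ F₂ : ℝ × ℝ → ℝ} (h₀ : ∀ x, |F₀ x| ≤ B)
    (h₁ : ∀ x, |F₁ x| ≤ B) (h₂ : ∀ x, |F₂ x| ≤ B) (k : ℤ) (n₀ n₁ n₂ : ℕ) (x : ℝ × ℝ × ℝ) :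
    |F₀ (x.1, x.2.1) * F₁ (x.2.1, x.2.2) * F₂ (x.2.2, x.1) *
      (haar k n₀ x.1 * haar k n₁ x.2.1 * haar k n₂ x.2.2)| ≤ B * B * B * (1 * 1 * 1) := by
  simp only [abs_mul]
  have a0 := abs_nonneg (F₀ (x.1, x.2.1))
  have a1 := abs_nonneg (F₁ (x.2.1, x.2.2))
  have a2 := abs_nonneg (F₂ (x.2.2, x.1))
  have b0 := abs_nonneg (haar k n₀ x.1)
  have b1 := abs_nonneg (haar k n₁ x.2.1)
  have b2 := abs_nonneg (haar k n₂ x.2.2)
  gcongr
  · exact h₀ _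
  · exact h₁ _
  · exact h₂ _
  · exact abs_haar_le _ _ _
  · exact abs_haar_le _ _ _
  · exact abs_haar_le _ _ _

/-- Continuity of a single tile form in `L¹`, for uniformly bounded functions. -/
theorem tile_diff {a : ℤ} {B : ℝ} (hB : 0 ≤ B) {F₀ F₁ F₂ G₀ G₁ G₂ : ℝ × ℝ → ℝ}
    (hF₀ : BoxFn a B F₀) (hF₁ : BoxFn a B F₁) (hF₂ : BoxFn a B F₂)
    (hG₀ : BoxFn a B G₀) (hG₁ : BoxFn a B G₁) (hG₂ : BoxFn a B G₂)
    (k : ℤ) (n₀ n₁ n₂ : ℕ) :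
    |tileForm k n₀ n₁ n₂ F₀ F₁ F₂ - tileForm k n₀ n₁ n₂ G₀ G₁ G₂| ≤
      B ^ 2 * ((∫ p, |F₀ p - G₀ p|) + (∫ p, |F₁ p - G₁ p|) + ∫ p, |F₂ p - G₂ p|) := by
  set T := dyadic k n₀ ×ˢ dyadic k n₁ ×ˢ dyadic k n₂ with hT
  set φ : ℝ × ℝ × ℝ → ℝ := fun x => F₀ (x.1, x.2.1) * F₁ (x.2.1, x.2.2) * F₂ (x.2.2, x.1) *
      (haar k n₀ x.1 * haar k n₁ x.2.1 * haar k n₂ x.2.2) with hφ
  set ψ : ℝ × ℝ × ℝ → ℝ := fun x => G₀ (x.1, x.2.1) * G₁ (x.2.1, x.2.2) * G₂ (x.2.2, x.1) *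
      (haar k n₀ x.1 * haar k n₁ x.2.1 * haar k n₂ x.2.2) with hψ
  have hφm : Measurable φ := measurable_integrand hF₀.meas hF₁.meas hF₂.meas k n₀ n₁ n₂
  have hψm : Measurable ψ := measurable_integrand hG₀.meas hG₁.meas hG₂.meas k n₀ n₁ n₂
  have hφi : IntegrableOn φ T :=
    integrableOn_T k n₀ n₁ n₂ hφm (abs_integrand_le hB hF₀.bdd hF₁.bdd hF₂.bdd k n₀ n₁ n₂)
  have hψi : IntegrableOn ψ T :=
    integrableOn_T k n₀ n₁ n₂ hψm (abs_integrand_le hB hG₀.bdd hG₁.bdd hG₂.bdd k n₀ n₁ n₂)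
  -- the three `L¹` distances
  set H₀ : ℝ × ℝ → ℝ := fun p => |F₀ p - G₀ p| with hH₀
  set H₁ : ℝ × ℝ → ℝ := fun p => |F₁ p - G₁ p| with hH₁
  set H₂ : ℝ × ℝ → ℝ := fun p => |F₂ p - G₂ p| with hH₂
  have hH₀m : Measurable H₀ := (hF₀.meas.sub hG₀.meas).abs
  have hH₁m : Measurable H₁ := (hF₁.meas.sub hG₁.meas).abs
  have hH₂m : Measurable H₂ := (hF₂.meas.sub hG₂.meas).abs
  have hH₀i : Integrable H₀ := (hF₀.integrable.sub hG₀.integrable).abs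
  have hH₁i : Integrable H₁ := (hF₁.integrable.sub hG₁.integrable).abs
  have hH₂i : Integrable H₂ := (hF₂.integrable.sub hG₂.integrable).abs
  have hHb : ∀ {F G : ℝ × ℝ → ℝ}, (∀ x, |F x| ≤ B) → (∀ x, |G x| ≤ B) → ∀ p, |F p - G p| ≤ B + B := by
    intro F G hF hG p
    exact (abs_sub _ _).trans (add_le_add (hF p) (hG p))
  have hc0 : Measurable (fun x : ℝ × ℝ × ℝ => H₀ (x.1, x.2.1)) := hH₀m.comp (by fun_prop)
  have hc1 : Measurable (fun x : ℝ × ℝ × ℝ => H₁ (x.2.1, x.2.2)) := hH₁m.comp (by fun_prop)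
  have hc2 : Measurable (fun x : ℝ × ℝ × ℝ => H₂ (x.2.2, x.1)) := hH₂m.comp (by fun_prop)
  have hi0 : IntegrableOn (fun x : ℝ × ℝ × ℝ => H₀ (x.1, x.2.1)) T :=
    integrableOn_T k n₀ n₁ n₂ hc0 (M := B + B) fun x => by
      rw [hH₀, abs_abs]; exact hHb hF₀.bdd hG₀.bdd _
  have hi1 : IntegrableOn (fun x : ℝ × ℝ × ℝ => H₁ (x.2.1, x.2.2)) T :=
    integrableOn_T k n₀ n₁ n₂ hc1 (M := B + B) fun x => by
      rw [hH₁, abs_abs]; exact hHb hF₁.bdd hG₁.bdd _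
  have hi2 : IntegrableOn (fun x : ℝ × ℝ × ℝ => H₂ (x.2.2, x.1)) T :=
    integrableOn_T k n₀ n₁ n₂ hc2 (M := B + B) fun x => by
      rw [hH₂, abs_abs]; exact hHb hF₂.bdd hG₂.bdd _
  -- pointwise estimate
  have hpt : ∀ x, |φ x - ψ x| ≤ B ^ 2 * (H₀ (x.1, x.2.1) + H₁ (x.2.1, x.2.2) + H₂ (x.2.2, x.1)) := by
    intro x
    have hh : |haar k n₀ x.1 * haar k n₁ x.2.1 * haar k n₂ x.2.2| ≤ 1 := by
      simp only [abs_mul]
      have b0 := abs_nonneg (haar k n₀ x.1)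
      have b1 := abs_nonneg (haar k n₁ x.2.1)
      have b2 := abs_nonneg (haar k n₂ x.2.2)
      have c0 := abs_haar_le k n₀ x.1
      have c1 := abs_haar_le k n₁ x.2.1
      have c2 := abs_haar_le k n₂ x.2.2
      calc |haar k n₀ x.1| * |haar k n₁ x.2.1| * |haar k n₂ x.2.2| ≤ 1 * 1 * 1 := by gcongr
        _ = 1 := by norm_num
    simp only [hφ, hψ]
    rw [← sub_mul, abs_mul]
    set f0 := F₀ (x.1, x.2.1)
    set f1 := F₁ (x.2.1, x.2.2)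
    set f2 := F₂ (x.2.2, x.1)
    set g0 := G₀ (x.1, x.2.1)
    set g1 := G₁ (x.2.1, x.2.2)
    set g2 := G₂ (x.2.2, x.1)
    have hf0 : |f0| ≤ B := hF₀.bdd _
    have hf1 : |f1| ≤ B := hF₁.bdd _
    have hf2 : |f2| ≤ B := hF₂.bdd _
    have hg0 : |g0| ≤ B := hG₀.bdd _
    have hg1 : |g1| ≤ B := hG₁.bdd _
    have hg2 : |g2| ≤ B := hG₂.bdd _
    have hd0 : 0 ≤ |f0 - g0| := abs_nonneg _
    have hd1 : 0 ≤ |f1 - g1| := abs_nonneg _
    have hd2 : 0 ≤ |f2 - g2| := abs_nonneg _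
    have hexp : f0 * f1 * f2 - g0 * g1 * g2 =
        (f0 - g0) * f1 * f2 + g0 * (f1 - g1) * f2 + g0 * g1 * (f2 - g2) := by ring
    have hterm0 : |(f0 - g0) * f1 * f2| ≤ |f0 - g0| * B * B := by
      simp only [abs_mul]
      gcongr
    have hterm1 : |g0 * (f1 - g1) * f2| ≤ B * |f1 - g1| * B := by
      simp only [abs_mul]
      gcongr
    have hterm2 : |g0 * g1 * (f2 - g2)| ≤ B * B * |f2 - g2| := by
      simp only [abs_mul]
      gcongr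
    have htot : |f0 * f1 * f2 - g0 * g1 * g2| ≤ B ^ 2 * (|f0 - g0| + |f1 - g1| + |f2 - g2|) := by
      rw [hexp]
      refine (abs_add_le _ _).trans ?_
      have := abs_add_le ((f0 - g0) * f1 * f2) (g0 * (f1 - g1) * f2)
      nlinarith
    have hnn : 0 ≤ B ^ 2 * (|f0 - g0| + |f1 - g1| + |f2 - g2|) := by positivity
    calc |f0 * f1 * f2 - g0 * g1 * g2| * |haar k n₀ x.1 * haar k n₁ x.2.1 * haar k n₂ x.2.2|
        ≤ (B ^ 2 * (|f0 - g0| + |f1 - g1| + |f2 - g2|)) * 1 :=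
          mul_le_mul htot hh (abs_nonneg _) hnn
      _ = B ^ 2 * (H₀ (x.1, x.2.1) + H₁ (x.2.1, x.2.2) + H₂ (x.2.2, x.1)) := by
          simp only [mul_one, hH₀, hH₁, hH₂]
          rfl
  -- integrate
  have hmT : MeasurableSet T :=
    (measurableSet_dyadic k n₀).prod ((measurableSet_dyadic k n₁).prod (measurableSet_dyadic k n₂))
  have hI : |∫ x in T, (φ x - ψ x)| ≤ B ^ 2 * ((2 : ℝ) ^ k * ((∫ p, H₀ p) + (∫ p, H₁ p) + ∫ p, H₂ p)) := by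
    have h1 : |∫ x in T, (φ x - ψ x)| ≤ ∫ x in T, |φ x - ψ x| := abs_integral_le_integral_abs
    have hRint : IntegrableOn (fun x : ℝ × ℝ × ℝ =>
        B ^ 2 * (H₀ (x.1, x.2.1) + H₁ (x.2.1, x.2.2) + H₂ (x.2.2, x.1))) T :=
      ((hi0.add hi1).add hi2).const_mul _
    have h2 : ∫ x in T, |φ x - ψ x| ≤ ∫ x in T,
        B ^ 2 * (H₀ (x.1, x.2.1) + H₁ (x.2.1, x.2.2) + H₂ (x.2.2, x.1)) :=
      setIntegral_mono (hφi.sub hψi).abs hRint hpt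
    have h3 : ∫ x in T, B ^ 2 * (H₀ (x.1, x.2.1) + H₁ (x.2.1, x.2.2) + H₂ (x.2.2, x.1)) =
        B ^ 2 * ((∫ x in T, H₀ (x.1, x.2.1)) + (∫ x in T, H₁ (x.2.1, x.2.2)) +
          ∫ x in T, H₂ (x.2.2, x.1)) := by
      have e1 : ∫ x in T, (H₀ (x.1, x.2.1) + H₁ (x.2.1, x.2.2) + H₂ (x.2.2, x.1)) =
          (∫ x in T, (H₀ (x.1, x.2.1) + H₁ (x.2.1, x.2.2))) + ∫ x in T, H₂ (x.2.2, x.1) :=
        integral_add (f := fun x : ℝ × ℝ × ℝ => H₀ (x.1, x.2.1) + H₁ (x.2.1, x.2.2))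
          (g := fun x : ℝ × ℝ × ℝ => H₂ (x.2.2, x.1)) (hi0.add hi1) hi2
      have e2 : ∫ x in T, (H₀ (x.1, x.2.1) + H₁ (x.2.1, x.2.2)) =
          (∫ x in T, H₀ (x.1, x.2.1)) + ∫ x in T, H₁ (x.2.1, x.2.2) :=
        integral_add (f := fun x : ℝ × ℝ × ℝ => H₀ (x.1, x.2.1))
          (g := fun x : ℝ × ℝ × ℝ => H₁ (x.2.1, x.2.2)) hi0 hi1
      rw [integral_const_mul, e1, e2]
    have h4 : ∫ x in T, H₀ (x.1, x.2.1) ≤ (2 : ℝ) ^ k * ∫ p, H₀ p := by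
      rw [hT, setSlot0, volume_dyadic]
      exact mul_le_mul_of_nonneg_left
        (setIntegral_le_integral hH₀i (Filter.Eventually.of_forall fun p => abs_nonneg _))
        (zp_pos k).le
    have h5 : ∫ x in T, H₁ (x.2.1, x.2.2) ≤ (2 : ℝ) ^ k * ∫ p, H₁ p := by
      rw [hT, setSlot1, volume_dyadic]
      exact mul_le_mul_of_nonneg_left
        (setIntegral_le_integral hH₁i (Filter.Eventually.of_forall fun p => abs_nonneg _))
        (zp_pos k).le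
    have h6 : ∫ x in T, H₂ (x.2.2, x.1) ≤ (2 : ℝ) ^ k * ∫ p, H₂ p := by
      rw [hT, setSlot2, volume_dyadic]
      exact mul_le_mul_of_nonneg_left
        (setIntegral_le_integral hH₂i (Filter.Eventually.of_forall fun p => abs_nonneg _))
        (zp_pos k).le
    have hB2 : 0 ≤ B ^ 2 := by positivity
    calc |∫ x in T, (φ x - ψ x)| ≤ _ := h1.trans h2
      _ = _ := h3
      _ ≤ B ^ 2 * ((2 : ℝ) ^ k * ((∫ p, H₀ p) + (∫ p, H₁ p) + ∫ p, H₂ p)) := by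
          apply mul_le_mul_of_nonneg_left _ hB2
          rw [mul_add, mul_add]
          linarith
  unfold tileForm
  rw [← mul_sub, ← integral_sub hφi hψi, abs_mul]
  have hk : |(2 : ℝ) ^ (-k)| = ((2 : ℝ) ^ k)⁻¹ := by
    rw [abs_of_pos (zp_pos _), zpow_neg]
  rw [hk]
  have hkpos := zp_pos k
  calc ((2 : ℝ) ^ k)⁻¹ * |∫ x in T, (φ x - ψ x)|
      ≤ ((2 : ℝ) ^ k)⁻¹ * (B ^ 2 * ((2 : ℝ) ^ k * ((∫ p, H₀ p) + (∫ p, H₁ p) + ∫ p, H₂ p))) :=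
        mul_le_mul_of_nonneg_left hI (by positivity)
    _ = B ^ 2 * ((∫ p, H₀ p) + (∫ p, H₁ p) + ∫ p, H₂ p) := by
        field_simp

end Continuity

section Main

lemma tsum_box {a : ℤ} {B : ℝ} {F₀ : ℝ × ℝ → ℝ} (h : BoxFn a B F₀) (F₁ F₂ : ℝ × ℝ → ℝ) {k : ℤ}
    (hk : k ≤ a) :
    ∑' t : {t : ℕ × ℕ × ℕ // t.1 ^^^ t.2.1 ^^^ t.2.2 = 0},
        tileForm k t.1.1 t.1.2.1 t.1.2.2 F₀ F₁ F₂
      = ∑ n₀ ∈ Finset.range (2 ^ (a - k).toNat), ∑ n₁ ∈ Finset.range (2 ^ (a - k).toNat),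
          tileForm k n₀ n₁ (n₀ ^^^ n₁) F₀ F₁ F₂ := by
  apply tsum_tile_eq
  intro x y hne
  have he : k + (((a - k).toNat : ℕ) : ℤ) = a := by
    rw [Int.toNat_of_nonneg (by omega)]; omega
  rw [he]
  have := h.supp x y hne
  exact ⟨this.1.2, this.2.2⟩

/-- Continuity of the form in `L¹`, for uniformly bounded functions in a fixed box. -/
theorem form_diff {a : ℤ} {B : ℝ} (hB : 0 ≤ B) {F₀ F₁ F₂ G₀ G₁ G₂ : ℝ × ℝ → ℝ}
    (hF₀ : BoxFn a B F₀) (hF₁ : BoxFn a B F₁) (hF₂ : BoxFn a B F₂)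
    (hG₀ : BoxFn a B G₀) (hG₁ : BoxFn a B G₁) (hG₂ : BoxFn a B G₂)
    (S : Finset ℤ) (ε : ℤ → ℝ) (hε : ∀ k, |ε k| ≤ 1) (hS : ∀ k ∈ S, k ≤ a) :
    |dyadicForm S ε F₀ F₁ F₂ - dyadicForm S ε G₀ G₁ G₂| ≤
      (∑ k ∈ S, (((2 : ℝ) ^ (a - k).toNat) ^ 2)) * (B ^ 2 *
        ((∫ p, |F₀ p - G₀ p|) + (∫ p, |F₁ p - G₁ p|) + ∫ p, |F₂ p - G₂ p|)) := by
  set E := B ^ 2 * ((∫ p, |F₀ p - G₀ p|) + (∫ p, |F₁ p - G₁ p|) + ∫ p, |F₂ p - G₂ p|) with hE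
  have hE0 : 0 ≤ E := by
    have : 0 ≤ (∫ p, |F₀ p - G₀ p|) := integral_nonneg fun p => abs_nonneg _
    have : 0 ≤ (∫ p, |F₁ p - G₁ p|) := integral_nonneg fun p => abs_nonneg _
    have : 0 ≤ (∫ p, |F₂ p - G₂ p|) := integral_nonneg fun p => abs_nonneg _
    positivity
  unfold dyadicForm
  rw [← Finset.sum_sub_distrib, Finset.sum_mul]
  refine (Finset.abs_sum_le_sum_abs _ _).trans (Finset.sum_le_sum fun k hk => ?_)
  rw [tsum_box hF₀ F₁ F₂ (hS k hk), tsum_box hG₀ G₁ G₂ (hS k hk), ← mul_sub, abs_mul]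
  set e := (a - k).toNat
  have hin : |∑ n₀ ∈ Finset.range (2 ^ e), ∑ n₁ ∈ Finset.range (2 ^ e),
        tileForm k n₀ n₁ (n₀ ^^^ n₁) F₀ F₁ F₂ - ∑ n₀ ∈ Finset.range (2 ^ e),
        ∑ n₁ ∈ Finset.range (2 ^ e), tileForm k n₀ n₁ (n₀ ^^^ n₁) G₀ G₁ G₂| ≤
      ((2 : ℝ) ^ e) ^ 2 * E := by
    rw [← Finset.sum_sub_distrib]
    refine (Finset.abs_sum_le_sum_abs _ _).trans ?_
    have h1 : ∀ n₀ ∈ Finset.range (2 ^ e), |∑ n₁ ∈ Finset.range (2 ^ e),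
        tileForm k n₀ n₁ (n₀ ^^^ n₁) F₀ F₁ F₂ - ∑ n₁ ∈ Finset.range (2 ^ e),
          tileForm k n₀ n₁ (n₀ ^^^ n₁) G₀ G₁ G₂| ≤ (2 : ℝ) ^ e * E := by
      intro n₀ _
      rw [← Finset.sum_sub_distrib]
      refine (Finset.abs_sum_le_sum_abs _ _).trans ?_
      have h2 : ∀ n₁ ∈ Finset.range (2 ^ e), |tileForm k n₀ n₁ (n₀ ^^^ n₁) F₀ F₁ F₂ -
          tileForm k n₀ n₁ (n₀ ^^^ n₁) G₀ G₁ G₂| ≤ E := fun n₁ _ =>
        tile_diff hB hF₀ hF₁ hF₂ hG₀ hG₁ hG₂ k n₀ n₁ _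
      refine (Finset.sum_le_sum h2).trans (le_of_eq ?_)
      simp [Finset.sum_const, Finset.card_range]
    refine (Finset.sum_le_sum h1).trans (le_of_eq ?_)
    simp [Finset.sum_const, Finset.card_range]
    ring
  calc |ε k| * _ ≤ 1 * (((2 : ℝ) ^ e) ^ 2 * E) :=
        mul_le_mul (hε k) hin (abs_nonneg _) (by norm_num)
    _ = ((2 : ℝ) ^ e) ^ 2 * E := one_mul _

lemma Int3_eq {a : ℤ} {B : ℝ} {F : ℝ × ℝ → ℝ} (h : BoxFn a B F) : Int3 F = ∫ p, |F p| ^ 3 := by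
  unfold Int3
  apply setIntegral_eq_integral_of_forall_compl_eq_zero
  rintro ⟨x, y⟩ hp
  have hF : F (x, y) = 0 := by
    by_contra hne
    obtain ⟨h1, h2⟩ := h.supp x y hne
    exact hp ⟨h1.1, h2.1⟩
  rw [hF]
  simp

lemma integrable_cube {a : ℤ} {B : ℝ} (hB : 0 ≤ B) {F : ℝ × ℝ → ℝ} (h : BoxFn a B F) :
    Integrable (fun p => |F p| ^ 3) := by
  refine integrable_of_box (a := a) (B := B ^ 3) (h.meas.abs.pow_const 3) ?_ ?_
  · intro p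
    rw [abs_of_nonneg (by positivity)]
    exact pow_le_pow_left₀ (abs_nonneg _) (h.bdd p) 3
  · intro x y hne
    apply h.supp x y
    intro h0
    apply hne
    rw [h0]
    simp

lemma cube_diff {B a b : ℝ} (hB : 0 ≤ B) (ha : |a| ≤ B) (hb : |b| ≤ B) :
    |b| ^ 3 ≤ |a| ^ 3 + 3 * B ^ 2 * |a - b| := by
  have h1 : |b| - |a| ≤ |a - b| := by
    have := abs_abs_sub_abs_le a b
    have h2 := le_abs_self (|a| - |b|)
    have h3 := neg_abs_le (|a| - |b|)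
    linarith
  have ha0 := abs_nonneg a
  have hb0 := abs_nonneg b
  have hq : |b| ^ 2 + |b| * |a| + |a| ^ 2 ≤ 3 * B ^ 2 := by nlinarith
  have hq0 : 0 ≤ |b| ^ 2 + |b| * |a| + |a| ^ 2 := by positivity
  have hexp : |b| ^ 3 - |a| ^ 3 = (|b| - |a|) * (|b| ^ 2 + |b| * |a| + |a| ^ 2) := by ring
  have hd0 : 0 ≤ |a - b| := abs_nonneg _
  have : (|b| - |a|) * (|b| ^ 2 + |b| * |a| + |a| ^ 2) ≤ |a - b| * (3 * B ^ 2) := by
    calc (|b| - |a|) * (|b| ^ 2 + |b| * |a| + |a| ^ 2)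
        ≤ |a - b| * (|b| ^ 2 + |b| * |a| + |a| ^ 2) := mul_le_mul_of_nonneg_right h1 hq0
      _ ≤ |a - b| * (3 * B ^ 2) := mul_le_mul_of_nonneg_left hq hd0
  linarith

lemma int3_le {a : ℤ} {B : ℝ} (hB : 0 ≤ B) {F G : ℝ × ℝ → ℝ} (hF : BoxFn a B F) (hG : BoxFn a B G) :
    Int3 G ≤ Int3 F + 3 * B ^ 2 * ∫ p, |F p - G p| := by
  rw [Int3_eq hF, Int3_eq hG]
  have hi1 := integrable_cube hB hF
  have hi2 := integrable_cube hB hG
  have hi3 : Integrable (fun p => |F p - G p|) := (hF.integrable.sub hG.integrable).abs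
  have h := integral_mono hi2 (hi1.add (hi3.const_mul (3 * B ^ 2)))
    (fun p => cube_diff hB (hF.bdd p) (hG.bdd p))
  refine h.trans (le_of_eq ?_)
  have e : ∫ p, (|F p| ^ 3 + 3 * B ^ 2 * |F p - G p|) =
      (∫ p, |F p| ^ 3) + ∫ p, 3 * B ^ 2 * |F p - G p| :=
    integral_add hi1 (hi3.const_mul _)
  simp only [Pi.add_apply]
  rw [e, integral_const_mul]

lemma stepF_abs_le {K : ℤ} {m : ℕ} {g : ℕ → ℕ → ℝ} {B : ℝ} (hB : 0 ≤ B) (hg : ∀ i i', |g i i'| ≤ B)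
    (p : ℝ × ℝ) : |stepF K m g p| ≤ B := by
  obtain ⟨x, y⟩ := p
  by_cases hx : ∃ a < 2 ^ m, x ∈ dyadic K a
  · obtain ⟨a, ha, hxa⟩ := hx
    by_cases hy : ∃ b < 2 ^ m, y ∈ dyadic K b
    · obtain ⟨b, hb, hyb⟩ := hy
      rw [stepF_apply g ha hb hxa hyb]
      exact hg a b
    · push Not at hy
      rw [stepF_zero_right g hy]
      simpa using hB
  · push Not at hx
    rw [stepF_zero_left g hx]
    simpa using hB

lemma stepF_boxFn {K : ℤ} {m : ℕ} {a : ℤ} (hKm : K + (m : ℤ) = a) {g : ℕ → ℕ → ℝ} {B : ℝ} (hB : 0 ≤ B)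
    (hg : ∀ i i', |g i i'| ≤ B) : BoxFn a B (stepF K m g) where
  meas := measurable_stepF K m g
  bdd := stepF_abs_le hB hg
  supp := by
    intro x y hne
    have h1 := stepF_support g hne
    rw [hKm] at h1
    refine ⟨⟨?_, h1.1⟩, ⟨?_, h1.2⟩⟩
    · by_contra hc
      exact hne (stepF_zero_left g fun a _ hd => hc (dyadic_nonneg hd))
    · by_contra hc
      exact hne (stepF_zero_right g fun a _ hd => hc (dyadic_nonneg hd))

/-- The inequality with the sum of the cubes of the norms, for admissible functions. -/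
theorem main400 (hD : DiscreteThm) (S : Finset ℤ) (ε : ℤ → ℝ) (hε : ∀ k, |ε k| ≤ 1)
    (F₀ F₁ F₂ : ℝ × ℝ → ℝ) (h₀ : Admissible F₀) (h₁ : Admissible F₁) (h₂ : Admissible F₂) :
    |dyadicForm S ε F₀ F₁ F₂| ≤ 400 * (Int3 F₀ + Int3 F₁ + Int3 F₂) := by
  obtain ⟨m₀, ⟨B₀, hB₀⟩, ⟨R₀, hR₀⟩⟩ := h₀
  obtain ⟨m₁, ⟨B₁, hB₁⟩, ⟨R₁, hR₁⟩⟩ := h₁
  obtain ⟨m₂, ⟨B₂, hB₂⟩, ⟨R₂, hR₂⟩⟩ := h₂
  set B : ℝ := |B₀| + |B₁| + |B₂| with hBdef
  have hB : 0 ≤ B := by positivity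
  have hbd0 : ∀ x, |F₀ x| ≤ B := fun x => (hB₀ x).trans (by
    have := le_abs_self B₀; have := abs_nonneg B₁; have := abs_nonneg B₂; linarith)
  have hbd1 : ∀ x, |F₁ x| ≤ B := fun x => (hB₁ x).trans (by
    have := le_abs_self B₁; have := abs_nonneg B₀; have := abs_nonneg B₂; linarith)
  have hbd2 : ∀ x, |F₂ x| ≤ B := fun x => (hB₂ x).trans (by
    have := le_abs_self B₂; have := abs_nonneg B₀; have := abs_nonneg B₁; linarith)
  obtain ⟨n, hn⟩ := pow_unbounded_of_one_lt (|R₀| + |R₁| + |R₂|) (one_lt_two (α := ℝ))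
  obtain ⟨M, hM⟩ := S.bddAbove
  obtain ⟨M', hM'⟩ := S.bddBelow
  set a : ℤ := max M n with ha
  have hka : ∀ k ∈ S, k ≤ a := fun k hk => (hM hk).trans (le_max_left _ _)
  have hRa : |R₀| + |R₁| + |R₂| < (2 : ℝ) ^ a := by
    refine lt_of_lt_of_le hn ?_
    rw [← zpow_natCast]
    exact zpow_le_zpow_right₀ (by norm_num) (le_max_right _ _)
  have hsupp : ∀ {F : ℝ × ℝ → ℝ} {R : ℝ}, |R| ≤ |R₀| + |R₁| + |R₂| →
      (∀ x, F x ≠ 0 → (0 ≤ x.1 ∧ x.1 ≤ R ∧ 0 ≤ x.2 ∧ x.2 ≤ R)) →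
      ∀ x y, F (x, y) ≠ 0 → (0 ≤ x ∧ x < (2 : ℝ) ^ a) ∧ (0 ≤ y ∧ y < (2 : ℝ) ^ a) := by
    intro F R hR h x y hne
    obtain ⟨h1, h2, h3, h4⟩ := h (x, y) hne
    have h5 := le_abs_self R
    simp only at h1 h2 h3 h4
    exact ⟨⟨h1, by linarith⟩, ⟨h3, by linarith⟩⟩
  have hF₀ : BoxFn a B F₀ := ⟨m₀, hbd0, hsupp (R := R₀) (by
    have := abs_nonneg R₁; have := abs_nonneg R₂; linarith) hR₀⟩
  have hF₁ : BoxFn a B F₁ := ⟨m₁, hbd1, hsupp (R := R₁) (by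
    have := abs_nonneg R₀; have := abs_nonneg R₂; linarith) hR₁⟩
  have hF₂ : BoxFn a B F₂ := ⟨m₂, hbd2, hsupp (R := R₂) (by
    have := abs_nonneg R₀; have := abs_nonneg R₁; linarith) hR₂⟩
  set C : ℝ := (∑ k ∈ S, (((2 : ℝ) ^ (a - k).toNat) ^ 2)) * B ^ 2 with hC
  have hC0 : 0 ≤ C := mul_nonneg (Finset.sum_nonneg fun k _ => by positivity) (by positivity)
  set X : ℝ := 3 * C + 3600 * B ^ 2 + 1 with hX
  have hXpos : 0 < X := by positivity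
  apply le_of_forall_pos_le_add
  intro δ hδ
  set η : ℝ := δ / X with hη
  have hηpos : 0 < η := by positivity
  obtain ⟨K₀, hK₀⟩ := exists_step_approx hF₀.meas hB hF₀.bdd hF₀.supp hηpos
  obtain ⟨K₁, hK₁⟩ := exists_step_approx hF₁.meas hB hF₁.bdd hF₁.supp hηpos
  obtain ⟨K₂, hK₂⟩ := exists_step_approx hF₂.meas hB hF₂.bdd hF₂.supp hηpos
  set K : ℤ := min (min K₀ K₁) (min K₂ (min (a - 1) (M' - 1))) with hK
  have hKle0 : K ≤ K₀ := (min_le_left _ _).trans (min_le_left _ _)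
  have hKle1 : K ≤ K₁ := (min_le_left _ _).trans (min_le_right _ _)
  have hKle2 : K ≤ K₂ := (min_le_right _ _).trans (min_le_left _ _)
  have hKlea : K ≤ a - 1 := (min_le_right _ _).trans ((min_le_right _ _).trans (min_le_left _ _))
  have hKleM : K ≤ M' - 1 := (min_le_right _ _).trans ((min_le_right _ _).trans (min_le_right _ _))
  have hKa : K ≤ a := by omega
  obtain ⟨g₀, hg₀, hE₀⟩ := hK₀ K hKle0 hKa
  obtain ⟨g₁, hg₁, hE₁⟩ := hK₁ K hKle1 hKa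
  obtain ⟨g₂, hg₂, hE₂⟩ := hK₂ K hKle2 hKa
  set m := (a - K).toNat with hm
  have hKm : K + (m : ℤ) = a := by
    rw [hm, Int.toNat_of_nonneg (by omega)]; omega
  have hG₀ := stepF_boxFn hKm hB hg₀
  have hG₁ := stepF_boxFn hKm hB hg₁
  have hG₂ := stepF_boxFn hKm hB hg₂
  have hstep := step_bound hD K m g₀ g₁ g₂ S ε hε (fun k hk => ⟨by
    have := hM' hk; omega, by rw [hKm]; exact hka k hk⟩)
  have hdiff := form_diff hB hF₀ hF₁ hF₂ hG₀ hG₁ hG₂ S ε hε hka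
  have hi0 := int3_le hB hF₀ hG₀
  have hi1 := int3_le hB hF₁ hG₁
  have hi2 := int3_le hB hF₂ hG₂
  set E₀ := ∫ p, |F₀ p - stepF K m g₀ p|
  set E₁ := ∫ p, |F₁ p - stepF K m g₁ p|
  set E₂ := ∫ p, |F₂ p - stepF K m g₂ p|
  have htri : |dyadicForm S ε F₀ F₁ F₂| ≤
      |dyadicForm S ε (stepF K m g₀) (stepF K m g₁) (stepF K m g₂)| +
      |dyadicForm S ε F₀ F₁ F₂ - dyadicForm S ε (stepF K m g₀) (stepF K m g₁) (stepF K m g₂)| := by
    have := abs_add_le (dyadicForm S ε (stepF K m g₀) (stepF K m g₁) (stepF K m g₂))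
      (dyadicForm S ε F₀ F₁ F₂ - dyadicForm S ε (stepF K m g₀) (stepF K m g₁) (stepF K m g₂))
    simpa using this
  have hdiff2 : |dyadicForm S ε F₀ F₁ F₂ -
      dyadicForm S ε (stepF K m g₀) (stepF K m g₁) (stepF K m g₂)| ≤ C * (E₀ + E₁ + E₂) := by
    refine hdiff.trans (le_of_eq ?_)
    rw [hC]; ring
  have hsumE : E₀ + E₁ + E₂ ≤ 3 * η := by linarith
  have herr : (C + 1200 * B ^ 2) * (E₀ + E₁ + E₂) ≤ δ := by
    have h1 : 0 ≤ C + 1200 * B ^ 2 := by positivity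
    calc (C + 1200 * B ^ 2) * (E₀ + E₁ + E₂) ≤ (C + 1200 * B ^ 2) * (3 * η) :=
          mul_le_mul_of_nonneg_left hsumE h1
      _ ≤ X * η := by
          have e : (C + 1200 * B ^ 2) * (3 * η) = (3 * C + 3600 * B ^ 2) * η := by ring
          rw [e]
          apply mul_le_mul_of_nonneg_right _ hηpos.le
          rw [hX]; linarith
      _ = δ := by rw [hη]; field_simp
  nlinarith

lemma tileForm_scale (t₀ t₁ t₂ : ℝ) (F₀ F₁ F₂ : ℝ × ℝ → ℝ) (k : ℤ) (n₀ n₁ n₂ : ℕ) :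
    tileForm k n₀ n₁ n₂ (fun p => t₀ * F₀ p) (fun p => t₁ * F₁ p) (fun p => t₂ * F₂ p) =
      t₀ * t₁ * t₂ * tileForm k n₀ n₁ n₂ F₀ F₁ F₂ := by
  unfold tileForm
  have : ∀ x : ℝ × ℝ × ℝ, t₀ * F₀ (x.1, x.2.1) * (t₁ * F₁ (x.2.1, x.2.2)) * (t₂ * F₂ (x.2.2, x.1)) *
      (haar k n₀ x.1 * haar k n₁ x.2.1 * haar k n₂ x.2.2) = t₀ * t₁ * t₂ *
      (F₀ (x.1, x.2.1) * F₁ (x.2.1, x.2.2) * F₂ (x.2.2, x.1) *
      (haar k n₀ x.1 * haar k n₁ x.2.1 * haar k n₂ x.2.2)) := fun x => by ring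
  simp only [this]
  rw [integral_const_mul]
  ring

lemma dyadicForm_scale (t₀ t₁ t₂ : ℝ) (S : Finset ℤ) (ε : ℤ → ℝ) (F₀ F₁ F₂ : ℝ × ℝ → ℝ) :
    dyadicForm S ε (fun p => t₀ * F₀ p) (fun p => t₁ * F₁ p) (fun p => t₂ * F₂ p) =
      t₀ * t₁ * t₂ * dyadicForm S ε F₀ F₁ F₂ := by
  unfold dyadicForm
  rw [Finset.mul_sum]
  refine Finset.sum_congr rfl fun k _ => ?_
  simp only [tileForm_scale]
  rw [tsum_mul_left]
  ring

lemma Int3_scale (t : ℝ) (F : ℝ × ℝ → ℝ) : Int3 (fun p => t * F p) = |t| ^ 3 * Int3 F := by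
  unfold Int3
  simp only [abs_mul, mul_pow]
  rw [integral_const_mul]

lemma admissible_scale {F : ℝ × ℝ → ℝ} (h : Admissible F) (t : ℝ) :
    Admissible (fun p => t * F p) := by
  obtain ⟨hm, ⟨B, hB⟩, ⟨R, hR⟩⟩ := h
  refine ⟨hm.const_mul t, ⟨|t| * B, fun x => ?_⟩, ⟨R, fun x hx => ?_⟩⟩
  · rw [abs_mul]
    exact mul_le_mul_of_nonneg_left (hB x) (abs_nonneg _)
  · apply hR
    intro h0
    apply hx
    simp [h0]

/-- The final inequality, from the discrete theorem. -/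
theorem final_of_discrete (h : DiscreteThm) : FinalBound 1200 := by
  intro S ε hε F₀ F₁ F₂ h₀ h₁ h₂
  set a := L3 F₀ with ha
  set b := L3 F₁ with hb
  set c := L3 F₂ with hc
  have ha0 : 0 ≤ a := L3_nonneg _
  have hb0 : 0 ≤ b := L3_nonneg _
  have hc0 : 0 ≤ c := L3_nonneg _
  have hbound : ∀ δ : ℝ, 0 < δ →
      |dyadicForm S ε F₀ F₁ F₂| ≤ 1200 * (a + δ) * (b + δ) * (c + δ) := by
    intro δ hδ
    set A := a + δ with hA
    set B := b + δ with hB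
    set C := c + δ with hC
    have hApos : 0 < A := by positivity
    have hBpos : 0 < B := by positivity
    have hCpos : 0 < C := by positivity
    set g : ℝ := (A * B * C) ^ ((1 : ℝ) / 3) with hg
    have hg0 : 0 < g := by positivity
    have hg3 : g ^ 3 = A * B * C := by
      rw [hg, ← Real.rpow_natCast, ← Real.rpow_mul (by positivity)]
      norm_num
    set t₀ := g / A with ht₀
    set t₁ := g / B with ht₁
    set t₂ := g / C with ht₂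
    have h₀pos : 0 < t₀ := by positivity
    have h₁pos : 0 < t₁ := by positivity
    have h₂pos : 0 < t₂ := by positivity
    have hprod : t₀ * t₁ * t₂ = 1 := by
      rw [ht₀, ht₁, ht₂]
      field_simp
      linarith [hg3]
    have hmain := main400 h S ε hε (fun p => t₀ * F₀ p) (fun p => t₁ * F₁ p) (fun p => t₂ * F₂ p)
      (admissible_scale h₀ t₀) (admissible_scale h₁ t₁) (admissible_scale h₂ t₂)
    rw [dyadicForm_scale, hprod, one_mul, Int3_scale, Int3_scale, Int3_scale,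
      ← L3_cube, ← L3_cube, ← L3_cube, abs_of_pos h₀pos, abs_of_pos h₁pos, abs_of_pos h₂pos] at hmain
    have key : ∀ {t x X : ℝ}, 0 < X → 0 ≤ x → x ≤ X → t = g / X → t ^ 3 * x ^ 3 ≤ g ^ 3 := by
      intro t x X hX hx hxX ht
      have h1 : t * x ≤ g := by
        rw [ht, div_mul_eq_mul_div, div_le_iff₀ hX]
        exact mul_le_mul_of_nonneg_left hxX hg0.le
      have h2 : 0 ≤ t * x := by
        rw [ht]; positivity
      calc t ^ 3 * x ^ 3 = (t * x) ^ 3 := by ring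
        _ ≤ g ^ 3 := pow_le_pow_left₀ h2 h1 3
    have k0 := key hApos ha0 (by rw [hA]; linarith) ht₀
    have k1 := key hBpos hb0 (by rw [hB]; linarith) ht₁
    have k2 := key hCpos hc0 (by rw [hC]; linarith) ht₂
    have e : 1200 * A * B * C = 400 * (g ^ 3 + g ^ 3 + g ^ 3) := by
      rw [hg3]; ring
    rw [e]
    refine hmain.trans ?_
    linarith
  have hlim : Filter.Tendsto (fun δ : ℝ => 1200 * (a + δ) * (b + δ) * (c + δ))
      (nhdsWithin 0 (Set.Ioi 0)) (nhds (1200 * (a + 0) * (b + 0) * (c + 0))) := by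
    have hcont : Continuous (fun δ : ℝ => 1200 * (a + δ) * (b + δ) * (c + δ)) := by fun_prop
    exact (hcont.tendsto 0).mono_left nhdsWithin_le_nhds
  have hfinal := ge_of_tendsto hlim (Filter.eventually_of_mem self_mem_nhdsWithin
    (fun δ hδ => hbound δ hδ))
  simpa using hfinal

end Main

end Vale.Agent.Lib.P075
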