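import Mathlib

/-!
# P075 Q2: the statement (definitions used by the hand-in)
-/

open MeasureTheory

namespace Vale.Agent.Lib.P075

/-- The dyadic interval of scale `k` and index `n`. -/
noncomputable def dyadic (k : ℤ) (n : ℕ) : Set ℝ :=
  Set.Ico ((2 : ℝ) ^ k * n) ((2 : ℝ) ^ k * (n + 1))

/-- The Haar function of that interval: `1` on the left half minus `1` on the right half. -/
noncomputable def haar (k : ℤ) (n : ℕ) (x : ℝ) : ℝ :=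
  Set.indicator (Set.Ico ((2 : ℝ) ^ k * n) ((2 : ℝ) ^ k * (n + 1 / 2))) (fun _ => (1 : ℝ)) x -
  Set.indicator (Set.Ico ((2 : ℝ) ^ k * (n + 1 / 2)) ((2 : ℝ) ^ k * (n + 1))) (fun _ => (1 : ℝ)) x

/-- The form `L_I` for the triple of intervals of scale `k` with indices `n₀, n₁, n₂`. -/
noncomputable def tileForm (k : ℤ) (n₀ n₁ n₂ : ℕ) (F₀ F₁ F₂ : ℝ × ℝ → ℝ) : ℝ :=
  (2 : ℝ) ^ (-k) *
    ∫ x in dyadic k n₀ ×ˢ dyadic k n₁ ×ˢ dyadic k n₂,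
      F₀ (x.1, x.2.1) * F₁ (x.2.1, x.2.2) * F₂ (x.2.2, x.1) *
        (haar k n₀ x.1 * haar k n₁ x.2.1 * haar k n₂ x.2.2)

/-- The dyadic triangular Hilbert form: the sum over `k` in `S` of `ε k` times the sum of `L_I`
over the triples of scale `k` whose indices have bitwise xor zero. -/
noncomputable def dyadicForm (S : Finset ℤ) (ε : ℤ → ℝ) (F₀ F₁ F₂ : ℝ × ℝ → ℝ) : ℝ :=
  ∑ k ∈ S, ε k * ∑' t : {t : ℕ × ℕ × ℕ // t.1 ^^^ t.2.1 ^^^ t.2.2 = 0},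
    tileForm k t.1.1 t.1.2.1 t.1.2.2 F₀ F₁ F₂

/-- The admissible inputs: real, bounded, measurable, with compact support in `[0, ∞)²`. -/
def Admissible (F : ℝ × ℝ → ℝ) : Prop :=
  Measurable F ∧ (∃ B : ℝ, ∀ x, |F x| ≤ B) ∧
    ∃ R : ℝ, ∀ x, F x ≠ 0 → (0 ≤ x.1 ∧ x.1 ≤ R ∧ 0 ≤ x.2 ∧ x.2 ≤ R)

/-- The `L³` norm on the quadrant (such `F` vanish outside the quadrant). -/
noncomputable def L3 (F : ℝ × ℝ → ℝ) : ℝ :=
  (∫ x in Set.Ici (0 : ℝ) ×ˢ Set.Ici (0 : ℝ), |F x| ^ 3) ^ ((1 : ℝ) / 3)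

/-- The target inequality with the constant `C`. -/
def FinalBound (C : ℝ) : Prop :=
  ∀ (S : Finset ℤ) (ε : ℤ → ℝ), (∀ k, |ε k| ≤ 1) →
    ∀ F₀ F₁ F₂ : ℝ × ℝ → ℝ, Admissible F₀ → Admissible F₁ → Admissible F₂ →
      |dyadicForm S ε F₀ F₁ F₂| ≤ C * L3 F₀ * L3 F₁ * L3 F₂

end Vale.Agent.Lib.P075
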