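import Vale.Agent.Lib.P075.Defs
import Vale.Agent.Lib.P075.Statement

/-!
Dyadic cells and step functions: the form of a step function is a tile sum.
-/

set_option linter.unusedVariables false
set_option linter.unusedSectionVars false

open MeasureTheory Set

namespace Vale.Agent.Lib.P075

section Basics

lemma mem_dyadic {k : ℤ} {n : ℕ} {x : ℝ} :
    x ∈ dyadic k n ↔ (2 : ℝ) ^ k * n ≤ x ∧ x < (2 : ℝ) ^ k * (n + 1) := Iff.rfl

lemma zp_pos (k : ℤ) : (0 : ℝ) < (2 : ℝ) ^ k := by positivity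

lemma zp_add (k : ℤ) (j : ℕ) : (2 : ℝ) ^ (k + (j : ℤ)) = (2 : ℝ) ^ k * (2 : ℝ) ^ j := by
  rw [zpow_add₀ (two_ne_zero), zpow_natCast]

lemma dyadic_nonneg {k : ℤ} {n : ℕ} {x : ℝ} (h : x ∈ dyadic k n) : 0 ≤ x :=
  le_trans (by positivity) h.1

lemma dyadic_unique {k : ℤ} {n n' : ℕ} {x : ℝ} (h : x ∈ dyadic k n) (h' : x ∈ dyadic k n') :
    n = n' := by
  have hp := zp_pos k
  have h1 : (2 : ℝ) ^ k * n < (2 : ℝ) ^ k * (n' + 1) := lt_of_le_of_lt h.1 h'.2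
  have h2 : (2 : ℝ) ^ k * n' < (2 : ℝ) ^ k * (n + 1) := lt_of_le_of_lt h'.1 h.2
  have h3 : (n : ℝ) < n' + 1 := lt_of_mul_lt_mul_left h1 hp.le
  have h4 : (n' : ℝ) < n + 1 := lt_of_mul_lt_mul_left h2 hp.le
  have h5 : n < n' + 1 := by exact_mod_cast h3
  have h6 : n' < n + 1 := by exact_mod_cast h4
  omega

lemma dyadic_disjoint {k : ℤ} {n n' : ℕ} (h : n ≠ n') : Disjoint (dyadic k n) (dyadic k n') := by
  rw [Set.disjoint_left]
  intro x hx hx'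
  exact h (dyadic_unique hx hx')

lemma measurableSet_dyadic (k : ℤ) (n : ℕ) : MeasurableSet (dyadic k n) := measurableSet_Ico

lemma volume_dyadic (k : ℤ) (n : ℕ) : (volume (dyadic k n)).toReal = (2 : ℝ) ^ k := by
  unfold dyadic
  rw [Real.volume_Ico, ENNReal.toReal_ofReal]
  · ring
  · have := zp_pos k
    have h : (2 : ℝ) ^ k * (n + 1) - (2 : ℝ) ^ k * n = (2 : ℝ) ^ k := by ring
    rw [h]; exact this.le

lemma exists_cell (K : ℤ) {x : ℝ} (hx : 0 ≤ x) : ∃ i : ℕ, x ∈ dyadic K i := by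
  have hp := zp_pos K
  refine ⟨⌊x / (2 : ℝ) ^ K⌋₊, ?_, ?_⟩
  · have := Nat.floor_le (div_nonneg hx hp.le)
    rw [le_div_iff₀ hp] at this
    linarith
  · have := Nat.lt_floor_add_one (x / (2 : ℝ) ^ K)
    rw [div_lt_iff₀ hp] at this
    linarith

lemma dyadic_sub_block {K : ℤ} {i : ℕ} (j : ℕ) {x : ℝ} (h : x ∈ dyadic K i) :
    x ∈ dyadic (K + (j : ℤ)) (i / 2 ^ j) := by
  have hp := zp_pos K
  have h2 : (0 : ℝ) < 2 ^ j := by positivity
  have hd1 : 2 ^ j * (i / 2 ^ j) ≤ i := Nat.mul_div_le i (2 ^ j)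
  have hd2 : i < 2 ^ j * (i / 2 ^ j + 1) := by
    exact Nat.lt_mul_div_succ i (by positivity)
  have hd1' : (2 : ℝ) ^ j * ((i / 2 ^ j : ℕ) : ℝ) ≤ i := by exact_mod_cast hd1
  have hd2' : (i : ℝ) + 1 ≤ (2 : ℝ) ^ j * (((i / 2 ^ j : ℕ) : ℝ) + 1) := by
    exact_mod_cast hd2
  rw [mem_dyadic, zp_add]
  constructor
  · calc (2 : ℝ) ^ K * 2 ^ j * ((i / 2 ^ j : ℕ) : ℝ)
        = (2 : ℝ) ^ K * (2 ^ j * ((i / 2 ^ j : ℕ) : ℝ)) := by ring
      _ ≤ (2 : ℝ) ^ K * i := by exact mul_le_mul_of_nonneg_left hd1' hp.le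
      _ ≤ x := h.1
  · calc x < (2 : ℝ) ^ K * (i + 1) := h.2
      _ ≤ (2 : ℝ) ^ K * (2 ^ j * (((i / 2 ^ j : ℕ) : ℝ) + 1)) :=
          mul_le_mul_of_nonneg_left hd2' hp.le
      _ = (2 : ℝ) ^ K * 2 ^ j * (((i / 2 ^ j : ℕ) : ℝ) + 1) := by ring

lemma cell_of_block {K : ℤ} {j n : ℕ} {x : ℝ} (h : x ∈ dyadic (K + (j : ℤ)) n) :
    ∃ i : ℕ, i / 2 ^ j = n ∧ x ∈ dyadic K i := by
  obtain ⟨i, hi⟩ := exists_cell K (dyadic_nonneg h)
  exact ⟨i, dyadic_unique (dyadic_sub_block j hi) h, hi⟩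

/-- On a cell of scale `K`, the Haar function of scale `K + j` equals the cell sign. -/
lemma haar_on_cell {K : ℤ} {i j : ℕ} (hj : 1 ≤ j) {x : ℝ} (h : x ∈ dyadic K i) :
    haar (K + (j : ℤ)) (i / 2 ^ j) x = cellSign j i := by
  obtain ⟨j', rfl⟩ : ∃ j', j = j' + 1 := ⟨j - 1, by omega⟩
  have hx := dyadic_sub_block j' h
  set q := i / 2 ^ j' with hq
  have hqn : i / 2 ^ (j' + 1) = q / 2 := by
    rw [hq, Nat.div_div_eq_div_mul, pow_succ]
  have hs : (j' + 1 - 1) = j' := by omega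
  have hz : (2 : ℝ) ^ (K + ((j' + 1 : ℕ) : ℤ)) = (2 : ℝ) ^ (K + (j' : ℤ)) * 2 := by
    rw [zp_add, zp_add, pow_succ]; ring
  unfold cellSign
  rw [hs, ← hq, hqn]
  set n := q / 2 with hn
  have hP := zp_pos (K + (j' : ℤ))
  unfold haar
  rw [hz]
  rcases Nat.mod_two_eq_zero_or_one q with h0 | h1
  · have hqq : q = 2 * n := by omega
    have hqr : (q : ℝ) = 2 * n := by rw [hqq]; push_cast; simp [hn]
    rw [if_pos h0]
    rw [mem_dyadic, hqr] at hx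
    have hleft : x ∈ Set.Ico ((2 : ℝ) ^ (K + (j' : ℤ)) * 2 * n)
        ((2 : ℝ) ^ (K + (j' : ℤ)) * 2 * (n + 1 / 2)) := by
      constructor
      · linarith [hx.1]
      · have := hx.2; nlinarith
    have hright : x ∉ Set.Ico ((2 : ℝ) ^ (K + (j' : ℤ)) * 2 * (n + 1 / 2))
        ((2 : ℝ) ^ (K + (j' : ℤ)) * 2 * (n + 1)) := by
      intro hc
      have h1 := hc.1
      have h2 := hleft.2
      linarith
    rw [Set.indicator_of_mem hleft, Set.indicator_of_notMem hright]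
    simp
  · have hqq : q = 2 * n + 1 := by omega
    have hqr : (q : ℝ) = 2 * n + 1 := by rw [hqq]; push_cast; simp [hn]
    rw [if_neg (by omega)]
    rw [mem_dyadic, hqr] at hx
    have hright : x ∈ Set.Ico ((2 : ℝ) ^ (K + (j' : ℤ)) * 2 * (n + 1 / 2))
        ((2 : ℝ) ^ (K + (j' : ℤ)) * 2 * (n + 1)) := by
      constructor
      · have := hx.1; nlinarith
      · have := hx.2; nlinarith
    have hleft : x ∉ Set.Ico ((2 : ℝ) ^ (K + (j' : ℤ)) * 2 * n)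
        ((2 : ℝ) ^ (K + (j' : ℤ)) * 2 * (n + 1 / 2)) := by
      intro hc
      have h1 := hc.2
      have h2 := hright.1
      linarith
    rw [Set.indicator_of_notMem hleft, Set.indicator_of_mem hright]
    simp

end Basics


section Step

/-- The dyadic step function with values `g i i'` on the cells `i, i' < 2^m` of scale `K`. -/
noncomputable def stepF (K : ℤ) (m : ℕ) (g : ℕ → ℕ → ℝ) (p : ℝ × ℝ) : ℝ :=
  ∑ i ∈ Finset.range (2 ^ m), ∑ i' ∈ Finset.range (2 ^ m),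
    Set.indicator (dyadic K i ×ˢ dyadic K i') (fun _ => g i i') p

lemma stepF_apply {K : ℤ} {m : ℕ} (g : ℕ → ℕ → ℝ) {a b : ℕ} {x y : ℝ} (ha : a < 2 ^ m)
    (hb : b < 2 ^ m) (hx : x ∈ dyadic K a) (hy : y ∈ dyadic K b) :
    stepF K m g (x, y) = g a b := by
  unfold stepF
  rw [Finset.sum_eq_single a, Finset.sum_eq_single b]
  · exact Set.indicator_of_mem (Set.mk_mem_prod hx hy) _
  · intro b' _ hb'
    exact Set.indicator_of_notMem (fun h => hb' (dyadic_unique h.2 hy)) _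
  · intro h
    exact absurd (Finset.mem_range.2 hb) h
  · intro a' _ ha'
    refine Finset.sum_eq_zero fun i _ => ?_
    exact Set.indicator_of_notMem (fun h => ha' (dyadic_unique h.1 hx)) _
  · intro h
    exact absurd (Finset.mem_range.2 ha) h

lemma stepF_zero_left {K : ℤ} {m : ℕ} (g : ℕ → ℕ → ℝ) {x y : ℝ}
    (h : ∀ a < 2 ^ m, x ∉ dyadic K a) : stepF K m g (x, y) = 0 := by
  unfold stepF
  refine Finset.sum_eq_zero fun i hi => Finset.sum_eq_zero fun i' _ => ?_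
  exact Set.indicator_of_notMem (fun hc => h i (Finset.mem_range.1 hi) hc.1) _

lemma stepF_zero_right {K : ℤ} {m : ℕ} (g : ℕ → ℕ → ℝ) {x y : ℝ}
    (h : ∀ a < 2 ^ m, y ∉ dyadic K a) : stepF K m g (x, y) = 0 := by
  unfold stepF
  refine Finset.sum_eq_zero fun i hi => Finset.sum_eq_zero fun i' hi' => ?_
  exact Set.indicator_of_notMem (fun hc => h i' (Finset.mem_range.1 hi') hc.2) _

lemma measurable_stepF (K : ℤ) (m : ℕ) (g : ℕ → ℕ → ℝ) : Measurable (stepF K m g) := by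
  unfold stepF
  refine Finset.measurable_sum _ fun i _ => Finset.measurable_sum _ fun i' _ => ?_
  exact measurable_const.indicator ((measurableSet_dyadic K i).prod (measurableSet_dyadic K i'))

/-- The cells of a block of scale `K + j`, inside a grid of side `2^m`. -/
def blk (m j n : ℕ) : Finset ℕ := (Finset.range (2 ^ m)).filter (fun i => i / 2 ^ j = n)

lemma mem_blk {m j n i : ℕ} : i ∈ blk m j n ↔ i < 2 ^ m ∧ i / 2 ^ j = n := by
  simp [blk]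

lemma dyadic_eq_biUnion {K : ℤ} {m j n : ℕ} (hj : j ≤ m) (hn : n < 2 ^ (m - j)) :
    dyadic (K + (j : ℤ)) n = ⋃ i ∈ blk m j n, dyadic K i := by
  ext x
  simp only [Set.mem_iUnion, exists_prop]
  constructor
  · intro h
    obtain ⟨i, hi, hx⟩ := cell_of_block h
    refine ⟨i, mem_blk.2 ⟨?_, hi⟩, hx⟩
    have h1 : i < 2 ^ j * (i / 2 ^ j + 1) := Nat.lt_mul_div_succ i (by positivity)
    rw [hi] at h1
    have h2 : 2 ^ j * (n + 1) ≤ 2 ^ j * 2 ^ (m - j) := Nat.mul_le_mul_left _ hn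
    rw [← pow_add, Nat.add_sub_cancel' hj] at h2
    omega
  · rintro ⟨i, hi, hx⟩
    have := dyadic_sub_block j hx
    rwa [(mem_blk.1 hi).2] at this

/-- Integral of a function which is constant on the products of cells. -/
lemma integral_boxes (K : ℤ) (B₀ B₁ B₂ : Finset ℕ) (f : ℝ × ℝ × ℝ → ℝ) (c : ℕ → ℕ → ℕ → ℝ)
    (hf : ∀ i₀ ∈ B₀, ∀ i₁ ∈ B₁, ∀ i₂ ∈ B₂, ∀ x ∈ dyadic K i₀, ∀ y ∈ dyadic K i₁,
      ∀ z ∈ dyadic K i₂, f (x, y, z) = c i₀ i₁ i₂) :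
    ∫ x in (⋃ i ∈ B₀, dyadic K i) ×ˢ (⋃ i ∈ B₁, dyadic K i) ×ˢ (⋃ i ∈ B₂, dyadic K i), f x
      = ((2 : ℝ) ^ K) ^ 3 * ∑ i₀ ∈ B₀, ∑ i₁ ∈ B₁, ∑ i₂ ∈ B₂, c i₀ i₁ i₂ := by
  set T : Finset (ℕ × ℕ × ℕ) := B₀ ×ˢ (B₁ ×ˢ B₂) with hT
  set s : ℕ × ℕ × ℕ → Set (ℝ × ℝ × ℝ) :=
    fun t => dyadic K t.1 ×ˢ (dyadic K t.2.1 ×ˢ dyadic K t.2.2) with hs
  have hset : (⋃ i ∈ B₀, dyadic K i) ×ˢ (⋃ i ∈ B₁, dyadic K i) ×ˢ (⋃ i ∈ B₂, dyadic K i)
      = ⋃ t ∈ T, s t := by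
    ext ⟨x, y, z⟩
    simp only [Set.mem_prod, Set.mem_iUnion, exists_prop, hT, hs, Finset.mem_product,
      Prod.exists]
    constructor
    · rintro ⟨⟨a, ha, hx⟩, ⟨b, hb, hy⟩, ⟨d, hd, hz⟩⟩
      exact ⟨a, b, d, ⟨ha, hb, hd⟩, hx, hy, hz⟩
    · rintro ⟨a, b, d, ⟨ha, hb, hd⟩, hx, hy, hz⟩
      exact ⟨⟨a, ha, hx⟩, ⟨b, hb, hy⟩, ⟨d, hd, hz⟩⟩
  have hmeas : ∀ t, MeasurableSet (s t) := fun t =>
    (measurableSet_dyadic K _).prod ((measurableSet_dyadic K _).prod (measurableSet_dyadic K _))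
  have hvol : ∀ t, (volume (s t)).toReal = ((2 : ℝ) ^ K) ^ 3 := by
    intro t
    simp only [hs]
    rw [Measure.volume_eq_prod, Measure.prod_prod, Measure.volume_eq_prod, Measure.prod_prod,
      ENNReal.toReal_mul, ENNReal.toReal_mul, volume_dyadic, volume_dyadic, volume_dyadic]
    ring
  have hfin : ∀ t, volume (s t) ≠ ⊤ := by
    intro t
    simp only [hs]
    rw [Measure.volume_eq_prod, Measure.prod_prod, Measure.volume_eq_prod, Measure.prod_prod]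
    simp [dyadic, Real.volume_Ico, ENNReal.mul_eq_top]
  have hcst : ∀ t ∈ T, Set.EqOn f (fun _ => c t.1 t.2.1 t.2.2) (s t) := by
    intro t ht
    rw [hT, Finset.mem_product, Finset.mem_product] at ht
    rintro ⟨x, y, z⟩ hx
    exact hf _ ht.1 _ ht.2.1 _ ht.2.2 _ hx.1 _ hx.2.1 _ hx.2.2
  have hint : ∀ t ∈ T, IntegrableOn f (s t) := by
    intro t ht
    refine IntegrableOn.congr_fun ?_ (hcst t ht).symm (hmeas t)
    exact integrableOn_const (hfin t)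
  rw [hset, integral_biUnion_finset T (fun t _ => hmeas t) ?_ hint]
  · have h1 : ∀ t ∈ T, ∫ x in s t, f x = ((2 : ℝ) ^ K) ^ 3 * c t.1 t.2.1 t.2.2 := by
      intro t ht
      rw [setIntegral_congr_fun (hmeas t) (hcst t ht), setIntegral_const]
      simp only [Measure.real, hvol, smul_eq_mul]
    rw [Finset.sum_congr rfl h1, ← Finset.mul_sum, hT, Finset.sum_product]
    congr 1
    refine Finset.sum_congr rfl fun i₀ _ => ?_
    rw [Finset.sum_product]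
  · intro t _ t' _ htt
    rw [Function.onFun]
    simp only [hs]
    by_cases h1 : t.1 = t'.1
    · by_cases h2 : t.2.1 = t'.2.1
      · have h3 : t.2.2 ≠ t'.2.2 := by
          intro h3
          exact htt (Prod.ext h1 (Prod.ext h2 h3))
        exact Set.disjoint_prod.2 (Or.inr (Set.disjoint_prod.2 (Or.inr (dyadic_disjoint h3))))
      · exact Set.disjoint_prod.2 (Or.inr (Set.disjoint_prod.2 (Or.inl (dyadic_disjoint h2))))
    · exact Set.disjoint_prod.2 (Or.inl (dyadic_disjoint h1))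

lemma tile_eq_blk (m : ℕ) (f₀ f₁ f₂ : ℕ → ℕ → ℝ) (j n₀ n₁ : ℕ) :
    tile m f₀ f₁ f₂ j n₀ n₁ = ∑ i₀ ∈ blk m j n₀, ∑ i₁ ∈ blk m j n₁, ∑ i₂ ∈ blk m j (n₀ ^^^ n₁),
      f₀ i₀ i₁ * f₁ i₁ i₂ * f₂ i₂ i₀ * (cellSign j i₀ * cellSign j i₁ * cellSign j i₂) := by
  unfold tile blk
  rw [Finset.sum_filter]
  refine Finset.sum_congr rfl fun i₀ _ => ?_
  by_cases h0 : i₀ / 2 ^ j = n₀
  · rw [if_pos h0, Finset.sum_filter]
    refine Finset.sum_congr rfl fun i₁ _ => ?_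
    by_cases h1 : i₁ / 2 ^ j = n₁
    · rw [if_pos h1, Finset.sum_filter]
      refine Finset.sum_congr rfl fun i₂ _ => ?_
      by_cases h2 : i₂ / 2 ^ j = n₀ ^^^ n₁
      · rw [if_pos h2, if_pos ⟨h0, h1, h2⟩]
      · rw [if_neg h2, if_neg (fun h => h2 h.2.2)]
    · rw [if_neg h1]
      refine Finset.sum_eq_zero fun i₂ _ => ?_
      rw [if_neg (fun h => h1 h.2.1)]
  · rw [if_neg h0]
    refine Finset.sum_eq_zero fun i₁ _ => Finset.sum_eq_zero fun i₂ _ => ?_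
    rw [if_neg (fun h => h0 h.1)]

/-- The tile form of step functions is a tile sum. -/
lemma tileForm_step (K : ℤ) (m : ℕ) (g₀ g₁ g₂ : ℕ → ℕ → ℝ) {j : ℕ} (hj : 1 ≤ j) (hjm : j ≤ m)
    {n₀ n₁ : ℕ} (h₀ : n₀ < 2 ^ (m - j)) (h₁ : n₁ < 2 ^ (m - j)) :
    tileForm (K + (j : ℤ)) n₀ n₁ (n₀ ^^^ n₁) (stepF K m g₀) (stepF K m g₁) (stepF K m g₂)
      = (4 : ℝ) ^ K * (1 / 2 ^ j) * tile m g₀ g₁ g₂ j n₀ n₁ := by
  have h₂ : n₀ ^^^ n₁ < 2 ^ (m - j) := Nat.xor_lt_two_pow h₀ h₁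
  unfold tileForm
  rw [dyadic_eq_biUnion hjm h₀, dyadic_eq_biUnion hjm h₁, dyadic_eq_biUnion hjm h₂]
  rw [integral_boxes K (blk m j n₀) (blk m j n₁) (blk m j (n₀ ^^^ n₁)) _
    (fun i₀ i₁ i₂ => g₀ i₀ i₁ * g₁ i₁ i₂ * g₂ i₂ i₀ *
      (cellSign j i₀ * cellSign j i₁ * cellSign j i₂))]
  · rw [tile_eq_blk]
    rw [← mul_assoc]
    congr 1
    have hp := zp_pos K
    have h4 : (4 : ℝ) ^ K = (2 : ℝ) ^ K * (2 : ℝ) ^ K := by
      rw [show (4 : ℝ) = 2 * 2 by norm_num, mul_zpow]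
    rw [h4, zpow_neg, zp_add]
    have h2j : (2 : ℝ) ^ j ≠ 0 := by positivity
    field_simp
  · intro i₀ hi₀ i₁ hi₁ i₂ hi₂ x hx y hy z hz
    have ha := mem_blk.1 hi₀
    have hb := mem_blk.1 hi₁
    have hc := mem_blk.1 hi₂
    simp only
    rw [stepF_apply g₀ ha.1 hb.1 hx hy, stepF_apply g₁ hb.1 hc.1 hy hz,
      stepF_apply g₂ hc.1 ha.1 hz hx]
    have e0 : haar (K + (j : ℤ)) n₀ x = cellSign j i₀ := by
      rw [← ha.2]; exact haar_on_cell hj hx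
    have e1 : haar (K + (j : ℤ)) n₁ y = cellSign j i₁ := by
      rw [← hb.2]; exact haar_on_cell hj hy
    have e2 : haar (K + (j : ℤ)) (n₀ ^^^ n₁) z = cellSign j i₂ := by
      rw [← hc.2]; exact haar_on_cell hj hz
    rw [e0, e1, e2]

end Step


section StepBound

/-- The cube of the `L³` norm on the quadrant. -/
noncomputable def Int3 (F : ℝ × ℝ → ℝ) : ℝ := ∫ x in Set.Ici (0 : ℝ) ×ˢ Set.Ici (0 : ℝ), |F x| ^ 3

lemma L3_cube {F : ℝ × ℝ → ℝ} : L3 F ^ 3 = Int3 F := by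
  unfold L3 Int3
  have h0 : 0 ≤ ∫ x in Set.Ici (0 : ℝ) ×ˢ Set.Ici (0 : ℝ), |F x| ^ 3 :=
    integral_nonneg fun x => by positivity
  rw [← Real.rpow_natCast, ← Real.rpow_mul h0]
  norm_num

lemma L3_nonneg (F : ℝ × ℝ → ℝ) : 0 ≤ L3 F := by
  unfold L3
  exact Real.rpow_nonneg (integral_nonneg fun x => by positivity) _

lemma abs_stepF_cube (K : ℤ) (m : ℕ) (g : ℕ → ℕ → ℝ) (p : ℝ × ℝ) :
    |stepF K m g p| ^ 3 = stepF K m (fun i i' => |g i i'| ^ 3) p := by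
  obtain ⟨x, y⟩ := p
  by_cases hx : ∃ a < 2 ^ m, x ∈ dyadic K a
  · obtain ⟨a, ha, hxa⟩ := hx
    by_cases hy : ∃ b < 2 ^ m, y ∈ dyadic K b
    · obtain ⟨b, hb, hyb⟩ := hy
      rw [stepF_apply g ha hb hxa hyb, stepF_apply _ ha hb hxa hyb]
    · push Not at hy
      rw [stepF_zero_right g hy, stepF_zero_right _ hy]
      simp
  · push Not at hx
    rw [stepF_zero_left g hx, stepF_zero_left _ hx]
    simp

lemma stepF_support_quadrant {K : ℤ} {m : ℕ} (g : ℕ → ℕ → ℝ) {p : ℝ × ℝ}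
    (hp : p ∉ Set.Ici (0 : ℝ) ×ˢ Set.Ici (0 : ℝ)) : stepF K m g p = 0 := by
  obtain ⟨x, y⟩ := p
  simp only [Set.mem_prod, Set.mem_Ici, not_and_or, not_le] at hp
  rcases hp with h | h
  · exact stepF_zero_left g fun a _ hc => absurd (dyadic_nonneg hc) (not_le.2 h)
  · exact stepF_zero_right g fun a _ hc => absurd (dyadic_nonneg hc) (not_le.2 h)

lemma integral_stepF (K : ℤ) (m : ℕ) (g : ℕ → ℕ → ℝ) :
    ∫ p, stepF K m g p = (4 : ℝ) ^ K * ∑ i ∈ Finset.range (2 ^ m), ∑ i' ∈ Finset.range (2 ^ m), g i i' := by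
  have hfin : ∀ i i', volume (dyadic K i ×ˢ dyadic K i') ≠ ⊤ := by
    intro i i'
    rw [Measure.volume_eq_prod, Measure.prod_prod]
    simp [dyadic, Real.volume_Ico, ENNReal.mul_eq_top]
  have hm : ∀ i i', MeasurableSet (dyadic K i ×ˢ dyadic K i') := fun i i' =>
    (measurableSet_dyadic K i).prod (measurableSet_dyadic K i')
  have hint : ∀ i i', Integrable (Set.indicator (dyadic K i ×ˢ dyadic K i') (fun _ => g i i'))
      (volume : Measure (ℝ × ℝ)) := by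
    intro i i'
    exact (integrable_indicator_iff (hm i i')).2 (integrableOn_const (hfin i i'))
  unfold stepF
  rw [integral_finsetSum _ (fun i _ => integrable_finsetSum _ (fun i' _ => hint i i')),
    Finset.mul_sum]
  refine Finset.sum_congr rfl fun i _ => ?_
  rw [integral_finsetSum _ (fun i' _ => hint i i'), Finset.mul_sum]
  refine Finset.sum_congr rfl fun i' _ => ?_
  rw [integral_indicator_const _ (hm i i')]
  simp only [Measure.real, smul_eq_mul]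
  rw [Measure.volume_eq_prod, Measure.prod_prod, ENNReal.toReal_mul, volume_dyadic, volume_dyadic]
  have h4 : (4 : ℝ) ^ K = (2 : ℝ) ^ K * (2 : ℝ) ^ K := by
    rw [show (4 : ℝ) = 2 * 2 by norm_num, mul_zpow]
  rw [h4]

lemma int3_step (K : ℤ) (m : ℕ) (g : ℕ → ℕ → ℝ) :
    Int3 (stepF K m g) = (4 : ℝ) ^ K *
      ∑ i ∈ Finset.range (2 ^ m), ∑ i' ∈ Finset.range (2 ^ m), |g i i'| ^ 3 := by
  unfold Int3
  rw [setIntegral_eq_integral_of_forall_compl_eq_zero]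
  · simp only [abs_stepF_cube]
    exact integral_stepF K m _
  · intro p hp
    rw [stepF_support_quadrant g hp]
    simp

/-- The equivalence between pairs and xor-zero triples. -/
def xorEquiv : ℕ × ℕ ≃ {t : ℕ × ℕ × ℕ // t.1 ^^^ t.2.1 ^^^ t.2.2 = 0} where
  toFun p := ⟨(p.1, p.2, p.1 ^^^ p.2), by simp⟩
  invFun t := (t.1.1, t.1.2.1)
  left_inv p := rfl
  right_inv t := by
    apply Subtype.ext
    have h := t.2
    have h' : t.1.1 ^^^ t.1.2.1 = t.1.2.2 := Nat.xor_eq_zero_iff.1 h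
    ext <;> simp [h']

lemma tileForm_zero_of_left {k : ℤ} {e : ℕ} {F₀ : ℝ × ℝ → ℝ}
    (hF : ∀ x y, F₀ (x, y) ≠ 0 → x < (2 : ℝ) ^ (k + (e : ℤ)) ∧ y < (2 : ℝ) ^ (k + (e : ℤ)))
    {n₀ n₁ n₂ : ℕ} (h : 2 ^ e ≤ n₀ ∨ 2 ^ e ≤ n₁) (F₁ F₂ : ℝ × ℝ → ℝ) :
    tileForm k n₀ n₁ n₂ F₀ F₁ F₂ = 0 := by
  unfold tileForm
  rw [setIntegral_eq_zero_of_forall_eq_zero, mul_zero]
  rintro ⟨x, y, z⟩ hp
  have hp0 : (0 : ℝ) < (2 : ℝ) ^ k := zp_pos k
  have hzero : F₀ (x, y) = 0 := by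
    by_contra hne
    obtain ⟨h1, h2⟩ := hF x y hne
    rw [zp_add] at h1 h2
    rcases h with h | h
    · have hc : ((2 : ℝ) ^ e) ≤ n₀ := by exact_mod_cast h
      have := hp.1.1
      have h3 : (2 : ℝ) ^ k * 2 ^ e ≤ (2 : ℝ) ^ k * n₀ := mul_le_mul_of_nonneg_left hc hp0.le
      linarith
    · have hc : ((2 : ℝ) ^ e) ≤ n₁ := by exact_mod_cast h
      have := hp.2.1.1
      have h3 : (2 : ℝ) ^ k * 2 ^ e ≤ (2 : ℝ) ^ k * n₁ := mul_le_mul_of_nonneg_left hc hp0.le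
      linarith
  simp only [hzero]
  ring

/-- The sum over xor-zero triples is a finite sum when `F₀` has bounded support. -/
lemma tsum_tile_eq {k : ℤ} {e : ℕ} {F₀ : ℝ × ℝ → ℝ}
    (hF : ∀ x y, F₀ (x, y) ≠ 0 → x < (2 : ℝ) ^ (k + (e : ℤ)) ∧ y < (2 : ℝ) ^ (k + (e : ℤ)))
    (F₁ F₂ : ℝ × ℝ → ℝ) :
    ∑' t : {t : ℕ × ℕ × ℕ // t.1 ^^^ t.2.1 ^^^ t.2.2 = 0},
        tileForm k t.1.1 t.1.2.1 t.1.2.2 F₀ F₁ F₂
      = ∑ n₀ ∈ Finset.range (2 ^ e), ∑ n₁ ∈ Finset.range (2 ^ e),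
          tileForm k n₀ n₁ (n₀ ^^^ n₁) F₀ F₁ F₂ := by
  rw [← Equiv.tsum_eq xorEquiv]
  simp only [xorEquiv, Equiv.coe_fn_mk]
  rw [tsum_eq_sum (s := Finset.range (2 ^ e) ×ˢ Finset.range (2 ^ e)), Finset.sum_product]
  intro p hp
  simp only [Finset.mem_product, Finset.mem_range, not_and_or, not_lt] at hp
  exact tileForm_zero_of_left hF hp F₁ F₂

lemma stepF_support {K : ℤ} {m : ℕ} (g : ℕ → ℕ → ℝ) {x y : ℝ}
    (h : stepF K m g (x, y) ≠ 0) :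
    x < (2 : ℝ) ^ (K + (m : ℤ)) ∧ y < (2 : ℝ) ^ (K + (m : ℤ)) := by
  have hp := zp_pos K
  have key : ∀ w : ℝ, (2 : ℝ) ^ (K + (m : ℤ)) ≤ w → ∀ a < 2 ^ m, w ∉ dyadic K a := by
    intro w hw a ha hc
    have h1 := hc.2
    rw [zp_add] at hw
    have h2 : (a : ℝ) + 1 ≤ 2 ^ m := by exact_mod_cast ha
    have h3 : (2 : ℝ) ^ K * (a + 1) ≤ (2 : ℝ) ^ K * 2 ^ m := mul_le_mul_of_nonneg_left h2 hp.le
    linarith
  constructor
  · by_contra hc
    exact h (stepF_zero_left g (key x (not_lt.1 hc)))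
  · by_contra hc
    exact h (stepF_zero_right g (key y (not_lt.1 hc)))

/-- The inequality for step functions. -/
theorem step_bound (hD : DiscreteThm) (K : ℤ) (m : ℕ) (g₀ g₁ g₂ : ℕ → ℕ → ℝ) (S : Finset ℤ)
    (ε : ℤ → ℝ) (hε : ∀ k, |ε k| ≤ 1) (hS : ∀ k ∈ S, K < k ∧ k ≤ K + (m : ℤ)) :
    |dyadicForm S ε (stepF K m g₀) (stepF K m g₁) (stepF K m g₂)| ≤
      400 * (Int3 (stepF K m g₀) + Int3 (stepF K m g₁) + Int3 (stepF K m g₂)) := by
  set φ : ℕ → ℝ := fun j => ∑ n₀ ∈ Finset.range (2 ^ (m - j)), ∑ n₁ ∈ Finset.range (2 ^ (m - j)),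
      ((1 : ℝ) / 2 ^ j) * |tile m g₀ g₁ g₂ j n₀ n₁| with hφ
  have hφ0 : ∀ j, 0 ≤ φ j := fun j =>
    Finset.sum_nonneg fun _ _ => Finset.sum_nonneg fun _ _ => by positivity
  have hp4 : (0 : ℝ) < (4 : ℝ) ^ K := by positivity
  -- each scale
  have hscale : ∀ k ∈ S, |ε k * ∑' t : {t : ℕ × ℕ × ℕ // t.1 ^^^ t.2.1 ^^^ t.2.2 = 0},
      tileForm k t.1.1 t.1.2.1 t.1.2.2 (stepF K m g₀) (stepF K m g₁) (stepF K m g₂)| ≤
      (4 : ℝ) ^ K * φ (k - K).toNat := by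
    intro k hk
    obtain ⟨h1, h2⟩ := hS k hk
    set j := (k - K).toNat with hj
    have hjz : (j : ℤ) = k - K := Int.toNat_of_nonneg (by omega)
    have hj1 : 1 ≤ j := by omega
    have hjm : j ≤ m := by omega
    have hk' : k = K + (j : ℤ) := by omega
    have hsupp : ∀ x y, stepF K m g₀ (x, y) ≠ 0 →
        x < (2 : ℝ) ^ (k + ((m - j : ℕ) : ℤ)) ∧ y < (2 : ℝ) ^ (k + ((m - j : ℕ) : ℤ)) := by
      intro x y h
      have he : k + ((m - j : ℕ) : ℤ) = K + (m : ℤ) := by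
        rw [Nat.cast_sub hjm]; omega
      rw [he]
      exact stepF_support g₀ h
    rw [tsum_tile_eq hsupp, abs_mul]
    have hsum : ∑ n₀ ∈ Finset.range (2 ^ (m - j)), ∑ n₁ ∈ Finset.range (2 ^ (m - j)),
        tileForm k n₀ n₁ (n₀ ^^^ n₁) (stepF K m g₀) (stepF K m g₁) (stepF K m g₂)
        = (4 : ℝ) ^ K * ∑ n₀ ∈ Finset.range (2 ^ (m - j)), ∑ n₁ ∈ Finset.range (2 ^ (m - j)),
          (1 / 2 ^ j) * tile m g₀ g₁ g₂ j n₀ n₁ := by
      rw [Finset.mul_sum]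
      refine Finset.sum_congr rfl fun n₀ hn₀ => ?_
      rw [Finset.mul_sum]
      refine Finset.sum_congr rfl fun n₁ hn₁ => ?_
      rw [hk', tileForm_step K m g₀ g₁ g₂ hj1 hjm (Finset.mem_range.1 hn₀) (Finset.mem_range.1 hn₁)]
      ring
    rw [hsum, abs_mul, abs_of_pos hp4]
    have hb : |∑ n₀ ∈ Finset.range (2 ^ (m - j)), ∑ n₁ ∈ Finset.range (2 ^ (m - j)),
        (1 / 2 ^ j) * tile m g₀ g₁ g₂ j n₀ n₁| ≤ φ j := by
      refine (Finset.abs_sum_le_sum_abs _ _).trans (Finset.sum_le_sum fun n₀ _ => ?_)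
      refine (Finset.abs_sum_le_sum_abs _ _).trans (Finset.sum_le_sum fun n₁ _ => ?_)
      rw [abs_mul, abs_of_nonneg (by positivity : (0 : ℝ) ≤ 1 / 2 ^ j)]
    calc |ε k| * ((4 : ℝ) ^ K * _) ≤ 1 * ((4 : ℝ) ^ K * φ j) := by
          apply mul_le_mul (hε k) _ (by positivity) (by norm_num)
          exact mul_le_mul_of_nonneg_left hb hp4.le
      _ = (4 : ℝ) ^ K * φ j := one_mul _
  -- sum over the scales
  have hinj : Set.InjOn (fun k : ℤ => (k - K).toNat) (S : Set ℤ) := by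
    intro a ha b hb hab
    have h1 := (hS a ha).1
    have h2 := (hS b hb).1
    simp only at hab
    omega
  have hsub : S.image (fun k : ℤ => (k - K).toNat) ⊆ Finset.Icc 1 m := by
    intro j hj
    obtain ⟨k, hk, rfl⟩ := Finset.mem_image.1 hj
    obtain ⟨h1, h2⟩ := hS k hk
    rw [Finset.mem_Icc]
    omega
  have htotal : ∑ k ∈ S, φ (k - K).toNat ≤ ∑ j ∈ Finset.Icc 1 m, φ j := by
    rw [← Finset.sum_image (f := φ) hinj]
    exact Finset.sum_le_sum_of_subset_of_nonneg hsub fun j _ _ => hφ0 j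
  have hmain := hD m g₀ g₁ g₂
  unfold dyadicForm
  calc |∑ k ∈ S, ε k * _| ≤ ∑ k ∈ S, (4 : ℝ) ^ K * φ (k - K).toNat :=
        (Finset.abs_sum_le_sum_abs _ _).trans (Finset.sum_le_sum hscale)
    _ = (4 : ℝ) ^ K * ∑ k ∈ S, φ (k - K).toNat := by rw [Finset.mul_sum]
    _ ≤ (4 : ℝ) ^ K * ∑ j ∈ Finset.Icc 1 m, φ j := mul_le_mul_of_nonneg_left htotal hp4.le
    _ ≤ (4 : ℝ) ^ K * (400 * (∑ i ∈ Finset.range (2 ^ m), ∑ i' ∈ Finset.range (2 ^ m),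
          (|g₀ i i'| ^ 3 + |g₁ i i'| ^ 3 + |g₂ i i'| ^ 3))) :=
        mul_le_mul_of_nonneg_left hmain hp4.le
    _ = 400 * (Int3 (stepF K m g₀) + Int3 (stepF K m g₁) + Int3 (stepF K m g₂)) := by
        rw [int3_step, int3_step, int3_step]
        simp only [Finset.sum_add_distrib]
        ring

end StepBound

end Vale.Agent.Lib.P075
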