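import Vale.Agent.Lib.P075.Measure1

/-!
Approximation of bounded functions of bounded support by dyadic step functions, in `L¹`.
-/

set_option linter.unusedVariables false
set_option linter.unusedSectionVars false

open MeasureTheory Set

namespace Vale.Agent.Lib.P075

section Approx

/-- The clamp to `[-B, B]`. -/
noncomputable def clamp (B v : ℝ) : ℝ := max (-B) (min B v)

lemma abs_clamp_le {B : ℝ} (hB : 0 ≤ B) (v : ℝ) : |clamp B v| ≤ B := by
  unfold clamp
  rw [abs_le]
  constructor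
  · exact le_max_left _ _
  · exact max_le (by linarith) (min_le_left _ _)

lemma abs_sub_clamp_le {B u : ℝ} (hu : |u| ≤ B) (v : ℝ) : |u - clamp B v| ≤ |u - v| := by
  have hu' := abs_le.1 hu
  unfold clamp
  rcases le_total B v with h | h
  · rw [min_eq_left h, max_eq_right (by linarith)]
    rw [abs_le]
    constructor
    · have := neg_abs_le (u - v)
      have h3 : |u - v| ≥ v - u := by
        rw [abs_sub_comm]; exact le_abs_self _
      linarith
    · have h3 : |u - v| ≥ v - u := by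
        rw [abs_sub_comm]; exact le_abs_self _
      linarith
  · rw [min_eq_right h]
    rcases le_total (-B) v with h2 | h2
    · rw [max_eq_right h2]
    · rw [max_eq_left h2]
      rw [abs_le]
      have h3 : |u - v| ≥ u - v := le_abs_self _
      constructor <;> linarith

lemma continuous_clamp (B : ℝ) {g : ℝ × ℝ → ℝ} (hg : Continuous g) :
    Continuous (fun p => clamp B (g p)) := by
  unfold clamp
  exact continuous_const.max (continuous_const.min hg)

/-- Bounded measurable functions with support in a box of side `2^a` are integrable. -/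
lemma integrable_of_box {F : ℝ × ℝ → ℝ} (hm : Measurable F) {B : ℝ} (hb : ∀ x, |F x| ≤ B) {a : ℤ}
    (hs : ∀ x y, F (x, y) ≠ 0 → (0 ≤ x ∧ x < (2 : ℝ) ^ a) ∧ (0 ≤ y ∧ y < (2 : ℝ) ^ a)) :
    Integrable F := by
  set box : Set (ℝ × ℝ) := Set.Ico 0 ((2 : ℝ) ^ a) ×ˢ Set.Ico 0 ((2 : ℝ) ^ a) with hbox
  have hsub : Function.support F ⊆ box := by
    rintro ⟨x, y⟩ h
    obtain ⟨h1, h2⟩ := hs x y h
    exact ⟨h1, h2⟩
  have hbm : MeasurableSet box := measurableSet_Ico.prod measurableSet_Ico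
  have hfin : volume box ≠ ⊤ := by
    rw [hbox, Measure.volume_eq_prod, Measure.prod_prod]
    simp [Real.volume_Ico, ENNReal.mul_eq_top]
  rw [← integrableOn_iff_integrable_of_support_subset hsub]
  exact Measure.integrableOn_of_bounded hfin hm.aestronglyMeasurable
    (Filter.Eventually.of_forall fun x => by simpa using hb x)

/-- Approximation by dyadic step functions at all sufficiently fine scales. -/
lemma exists_step_approx {F : ℝ × ℝ → ℝ} (hm : Measurable F) {B : ℝ} (hB : 0 ≤ B)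
    (hb : ∀ x, |F x| ≤ B) {a : ℤ}
    (hs : ∀ x y, F (x, y) ≠ 0 → (0 ≤ x ∧ x < (2 : ℝ) ^ a) ∧ (0 ≤ y ∧ y < (2 : ℝ) ^ a))
    {η : ℝ} (hη : 0 < η) :
    ∃ K₀ : ℤ, ∀ K : ℤ, K ≤ K₀ → K ≤ a → ∃ g : ℕ → ℕ → ℝ, (∀ i i', |g i i'| ≤ B) ∧
      ∫ p, |F p - stepF K (a - K).toNat g p| ≤ η := by
  have hFint := integrable_of_box hm hb hs
  obtain ⟨g₀, hg₀c, hg₀i, hg₀cont, hg₀int⟩ :=
    hFint.exists_hasCompactSupport_integral_sub_le (half_pos hη)
  set h : ℝ × ℝ → ℝ := fun p => clamp B (g₀ p) with hh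
  have hcont : Continuous h := continuous_clamp B hg₀cont
  set A : ℝ := (2 : ℝ) ^ a with hA
  have hApos : 0 < A := zp_pos a
  set box : Set (ℝ × ℝ) := Set.Ico 0 A ×ˢ Set.Ico 0 A with hbox
  have hbm : MeasurableSet box := measurableSet_Ico.prod measurableSet_Ico
  have hvolbox : (volume box).toReal = A * A := by
    rw [hbox, Measure.volume_eq_prod, Measure.prod_prod, ENNReal.toReal_mul, Real.volume_Ico,
      ENNReal.toReal_ofReal (by linarith)]
    ring
  have hfinbox : volume box ≠ ⊤ := by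
    rw [hbox, Measure.volume_eq_prod, Measure.prod_prod]
    simp [Real.volume_Ico, ENNReal.mul_eq_top]
  -- uniform continuity on the closed box
  have hcomp : IsCompact (Set.Icc (0 : ℝ) A ×ˢ Set.Icc (0 : ℝ) A) := isCompact_Icc.prod isCompact_Icc
  have huc := hcomp.uniformContinuousOn_of_continuous hcont.continuousOn
  rw [Metric.uniformContinuousOn_iff] at huc
  set ω : ℝ := η / (2 * (A * A)) with hω
  have hωpos : 0 < ω := by positivity
  obtain ⟨δ, hδ, hδuc⟩ := huc ω hωpos
  -- choose the scale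
  obtain ⟨N, hN⟩ := exists_pow_lt_of_lt_one hδ (by norm_num : (1 / 2 : ℝ) < 1)
  refine ⟨-(N : ℤ), fun K hK hKa => ?_⟩
  have hKpos : (0 : ℝ) < (2 : ℝ) ^ K := zp_pos K
  have hKδ : (2 : ℝ) ^ K < δ := by
    have h1 : (2 : ℝ) ^ K ≤ (2 : ℝ) ^ (-(N : ℤ)) := zpow_le_zpow_right₀ (by norm_num) hK
    have h2 : (2 : ℝ) ^ (-(N : ℤ)) = (1 / 2 : ℝ) ^ N := by
      rw [zpow_neg, zpow_natCast, one_div, inv_pow]
    linarith [h2 ▸ h1]
  set m := (a - K).toNat with hm'
  have hmz : (m : ℤ) = a - K := Int.toNat_of_nonneg (by omega)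
  have hKm : (2 : ℝ) ^ K * 2 ^ m = A := by
    rw [hA, ← zp_add, hmz]
    congr 1
    ring
  set g : ℕ → ℕ → ℝ := fun i i' => h ((2 : ℝ) ^ K * i, (2 : ℝ) ^ K * i') with hg
  refine ⟨g, fun i i' => abs_clamp_le hB _, ?_⟩
  -- pointwise estimate
  have hcell : ∀ x : ℝ, x ∈ Set.Ico 0 A → ∃ i < 2 ^ m, x ∈ dyadic K i ∧
      (2 : ℝ) ^ K * i ∈ Set.Icc (0 : ℝ) A ∧ |x - (2 : ℝ) ^ K * i| < δ := by
    intro x hx
    obtain ⟨i, hi⟩ := exists_cell K hx.1
    have hlt : i < 2 ^ m := by
      have h1 : (2 : ℝ) ^ K * i < (2 : ℝ) ^ K * 2 ^ m := by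
        rw [hKm]; exact lt_of_le_of_lt hi.1 hx.2
      have h2 : (i : ℝ) < 2 ^ m := lt_of_mul_lt_mul_left h1 hKpos.le
      exact_mod_cast h2
    refine ⟨i, hlt, hi, ⟨by positivity, le_trans hi.1 hx.2.le⟩, ?_⟩
    rw [abs_of_nonneg (by linarith [hi.1])]
    have := hi.2
    nlinarith
  have hptw : ∀ p : ℝ × ℝ, |F p - stepF K m g p| ≤
      ‖F p - g₀ p‖ + Set.indicator box (fun _ => ω) p := by
    rintro ⟨x, y⟩
    by_cases hp : (x, y) ∈ box
    · obtain ⟨i, hi, hxi, hxs, hxd⟩ := hcell x hp.1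
      obtain ⟨i', hi', hyi, hys, hyd⟩ := hcell y hp.2
      rw [Set.indicator_of_mem hp, stepF_apply g hi hi' hxi hyi]
      have h1 : |F (x, y) - h (x, y)| ≤ |F (x, y) - g₀ (x, y)| := abs_sub_clamp_le (hb _) _
      have hpin : (x, y) ∈ Set.Icc (0 : ℝ) A ×ˢ Set.Icc (0 : ℝ) A :=
        ⟨⟨hp.1.1, hp.1.2.le⟩, ⟨hp.2.1, hp.2.2.le⟩⟩
      have hqin : ((2 : ℝ) ^ K * i, (2 : ℝ) ^ K * i') ∈ Set.Icc (0 : ℝ) A ×ˢ Set.Icc (0 : ℝ) A :=
        ⟨hxs, hys⟩
      have hd : dist (x, y) ((2 : ℝ) ^ K * i, (2 : ℝ) ^ K * i') < δ := by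
        rw [Prod.dist_eq, max_lt_iff, Real.dist_eq, Real.dist_eq]
        exact ⟨hxd, hyd⟩
      have h2 := hδuc _ hpin _ hqin hd
      rw [Real.dist_eq] at h2
      have h3 : |F (x, y) - g i i'| ≤ |F (x, y) - h (x, y)| + |h (x, y) - g i i'| := by
        simpa using abs_sub_le (F (x, y)) (h (x, y)) (g i i')
      rw [Real.norm_eq_abs]
      have h4 : |h (x, y) - g i i'| < ω := h2
      linarith
    · rw [Set.indicator_of_notMem hp]
      have hF0 : F (x, y) = 0 := by
        by_contra hne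
        obtain ⟨h1, h2⟩ := hs x y hne
        exact hp ⟨h1, h2⟩
      have hS0 : stepF K m g (x, y) = 0 := by
        have hnot : ∀ w : ℝ, w ∉ Set.Ico 0 A → ∀ i < 2 ^ m, w ∉ dyadic K i := by
          intro w hw i hi hc
          apply hw
          refine ⟨dyadic_nonneg hc, ?_⟩
          have h2 : (i : ℝ) + 1 ≤ 2 ^ m := by exact_mod_cast hi
          have h3 : (2 : ℝ) ^ K * (i + 1) ≤ (2 : ℝ) ^ K * 2 ^ m :=
            mul_le_mul_of_nonneg_left h2 hKpos.le
          rw [hKm] at h3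
          exact lt_of_lt_of_le hc.2 h3
        by_cases hx : x ∈ Set.Ico 0 A
        · have hy : y ∉ Set.Ico 0 A := fun hy => hp ⟨hx, hy⟩
          exact stepF_zero_right g (hnot y hy)
        · exact stepF_zero_left g (hnot x hx)
      rw [hF0, hS0]
      simp
  -- integrate
  have hint1 : Integrable (fun p => ‖F p - g₀ p‖) := (hFint.sub hg₀int).norm
  have hint2 : Integrable (Set.indicator box (fun _ : ℝ × ℝ => ω)) :=
    (integrable_indicator_iff hbm).2 (integrableOn_const hfinbox)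
  have hSint : Integrable (stepF K m g) := by
    refine integrable_of_box (measurable_stepF K m g) (B := ∑ i ∈ Finset.range (2 ^ m),
      ∑ i' ∈ Finset.range (2 ^ m), |g i i'|) ?_ (a := a) ?_
    · intro p
      unfold stepF
      refine (Finset.abs_sum_le_sum_abs _ _).trans (Finset.sum_le_sum fun i _ => ?_)
      refine (Finset.abs_sum_le_sum_abs _ _).trans (Finset.sum_le_sum fun i' _ => ?_)
      by_cases hc : p ∈ dyadic K i ×ˢ dyadic K i'
      · rw [Set.indicator_of_mem hc]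
      · rw [Set.indicator_of_notMem hc]
        simp
    · intro x y hne
      have h1 := stepF_support g hne
      have he : K + (m : ℤ) = a := by omega
      rw [he] at h1
      refine ⟨⟨?_, h1.1⟩, ⟨?_, h1.2⟩⟩
      · by_contra hc
        exact hne (stepF_zero_left g fun a _ hd => hc (dyadic_nonneg hd))
      · by_contra hc
        exact hne (stepF_zero_right g fun a _ hd => hc (dyadic_nonneg hd))
  have hLint : Integrable (fun p => |F p - stepF K m g p|) := (hFint.sub hSint).abs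
  calc ∫ p, |F p - stepF K m g p| ≤ ∫ p, (‖F p - g₀ p‖ + Set.indicator box (fun _ => ω) p) :=
        integral_mono hLint (hint1.add hint2) hptw
    _ = (∫ p, ‖F p - g₀ p‖) + ∫ p, Set.indicator box (fun _ => ω) p := integral_add hint1 hint2
    _ = (∫ p, ‖F p - g₀ p‖) + ω * (A * A) := by
        rw [integral_indicator_const _ hbm]
        simp only [Measure.real, smul_eq_mul, hvolbox]
        ring
    _ ≤ η / 2 + η / 2 := by
        have h1 : ω * (A * A) = η / 2 := by
          rw [hω]; field_simp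
        rw [h1]
        linarith [hg₀i]
    _ = η := by ring

end Approx

end Vale.Agent.Lib.P075
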