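import Vale.Agent.Lib.P075.Defs

/-!
# P075: the dyadic tree. `BlockLemma` implies `DiscreteThm`.

The nodes of the dyadic tree at level `j` are indexed by two numbers `n₀, n₁`; the three matrices
of a node are blocks of the grid functions, with normalisation `2^{-j}`.  The Bellman step of
`BlockLemma` is summed level by level with weight `4^j`, and the sum telescopes to the energy of
the leaves, which is computed explicitly.
-/

open Matrix Finset

namespace Vale.Agent.Lib.P075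
namespace Tree

/-! ### Arithmetic -/

lemma xor_double (a c : ℕ) (b d : Bool) :
    (2 * a + b.toNat) ^^^ (2 * c + d.toNat) = 2 * (a ^^^ c) + (xor b d).toNat := by
  have h := Nat.xor_bit b a d c
  simp only [Nat.bit] at h
  cases b <;> cases d <;> simp_all

lemma div_succ' (i j : ℕ) : i / 2 ^ (j + 1) = i / 2 ^ j / 2 := by
  rw [pow_succ, Nat.div_div_eq_div_mul]

lemma sum_range_two_mul (N : ℕ) (g : ℕ → ℝ) :
    ∑ n ∈ range (2 * N), g n = ∑ n ∈ range N, ∑ b : Bool, g (2 * n + b.toNat) := by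
  induction N with
  | zero => simp
  | succ N ih =>
    rw [show 2 * (N + 1) = 2 * N + 1 + 1 by ring, sum_range_succ, sum_range_succ, ih,
      sum_range_succ]
    simp
    ring

/-! ### Blocks and projections -/

/-- The block of a grid function with indices `p, q` at level `j`, normalised by `2^{-j}`. -/
noncomputable def blockM (m j p q : ℕ) (g : ℕ → ℕ → ℝ) : Matrix (Fin (2 ^ m)) (Fin (2 ^ m)) ℝ :=
  Matrix.of fun i i' => if (i : ℕ) / 2 ^ j = p ∧ (i' : ℕ) / 2 ^ j = q then g i i' / 2 ^ j else 0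

/-- The diagonal projection on the cells with `i / 2^j = n`. -/
noncomputable def proj (m j n : ℕ) : Matrix (Fin (2 ^ m)) (Fin (2 ^ m)) ℝ :=
  Matrix.diagonal fun i => if (i : ℕ) / 2 ^ j = n then 1 else 0

/-- The two halves of the cell `n` of level `j + 1`. -/
noncomputable def halves (m j n : ℕ) (b : Bool) : Matrix (Fin (2 ^ m)) (Fin (2 ^ m)) ℝ :=
  proj m j (2 * n + b.toNat)

lemma halves_orth (m j n : ℕ) : OrthProj (halves m j n false) (halves m j n true) := by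
  refine ⟨?_, ?_, ?_, ?_, ?_⟩
  · simp [halves, proj]
  · simp [halves, proj]
  · ext i i'
    simp only [halves, proj, diagonal_mul_diagonal]
    by_cases h : i = i'
    · subst h; simp only [diagonal_apply_eq]; split_ifs <;> simp
    · simp [diagonal_apply_ne _ h]
  · ext i i'
    simp only [halves, proj, diagonal_mul_diagonal]
    by_cases h : i = i'
    · subst h; simp only [diagonal_apply_eq]; split_ifs <;> simp
    · simp [diagonal_apply_ne _ h]
  · ext i i'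
    simp only [halves, proj, diagonal_mul_diagonal]
    by_cases h : i = i'
    · subst h
      simp only [diagonal_apply_eq, Matrix.zero_apply, Bool.toNat_false, Bool.toNat_true]
      split_ifs with h1 h2 <;> first | omega | simp
    · simp [diagonal_apply_ne _ h]

lemma halves_add (m j n : ℕ) : halves m j n false + halves m j n true = proj m (j + 1) n := by
  ext i i'
  simp only [halves, proj, diagonal_add, Bool.toNat_false, Bool.toNat_true]
  by_cases h : i = i'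
  · subst h
    simp only [diagonal_apply_eq, div_succ']
    have := (i : ℕ) / 2 ^ j
    split_ifs <;> first | omega | simp
  · simp [diagonal_apply_ne _ h]

lemma proj_mul_block (m j p q : ℕ) (g : ℕ → ℕ → ℝ) :
    proj m j p * blockM m j p q g = blockM m j p q g := by
  ext i i'
  simp only [proj, blockM, diagonal_mul, of_apply]
  by_cases h : (i : ℕ) / 2 ^ j = p <;> simp [h]

lemma block_mul_proj (m j p q : ℕ) (g : ℕ → ℕ → ℝ) :
    blockM m j p q g * proj m j q = blockM m j p q g := by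
  ext i i'
  simp only [proj, blockM, mul_diagonal, of_apply]
  by_cases h : (i' : ℕ) / 2 ^ j = q <;> simp [h]

/-- The children of a block. -/
lemma child_block (m j p q : ℕ) (g : ℕ → ℕ → ℝ) (b b' : Bool) :
    (2 : ℝ) • (halves m j p b * blockM m (j + 1) p q g * halves m j q b') =
      blockM m j (2 * p + b.toNat) (2 * q + b'.toNat) g := by
  ext i i'
  simp only [halves, proj, blockM, mul_diagonal, diagonal_mul, of_apply, Matrix.smul_apply,
    smul_eq_mul]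
  have hb := Bool.toNat_lt b
  have hb' := Bool.toNat_lt b'
  by_cases h1 : (i : ℕ) / 2 ^ j = 2 * p + b.toNat
  · by_cases h2 : (i' : ℕ) / 2 ^ j = 2 * q + b'.toNat
    · have h3 : (i : ℕ) / 2 ^ (j + 1) = p := by rw [div_succ', h1]; omega
      have h4 : (i' : ℕ) / 2 ^ (j + 1) = q := by rw [div_succ', h2]; omega
      simp only [h1, h2, h3, h4, and_self, if_true]
      rw [pow_succ]
      have : (2 : ℝ) ^ j ≠ 0 := by positivity
      field_simp
    · simp [h2]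
  · simp [h1]

/-! ### Nodes -/

section Nodes

variable (m : ℕ) (f₀ f₁ f₂ : ℕ → ℕ → ℝ)

/-- The energy of the node `(j, n₀, n₁)`. -/
noncomputable def nodeW (L j n₀ n₁ : ℕ) : ℝ :=
  W L (blockM m j n₀ n₁ f₀) (blockM m j n₁ (n₀ ^^^ n₁) f₁) (blockM m j (n₀ ^^^ n₁) n₀ f₂)

/-- The trace attached to the node `(j + 1, n₀, n₁)`. -/
noncomputable def nodeT (j n₀ n₁ : ℕ) : ℝ :=
  trace ((halves m j n₀ false - halves m j n₀ true) * blockM m (j + 1) n₀ n₁ f₀ *
    (halves m j n₁ false - halves m j n₁ true) * blockM m (j + 1) n₁ (n₀ ^^^ n₁) f₁ *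
    (halves m j (n₀ ^^^ n₁) false - halves m j (n₀ ^^^ n₁) true) *
    blockM m (j + 1) (n₀ ^^^ n₁) n₀ f₂)

lemma node_step (h : BlockLemma) (j n₀ n₁ : ℕ) :
    ∃ L₀ : ℕ, ∀ L : ℕ, L₀ ≤ L →
      nodeW m f₀ f₁ f₂ L (j + 1) n₀ n₁ + (1 / 32 : ℝ) * |nodeT m f₀ f₁ f₂ j n₀ n₁| ≤
        (1 / 4 : ℝ) * ∑ b : Bool, ∑ b' : Bool,
          nodeW m f₀ f₁ f₂ L j (2 * n₀ + b.toNat) (2 * n₁ + b'.toNat) := by
  obtain ⟨L₀, hL⟩ := h (blockM m (j + 1) n₀ n₁ f₀) (blockM m (j + 1) n₁ (n₀ ^^^ n₁) f₁)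
    (blockM m (j + 1) (n₀ ^^^ n₁) n₀ f₂) (halves m j n₀) (halves m j n₁) (halves m j (n₀ ^^^ n₁))
    (halves_orth _ _ _) (halves_orth _ _ _) (halves_orth _ _ _)
    (by rw [halves_add, proj_mul_block]) (by rw [halves_add, block_mul_proj])
    (by rw [halves_add, proj_mul_block]) (by rw [halves_add, block_mul_proj])
    (by rw [halves_add, proj_mul_block]) (by rw [halves_add, block_mul_proj])
  refine ⟨L₀, fun L hL' => ?_⟩
  have := hL L hL'
  simp only [child_block, ← xor_double] at this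
  exact this

end Nodes

/-! ### The trace of a node and the tile -/

lemma trace_six {ι : Type} [Fintype ι] [DecidableEq ι] (u v w : ι → ℝ) (X Y Z : Matrix ι ι ℝ) :
    trace (diagonal u * X * diagonal v * Y * diagonal w * Z) =
      ∑ i₀, ∑ i₁, ∑ i₂, u i₀ * X i₀ i₁ * v i₁ * Y i₁ i₂ * w i₂ * Z i₂ i₀ := by
  have h1 : ∀ i i₂, (diagonal u * X * diagonal v * Y) i i₂ =
      ∑ i₁, u i * X i i₁ * v i₁ * Y i₁ i₂ := by
    intro i i₂
    rw [Matrix.mul_apply]
    simp only [mul_diagonal, diagonal_mul]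
  simp only [trace, diag_apply]
  refine Finset.sum_congr rfl fun i₀ _ => ?_
  rw [Matrix.mul_apply]
  simp only [mul_diagonal, h1, Finset.sum_mul]
  rw [Finset.sum_comm]

lemma halves_sub (m j n : ℕ) : halves m j n false - halves m j n true =
    diagonal fun i : Fin (2 ^ m) => (if (i : ℕ) / 2 ^ j = 2 * n then (1 : ℝ) else 0) -
      (if (i : ℕ) / 2 ^ j = 2 * n + 1 then 1 else 0) := by
  simp [halves, proj, diagonal_sub]

lemma sign_of_block (i n j : ℕ) (h : i / 2 ^ (j + 1) = n) :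
    (if i / 2 ^ j = 2 * n then (1 : ℝ) else 0) - (if i / 2 ^ j = 2 * n + 1 then 1 else 0) =
      cellSign (j + 1) i := by
  rw [div_succ'] at h
  simp only [cellSign, Nat.add_sub_cancel]
  split_ifs <;> first | omega | norm_num

lemma tile_eq (m : ℕ) (f₀ f₁ f₂ : ℕ → ℕ → ℝ) (j n₀ n₁ : ℕ) :
    (4 : ℝ) ^ (j + 1) * nodeT m f₀ f₁ f₂ j n₀ n₁ =
      ((1 : ℝ) / 2 ^ (j + 1)) * tile m f₀ f₁ f₂ (j + 1) n₀ n₁ := by
  have hP : (2 : ℝ) ^ (j + 1) ≠ 0 := by positivity
  have h4 : (4 : ℝ) ^ (j + 1) = (2 ^ (j + 1)) ^ 2 := by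
    rw [← pow_mul, mul_comm, pow_mul]; norm_num
  simp only [nodeT, halves_sub, trace_six, tile, Finset.sum_range, Finset.mul_sum]
  refine Finset.sum_congr rfl fun i₀ _ => Finset.sum_congr rfl fun i₁ _ =>
    Finset.sum_congr rfl fun i₂ _ => ?_
  by_cases h₀ : (i₀ : ℕ) / 2 ^ (j + 1) = n₀
  · by_cases h₁ : (i₁ : ℕ) / 2 ^ (j + 1) = n₁
    · by_cases h₂ : (i₂ : ℕ) / 2 ^ (j + 1) = n₀ ^^^ n₁
      · rw [sign_of_block _ _ _ h₀, sign_of_block _ _ _ h₁, sign_of_block _ _ _ h₂, h4]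
        simp only [blockM, of_apply, h₀, h₁, h₂, and_self, if_true]
        field_simp
      · simp [blockM, h₂]
    · simp [blockM, h₁]
  · simp [blockM, h₀]

/-! ### Positivity of the energy -/

lemma G_nonneg {ι : Type} [Fintype ι] [DecidableEq ι] {s : ℝ} (hs : 0 < s) {B : Matrix ι ι ℝ}
    (hB : B.PosSemidef) : 0 ≤ G s B := by
  have hone : (s • (1 : Matrix ι ι ℝ)).PosDef := Matrix.PosDef.one.smul hs
  have hQpd : (B + s • (1 : Matrix ι ι ℝ)).PosDef := hone.posSemidef_add hB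
  set Q := B + s • (1 : Matrix ι ι ℝ) with hQ
  have hdet : IsUnit Q.det := (Matrix.isUnit_iff_isUnit_det _).1 hQpd.isUnit
  have hinv : Q * Q⁻¹ = 1 := Matrix.mul_nonsing_inv _ hdet
  have hinv' : Q⁻¹ * Q = 1 := Matrix.nonsing_inv_mul _ hdet
  set D := Q⁻¹ - s⁻¹ • (1 : Matrix ι ι ℝ) with hD
  have hDh : Dᴴ = D := by
    have h1 : (Q⁻¹)ᵀ = Q⁻¹ := by
      have := hQpd.inv.isHermitian.eq
      rwa [conjTranspose_eq_transpose_of_trivial] at this
    simp [hD, h1]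
  have hP : (Dᴴ * Q * D).PosSemidef := hQpd.posSemidef.conjTranspose_mul_mul_same D
  rw [hDh] at hP
  have hexp : D * Q * D = Q⁻¹ - (2 * s⁻¹) • (1 : Matrix ι ι ℝ) + (s⁻¹ ^ 2) • Q := by
    have : D * Q = 1 - s⁻¹ • Q := by
      rw [hD, Matrix.sub_mul, hinv', Matrix.smul_mul, Matrix.one_mul]
    rw [this, hD, Matrix.sub_mul, Matrix.one_mul, Matrix.smul_mul, Matrix.mul_sub, hinv,
      Matrix.mul_smul, Matrix.mul_one, smul_sub, smul_smul, two_mul, add_smul]
    simp only [pow_two]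
    abel
  have htr := hP.trace_nonneg
  rw [hexp, trace_add, trace_sub, trace_smul, trace_smul, trace_one] at htr
  have htrQ : trace Q = trace B + s * (Fintype.card ι : ℝ) := by
    rw [hQ, trace_add, trace_smul, trace_one]; simp
  rw [htrQ] at htr
  simp only [smul_eq_mul] at htr
  unfold G
  rw [← hQ]
  have hs2 : 0 < s ^ 2 := by positivity
  have := mul_nonneg hs2.le htr
  have e : s ^ 2 * (trace Q⁻¹ - 2 * s⁻¹ * (Fintype.card ι : ℝ) +
      s⁻¹ ^ 2 * (trace B + s * (Fintype.card ι : ℝ))) =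
      trace B - s * (Fintype.card ι : ℝ) + s ^ 2 * trace Q⁻¹ := by
    field_simp
    ring
  linarith [e ▸ this]

lemma W_nonneg {ι : Type} [Fintype ι] [DecidableEq ι] (L : ℕ) (X Y Z : Matrix ι ι ℝ) :
    0 ≤ W L X Y Z := by
  have key : ∀ P R : Matrix ι ι ℝ, (P * Pᵀ + Rᵀ * R).PosSemidef := by
    intro P R
    have h1 := posSemidef_self_mul_conjTranspose P
    have h2 := posSemidef_conjTranspose_mul_self R
    simp only [conjTranspose_eq_transpose_of_trivial] at h1 h2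
    exact h1.add h2
  unfold W
  refine Finset.sum_nonneg fun M _ => ?_
  have h4 : (0 : ℝ) < 4 ^ M := by positivity
  have h2 : (0 : ℝ) < 2 ^ M := by positivity
  have ha := G_nonneg h4 (key X Z)
  have hb := G_nonneg h4 (key Y X)
  have hc := G_nonneg h4 (key Z Y)
  positivity

/-! ### The leaves -/

section Leaf

variable {ι : Type} [Fintype ι] [DecidableEq ι]

/-- The matrix with the single entry `v` at `(p, q)`. -/
noncomputable def leafM (p q : ι) (v : ℝ) : Matrix ι ι ℝ :=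
  Matrix.of fun i i' => if i = p ∧ i' = q then v else 0

lemma leaf_mul_tr (p q : ι) (v : ℝ) :
    leafM p q v * (leafM p q v)ᵀ = diagonal fun i => if i = p then v ^ 2 else 0 := by
  ext i i'
  rw [Matrix.mul_apply, Finset.sum_eq_single q]
  · by_cases h : i = i'
    · subst h
      by_cases h' : i = p <;> simp [leafM, h', pow_two]
    · rw [diagonal_apply_ne _ h]
      simp only [leafM, transpose_apply, of_apply]
      by_cases h1 : i = p
      · have : i' ≠ p := fun e => h (h1.trans e.symm)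
        simp [this]
      · simp [h1]
  · intro k _ hk
    simp [leafM, hk]
  · simp

lemma tr_mul_leaf (p q : ι) (v : ℝ) :
    (leafM p q v)ᵀ * leafM p q v = diagonal fun i => if i = q then v ^ 2 else 0 := by
  ext i i'
  rw [Matrix.mul_apply, Finset.sum_eq_single p]
  · by_cases h : i = i'
    · subst h
      by_cases h' : i = q <;> simp [leafM, h', pow_two]
    · rw [diagonal_apply_ne _ h]
      simp only [leafM, transpose_apply, of_apply]
      by_cases h1 : i = q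
      · have : i' ≠ q := fun e => h (h1.trans e.symm)
        simp [this]
      · simp [h1]
  · intro k _ hk
    simp [leafM, hk]
  · simp

omit [Fintype ι] in
lemma diag_single_add (p : ι) (a b : ℝ) :
    (diagonal fun i => if i = p then a else 0) + (diagonal fun i => if i = p then b else 0) =
      diagonal fun i => if i = p then a + b else 0 := by
  rw [diagonal_add]
  congr 1
  ext i
  split_ifs <;> simp

lemma G_single {s t : ℝ} (hs : 0 < s) (ht : 0 ≤ t) (p : ι) :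
    G s (diagonal fun i => if i = p then t else 0) = t ^ 2 / (t + s) := by
  have hts : 0 < t + s := by linarith
  have hne : ∀ i : ι, (if i = p then t else 0) + s ≠ 0 := by
    intro i
    split_ifs
    · exact hts.ne'
    · simpa using hs.ne'
  have hadd : (diagonal fun i => if i = p then t else 0) + s • (1 : Matrix ι ι ℝ) =
      diagonal fun i => (if i = p then t else 0) + s := by
    rw [smul_one_eq_diagonal, diagonal_add]
  have hinv : (diagonal fun i => (if i = p then t else 0) + s)⁻¹ =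
      diagonal fun i => ((if i = p then t else 0) + s)⁻¹ := by
    apply Matrix.inv_eq_right_inv
    rw [diagonal_mul_diagonal, ← diagonal_one]
    congr 1
    ext i
    exact mul_inv_cancel₀ (hne i)
  have hsum : ∑ i : ι, ((if i = p then t else 0) + s)⁻¹ =
      (Fintype.card ι : ℝ) * s⁻¹ + ((t + s)⁻¹ - s⁻¹) := by
    have : ∀ i : ι, ((if i = p then t else 0) + s)⁻¹ =
        s⁻¹ + (if i = p then (t + s)⁻¹ - s⁻¹ else 0) := by
      intro i
      split_ifs <;> simp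
    simp only [this, Finset.sum_add_distrib, Finset.sum_ite_eq', Finset.mem_univ, if_true,
      Finset.sum_const, Finset.card_univ, nsmul_eq_mul]
  unfold G
  rw [hadd, hinv, trace_diagonal, trace_diagonal, hsum]
  simp only [Finset.sum_ite_eq', Finset.mem_univ, if_true]
  field_simp
  ring

end Leaf

/-- The telescoping function of the scale sum. -/
noncomputable def phi (u : ℝ) : ℝ := if u ≤ 1 then u else 3 - 2 / u

lemma phi_nonneg {u : ℝ} (hu : 0 < u) : 0 ≤ phi u := by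
  unfold phi
  split_ifs with h
  · exact hu.le
  · have h1 : 2 / u ≤ 2 := by
      rw [div_le_iff₀ hu]; push Not at h; linarith
    linarith

lemma phi_le {u : ℝ} (hu : 0 < u) : phi u ≤ 3 := by
  unfold phi
  split_ifs with h
  · linarith
  · have : 0 < 2 / u := by positivity
    linarith

lemma phi_step {u : ℝ} (hu : 0 < u) : u / (1 + u ^ 2) ≤ phi (2 * u) - phi u := by
  have h1u : 0 < 1 + u ^ 2 := by positivity
  have hle : u / (1 + u ^ 2) ≤ u := by
    rw [div_le_iff₀ h1u]; nlinarith [sq_nonneg u]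
  unfold phi
  split_ifs with h1 h2 h2
  · linarith
  · exfalso; linarith
  · have e : 3 - 2 / (2 * u) - u - u = (2 * u - 1) * (1 - u) / u := by
      field_simp; ring
    have : 0 ≤ (2 * u - 1) * (1 - u) / u := by
      apply div_nonneg _ hu.le
      apply mul_nonneg <;> [(push Not at h1; linarith); linarith]
    linarith
  · push Not at h2
    have e : 3 - 2 / (2 * u) - (3 - 2 / u) = 1 / u := by
      field_simp; ring
    rw [e, div_le_div_iff₀ h1u hu]
    nlinarith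

lemma tele_int (g : ℤ → ℝ) (L : ℕ) :
    ∑ M ∈ Finset.Icc (-(L : ℤ)) L, (g (M + 1) - g M) = g ((L : ℤ) + 1) - g (-(L : ℤ)) := by
  induction L with
  | zero => simp
  | succ L ih =>
    have hset : Finset.Icc (-((L + 1 : ℕ) : ℤ)) ((L + 1 : ℕ) : ℤ) =
        insert (-((L : ℤ) + 1)) (insert ((L : ℤ) + 1) (Finset.Icc (-(L : ℤ)) L)) := by
      ext x
      simp only [Finset.mem_Icc, Finset.mem_insert]
      push_cast
      omega
    rw [hset, Finset.sum_insert, Finset.sum_insert, ih]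
    · push_cast
      have e : -((L : ℤ) + 1) + 1 = -(L : ℤ) := by ring
      rw [e]
      ring
    · simp
    · simp only [Finset.mem_insert, Finset.mem_Icc]
      omega

lemma sum_bound {t : ℝ} (ht : 0 ≤ t) (L : ℕ) :
    ∑ M ∈ Finset.Icc (-(L : ℤ)) L, (2 : ℝ) ^ M * (t ^ 2 / (t + 4 ^ M)) ≤ 3 * (t * √t) := by
  rcases ht.eq_or_lt with rfl | ht
  · simp
  set r := √t with hr
  have hr0 : 0 < r := Real.sqrt_pos.2 ht
  have hrr : r ^ 2 = t := Real.sq_sqrt ht.le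
  have hterm : ∀ M : ℤ, (2 : ℝ) ^ M * (t ^ 2 / (t + 4 ^ M)) ≤
      t * r * (phi ((2 : ℝ) ^ (M + 1) / r) - phi ((2 : ℝ) ^ M / r)) := by
    intro M
    have h2M : (0 : ℝ) < 2 ^ M := by positivity
    have hu : 0 < (2 : ℝ) ^ M / r := by positivity
    have hstep := phi_step hu
    have e2 : (2 : ℝ) ^ (M + 1) / r = 2 * ((2 : ℝ) ^ M / r) := by
      rw [zpow_add_one₀ (by norm_num : (2 : ℝ) ≠ 0)]; ring
    rw [e2]
    have h4 : (4 : ℝ) ^ M = (2 ^ M) ^ 2 := by
      rw [← zpow_natCast, ← _root_.zpow_mul, mul_comm, _root_.zpow_mul]; norm_num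
    have e : (2 : ℝ) ^ M * (t ^ 2 / (t + 4 ^ M)) =
        t * r * (((2 : ℝ) ^ M / r) / (1 + ((2 : ℝ) ^ M / r) ^ 2)) := by
      rw [h4, ← hrr]
      field_simp
    rw [e]
    exact mul_le_mul_of_nonneg_left hstep (by positivity)
  calc ∑ M ∈ Finset.Icc (-(L : ℤ)) L, (2 : ℝ) ^ M * (t ^ 2 / (t + 4 ^ M))
      ≤ ∑ M ∈ Finset.Icc (-(L : ℤ)) L,
          t * r * (phi ((2 : ℝ) ^ (M + 1) / r) - phi ((2 : ℝ) ^ M / r)) :=
        Finset.sum_le_sum fun M _ => hterm M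
    _ = t * r * (phi ((2 : ℝ) ^ ((L : ℤ) + 1) / r) - phi ((2 : ℝ) ^ (-(L : ℤ)) / r)) := by
        rw [← Finset.mul_sum, tele_int (fun M => phi ((2 : ℝ) ^ M / r))]
    _ ≤ 3 * (t * r) := by
        have h1 := phi_le (u := (2 : ℝ) ^ ((L : ℤ) + 1) / r) (by positivity)
        have h2 := phi_nonneg (u := (2 : ℝ) ^ (-(L : ℤ)) / r) (by positivity)
        have : 0 ≤ t * r := by positivity
        nlinarith

lemma cube_bound (a b : ℝ) :
    (a ^ 2 + b ^ 2) * √(a ^ 2 + b ^ 2) ≤ (3 / 2 : ℝ) * (|a| ^ 3 + |b| ^ 3) := by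
  have ht : 0 ≤ a ^ 2 + b ^ 2 := by positivity
  have ha := abs_nonneg a
  have hb := abs_nonneg b
  have ha2 : a ^ 2 = |a| ^ 2 := (sq_abs a).symm
  have hb2 : b ^ 2 = |b| ^ 2 := (sq_abs b).symm
  apply le_of_pow_le_pow_left₀ two_ne_zero (by positivity)
  rw [mul_pow, Real.sq_sqrt ht, ha2, hb2]
  generalize |a| = A at *
  generalize |b| = B at *
  have h1 : 0 ≤ (A - B) ^ 2 * (A ^ 4 + 2 * A ^ 3 * B + 2 * A * B ^ 3 + B ^ 4) := by positivity
  have h2 : 0 ≤ (A ^ 3 + B ^ 3) ^ 2 := by positivity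
  nlinarith

section Leaf2

variable {ι : Type} [Fintype ι] [DecidableEq ι]

lemma W_leaf (L : ℕ) (p q r : ι) (x y z : ℝ) :
    W L (leafM p q x) (leafM q r y) (leafM r p z) ≤ 9 * (|x| ^ 3 + |y| ^ 3 + |z| ^ 3) := by
  unfold W
  simp only [leaf_mul_tr, tr_mul_leaf, diag_single_add]
  have hterm : ∀ M : ℤ, (2 : ℝ) ^ M *
      (G ((4 : ℝ) ^ M) (diagonal fun i => if i = p then x ^ 2 + z ^ 2 else 0) +
       G ((4 : ℝ) ^ M) (diagonal fun i => if i = q then y ^ 2 + x ^ 2 else 0) +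
       G ((4 : ℝ) ^ M) (diagonal fun i => if i = r then z ^ 2 + y ^ 2 else 0)) =
      (2 : ℝ) ^ M * ((x ^ 2 + z ^ 2) ^ 2 / ((x ^ 2 + z ^ 2) + 4 ^ M)) +
      (2 : ℝ) ^ M * ((y ^ 2 + x ^ 2) ^ 2 / ((y ^ 2 + x ^ 2) + 4 ^ M)) +
      (2 : ℝ) ^ M * ((z ^ 2 + y ^ 2) ^ 2 / ((z ^ 2 + y ^ 2) + 4 ^ M)) := by
    intro M
    have h4 : (0 : ℝ) < 4 ^ M := by positivity
    rw [G_single h4 (by positivity), G_single h4 (by positivity), G_single h4 (by positivity)]
    ring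
  simp only [hterm, Finset.sum_add_distrib]
  have h1 := sum_bound (t := x ^ 2 + z ^ 2) (by positivity) L
  have h2 := sum_bound (t := y ^ 2 + x ^ 2) (by positivity) L
  have h3 := sum_bound (t := z ^ 2 + y ^ 2) (by positivity) L
  have c1 := cube_bound x z
  have c2 := cube_bound y x
  have c3 := cube_bound z y
  linarith

end Leaf2

lemma blockM_zero (m n k : ℕ) (g : ℕ → ℕ → ℝ) (hn : n < 2 ^ m) (hk : k < 2 ^ m) :
    blockM m 0 n k g = leafM ⟨n, hn⟩ ⟨k, hk⟩ (g n k) := by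
  ext i i'
  simp only [blockM, leafM, of_apply, pow_zero, Nat.div_one, div_one, Fin.ext_iff]
  split_ifs with h
  · rw [h.1, h.2]
  · rfl

lemma sum_xor {m c : ℕ} (hc : c < 2 ^ m) (g : ℕ → ℝ) :
    ∑ n ∈ range (2 ^ m), g (n ^^^ c) = ∑ n ∈ range (2 ^ m), g n := by
  refine Finset.sum_nbij' (fun n => n ^^^ c) (fun n => n ^^^ c) ?_ ?_ ?_ ?_ ?_
  · intro n hn
    simp only [Finset.mem_range] at hn ⊢
    exact Nat.xor_lt_two_pow hn hc
  · intro n hn
    simp only [Finset.mem_range] at hn ⊢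
    exact Nat.xor_lt_two_pow hn hc
  · intro n _
    simp
  · intro n _
    simp
  · intro n _
    rfl

/-! ### Summation over the levels -/

section Levels

variable (m : ℕ) (f₀ f₁ f₂ : ℕ → ℕ → ℝ)

/-- The weighted total energy of level `j`. -/
noncomputable def levelE (L j : ℕ) : ℝ :=
  ∑ n₀ ∈ range (2 ^ (m - j)), ∑ n₁ ∈ range (2 ^ (m - j)), (4 : ℝ) ^ j * nodeW m f₀ f₁ f₂ L j n₀ n₁

/-- The weighted tile sum of level `j`. -/
noncomputable def levelD (j : ℕ) : ℝ :=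
  ∑ n₀ ∈ range (2 ^ (m - j)), ∑ n₁ ∈ range (2 ^ (m - j)),
    ((1 : ℝ) / 2 ^ j) * |tile m f₀ f₁ f₂ j n₀ n₁|

lemma levelE_nonneg (L j : ℕ) : 0 ≤ levelE m f₀ f₁ f₂ L j := by
  refine Finset.sum_nonneg fun _ _ => Finset.sum_nonneg fun _ _ => ?_
  exact mul_nonneg (by positivity) (W_nonneg _ _ _ _)

lemma levelE_split (L j : ℕ) (hj : j < m) :
    levelE m f₀ f₁ f₂ L j =
      ∑ n₀ ∈ range (2 ^ (m - (j + 1))), ∑ n₁ ∈ range (2 ^ (m - (j + 1))),
        (4 : ℝ) ^ j * ∑ b : Bool, ∑ b' : Bool,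
          nodeW m f₀ f₁ f₂ L j (2 * n₀ + b.toNat) (2 * n₁ + b'.toNat) := by
  have hN : 2 ^ (m - j) = 2 * 2 ^ (m - (j + 1)) := by
    rw [← pow_succ']
    congr 1
    omega
  unfold levelE
  rw [hN, sum_range_two_mul]
  refine Finset.sum_congr rfl fun n₀ _ => ?_
  simp only [sum_range_two_mul]
  rw [Finset.sum_comm]
  refine Finset.sum_congr rfl fun n₁ _ => ?_
  simp only [Finset.mul_sum]

lemma level_step (L j : ℕ) (hj : j < m)
    (hL : ∀ n₀ ∈ range (2 ^ (m - (j + 1))), ∀ n₁ ∈ range (2 ^ (m - (j + 1))),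
      nodeW m f₀ f₁ f₂ L (j + 1) n₀ n₁ + (1 / 32 : ℝ) * |nodeT m f₀ f₁ f₂ j n₀ n₁| ≤
        (1 / 4 : ℝ) * ∑ b : Bool, ∑ b' : Bool,
          nodeW m f₀ f₁ f₂ L j (2 * n₀ + b.toNat) (2 * n₁ + b'.toNat)) :
    levelE m f₀ f₁ f₂ L (j + 1) + (1 / 32 : ℝ) * levelD m f₀ f₁ f₂ (j + 1) ≤
      levelE m f₀ f₁ f₂ L j := by
  rw [levelE_split m f₀ f₁ f₂ L j hj]
  unfold levelE levelD
  simp only [Finset.mul_sum]
  rw [← Finset.sum_add_distrib]
  refine Finset.sum_le_sum fun n₀ hn₀ => ?_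
  rw [← Finset.sum_add_distrib]
  refine Finset.sum_le_sum fun n₁ hn₁ => ?_
  have hnode := hL n₀ hn₀ n₁ hn₁
  have h4 : (0 : ℝ) < 4 ^ (j + 1) := by positivity
  have hmul := mul_le_mul_of_nonneg_left hnode h4.le
  have htile : (4 : ℝ) ^ (j + 1) * |nodeT m f₀ f₁ f₂ j n₀ n₁| =
      ((1 : ℝ) / 2 ^ (j + 1)) * |tile m f₀ f₁ f₂ (j + 1) n₀ n₁| := by
    have := congrArg abs (tile_eq m f₀ f₁ f₂ j n₀ n₁)
    rwa [abs_mul, abs_mul, abs_of_pos h4, abs_of_pos (by positivity : (0 : ℝ) < 1 / 2 ^ (j + 1))]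
      at this
  have e1 : (4 : ℝ) ^ (j + 1) * ((1 / 4 : ℝ) * ∑ b : Bool, ∑ b' : Bool,
      nodeW m f₀ f₁ f₂ L j (2 * n₀ + b.toNat) (2 * n₁ + b'.toNat)) =
      ∑ b : Bool, ∑ b' : Bool,
        (4 : ℝ) ^ j * nodeW m f₀ f₁ f₂ L j (2 * n₀ + b.toNat) (2 * n₁ + b'.toNat) := by
    simp only [← Finset.mul_sum]
    rw [pow_succ]
    ring
  rw [e1] at hmul
  calc _ = (4 : ℝ) ^ (j + 1) * (nodeW m f₀ f₁ f₂ L (j + 1) n₀ n₁ +
        (1 / 32 : ℝ) * |nodeT m f₀ f₁ f₂ j n₀ n₁|) := by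
        rw [mul_add, mul_left_comm _ (1 / 32 : ℝ), htile]
    _ ≤ _ := hmul

lemma tele_levels (L : ℕ)
    (hL : ∀ j ∈ range m, ∀ n₀ ∈ range (2 ^ (m - (j + 1))), ∀ n₁ ∈ range (2 ^ (m - (j + 1))),
      nodeW m f₀ f₁ f₂ L (j + 1) n₀ n₁ + (1 / 32 : ℝ) * |nodeT m f₀ f₁ f₂ j n₀ n₁| ≤
        (1 / 4 : ℝ) * ∑ b : Bool, ∑ b' : Bool,
          nodeW m f₀ f₁ f₂ L j (2 * n₀ + b.toNat) (2 * n₁ + b'.toNat))
    (k : ℕ) (hk : k ≤ m) :
    levelE m f₀ f₁ f₂ L k + (1 / 32 : ℝ) * ∑ j ∈ range k, levelD m f₀ f₁ f₂ (j + 1) ≤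
      levelE m f₀ f₁ f₂ L 0 := by
  induction k with
  | zero => simp
  | succ k ih =>
    have h1 := ih (by omega)
    have h2 := level_step m f₀ f₁ f₂ L k (by omega) (hL k (Finset.mem_range.2 (by omega)))
    rw [Finset.sum_range_succ]
    linarith

lemma levelE_zero_le (L : ℕ) :
    levelE m f₀ f₁ f₂ L 0 ≤ 9 * ∑ i ∈ range (2 ^ m), ∑ i' ∈ range (2 ^ m),
      (|f₀ i i'| ^ 3 + |f₁ i i'| ^ 3 + |f₂ i i'| ^ 3) := by
  have hpt : ∀ n₀ ∈ range (2 ^ m), ∀ n₁ ∈ range (2 ^ m),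
      (4 : ℝ) ^ 0 * nodeW m f₀ f₁ f₂ L 0 n₀ n₁ ≤
        9 * (|f₀ n₀ n₁| ^ 3 + |f₁ n₁ (n₀ ^^^ n₁)| ^ 3 + |f₂ (n₀ ^^^ n₁) n₀| ^ 3) := by
    intro n₀ hn₀ n₁ hn₁
    have h₀ := Finset.mem_range.1 hn₀
    have h₁ := Finset.mem_range.1 hn₁
    have h₂ : n₀ ^^^ n₁ < 2 ^ m := Nat.xor_lt_two_pow h₀ h₁
    rw [pow_zero, one_mul]
    unfold nodeW
    rw [blockM_zero m _ _ _ h₀ h₁, blockM_zero m _ _ _ h₁ h₂, blockM_zero m _ _ _ h₂ h₀]
    exact W_leaf L _ _ _ _ _ _
  have hsum1 : ∑ n₀ ∈ range (2 ^ m), ∑ n₁ ∈ range (2 ^ m), |f₁ n₁ (n₀ ^^^ n₁)| ^ 3 =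
      ∑ i ∈ range (2 ^ m), ∑ i' ∈ range (2 ^ m), |f₁ i i'| ^ 3 := by
    rw [Finset.sum_comm]
    refine Finset.sum_congr rfl fun i hi => ?_
    exact sum_xor (Finset.mem_range.1 hi) (fun n => |f₁ i n| ^ 3)
  have hsum2 : ∑ n₀ ∈ range (2 ^ m), ∑ n₁ ∈ range (2 ^ m), |f₂ (n₀ ^^^ n₁) n₀| ^ 3 =
      ∑ i ∈ range (2 ^ m), ∑ i' ∈ range (2 ^ m), |f₂ i i'| ^ 3 := by
    rw [Finset.sum_comm (s := range (2 ^ m)) (t := range (2 ^ m))
      (f := fun i i' => |f₂ i i'| ^ 3)]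
    refine Finset.sum_congr rfl fun i hi => ?_
    have := sum_xor (Finset.mem_range.1 hi) (fun n => |f₂ n i| ^ 3)
    simp only [Nat.xor_comm i]
    exact this
  unfold levelE
  simp only [Nat.sub_zero]
  calc _ ≤ ∑ n₀ ∈ range (2 ^ m), ∑ n₁ ∈ range (2 ^ m),
        9 * (|f₀ n₀ n₁| ^ 3 + |f₁ n₁ (n₀ ^^^ n₁)| ^ 3 + |f₂ (n₀ ^^^ n₁) n₀| ^ 3) :=
        Finset.sum_le_sum fun n₀ hn₀ => Finset.sum_le_sum fun n₁ hn₁ => hpt n₀ hn₀ n₁ hn₁
    _ = _ := by
        simp only [← Finset.mul_sum, Finset.sum_add_distrib]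
        rw [hsum1, hsum2]

end Levels

/-- The discrete theorem follows from the Bellman step. -/
theorem discrete_of_block_aux (h : BlockLemma) : DiscreteThm := by
  intro m f₀ f₁ f₂
  have hev : ∀ᶠ L : ℕ in Filter.atTop, ∀ j ∈ range m, ∀ n₀ ∈ range (2 ^ (m - (j + 1))),
      ∀ n₁ ∈ range (2 ^ (m - (j + 1))),
      nodeW m f₀ f₁ f₂ L (j + 1) n₀ n₁ + (1 / 32 : ℝ) * |nodeT m f₀ f₁ f₂ j n₀ n₁| ≤
        (1 / 4 : ℝ) * ∑ b : Bool, ∑ b' : Bool,
          nodeW m f₀ f₁ f₂ L j (2 * n₀ + b.toNat) (2 * n₁ + b'.toNat) := by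
    simp only [Filter.eventually_all_finset]
    intro j _ n₀ _ n₁ _
    exact Filter.eventually_atTop.2 (node_step m f₀ f₁ f₂ h j n₀ n₁)
  obtain ⟨L, hL⟩ := hev.exists
  have h1 := tele_levels m f₀ f₁ f₂ L hL m le_rfl
  have h2 := levelE_nonneg m f₀ f₁ f₂ L m
  have h3 := levelE_zero_le m f₀ f₁ f₂ L
  have hT : 0 ≤ ∑ i ∈ range (2 ^ m), ∑ i' ∈ range (2 ^ m),
      (|f₀ i i'| ^ 3 + |f₁ i i'| ^ 3 + |f₂ i i'| ^ 3) := by positivity
  have hsum : ∑ j ∈ Finset.Icc 1 m, ∑ n₀ ∈ range (2 ^ (m - j)), ∑ n₁ ∈ range (2 ^ (m - j)),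
      ((1 : ℝ) / 2 ^ j) * |tile m f₀ f₁ f₂ j n₀ n₁| =
      ∑ j ∈ range m, levelD m f₀ f₁ f₂ (j + 1) := by
    have : Finset.Icc 1 m = Finset.Ico 1 (m + 1) := by
      ext x; simp only [Finset.mem_Icc, Finset.mem_Ico]; omega
    rw [this, Finset.range_eq_Ico, Finset.sum_Ico_add' (fun j => levelD m f₀ f₁ f₂ j) 0 m 1]
    rfl
  rw [hsum]
  linarith

end Tree

/-- The discrete theorem follows from the Bellman step. -/
theorem discrete_of_block (h : BlockLemma) : DiscreteThm := Tree.discrete_of_block_aux h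

end Vale.Agent.Lib.P075
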